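import Vale.Agent.P230.CapGeom

/-! P230 M2b: lattice atoms.  `exists_atoms`. -/

open MeasureTheory Metric Set
open scoped Pointwise BigOperators

noncomputable section

namespace Vale.Agent.P230

variable {n : ℕ}

/-- Lattice point with coordinates `ε k`. -/
def gridPt (ε : ℝ) (k : Fin n → ℤ) : EE n := WithLp.toLp 2 (fun i => ε * (k i : ℝ))

@[simp] lemma gridPt_apply (ε : ℝ) (k : Fin n → ℤ) (i : Fin n) : gridPt ε k i = ε * k i := rfl

/-- Half-open cube with lower corner `p`. -/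
def cell (ε : ℝ) (p : EE n) : Set (EE n) := {x | ∀ i, p i ≤ x i ∧ x i < p i + ε}

lemma cell_eq_preimage (ε : ℝ) (p : EE n) :
    cell ε p = WithLp.ofLp ⁻¹' (Set.pi univ fun i => Ico (p i) (p i + ε)) := by
  ext x
  simp [cell, Set.mem_pi]

lemma measurableSet_cell (ε : ℝ) (p : EE n) : MeasurableSet (cell ε p) := by
  rw [cell_eq_preimage]
  exact (PiLp.volume_preserving_ofLp (Fin n)).measurable
    (MeasurableSet.univ_pi fun i => measurableSet_Ico)

lemma volume_cell {ε : ℝ} (hε : 0 < ε) (p : EE n) :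
    volume (cell ε p) = ENNReal.ofReal (ε ^ n) := by
  rw [cell_eq_preimage, (PiLp.volume_preserving_ofLp (Fin n)).measure_preimage
    (MeasurableSet.univ_pi fun i => measurableSet_Ico).nullMeasurableSet, Real.volume_pi_Ico]
  simp [ENNReal.ofReal_pow hε.le]

lemma mem_cell_norm_le {ε : ℝ} (hε : 0 < ε) {p x : EE n} (hx : x ∈ cell ε p) :
    ‖x - p‖ ≤ ε * Real.sqrt n := by
  have hsum : ∑ i, ‖(x - p) i‖ ^ 2 ≤ n * ε ^ 2 := by
    calc ∑ i, ‖(x - p) i‖ ^ 2 ≤ ∑ _i : Fin n, ε ^ 2 := by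
          refine Finset.sum_le_sum fun i _ => ?_
          have h := hx i
          have : (x - p) i = x i - p i := rfl
          rw [this, Real.norm_eq_abs, sq_abs]
          have h0 : 0 ≤ x i - p i := by linarith [h.1]
          have h1 : x i - p i ≤ ε := by linarith [h.2]
          nlinarith
      _ = n * ε ^ 2 := by simp
  rw [EuclideanSpace.norm_eq]
  calc Real.sqrt (∑ i, ‖(x - p) i‖ ^ 2) ≤ Real.sqrt (n * ε ^ 2) := Real.sqrt_le_sqrt hsum
    _ = ε * Real.sqrt n := by
      rw [Real.sqrt_mul (Nat.cast_nonneg n), Real.sqrt_sq hε.le, mul_comm]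

lemma exists_cell {ε : ℝ} (hε : 0 < ε) (x : EE n) : ∃ k : Fin n → ℤ, x ∈ cell ε (gridPt ε k) := by
  refine ⟨fun i => ⌊x i / ε⌋, fun i => ?_⟩
  simp only [gridPt_apply]
  have h1 := Int.floor_le (x i / ε)
  have h2 := Int.lt_floor_add_one (x i / ε)
  have h3 : ε * (x i / ε) = x i := by field_simp
  constructor
  · nlinarith
  · nlinarith

lemma cell_disjoint {ε : ℝ} (hε : 0 < ε) {k k' : Fin n → ℤ} (h : gridPt ε k ≠ gridPt ε k') :
    Disjoint (cell ε (gridPt ε k)) (cell ε (gridPt ε k')) := by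
  rw [Set.disjoint_left]
  intro x hx hx'
  apply h
  have key : ∀ (k : Fin n → ℤ), x ∈ cell ε (gridPt ε k) → ∀ i, k i = ⌊x i / ε⌋ := by
    intro k hk i
    have h' := hk i
    simp only [gridPt_apply] at h'
    symm
    rw [Int.floor_eq_iff]
    constructor
    · rw [le_div_iff₀ hε]; nlinarith [h'.1]
    · rw [div_lt_iff₀ hε]; nlinarith [h'.2]
  have : k = k' := by
    funext i
    rw [key k hx i, key k' hx' i]
  rw [this]

/-- The lattice points in the closed unit ball. -/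
def atomSet (n : ℕ) (ε : ℝ) : Set (EE n) := {p | (∃ k, p = gridPt ε k) ∧ ‖p‖ ≤ 1}

lemma atomSet_finite {ε : ℝ} (hε : 0 < ε) : (atomSet n ε).Finite := by
  let N : ℤ := ⌈1 / ε⌉
  refine ((Set.finite_Icc (fun _ : Fin n => -N) (fun _ => N)).image (gridPt ε)).subset ?_
  rintro p ⟨⟨k, rfl⟩, hp⟩
  have hbd : ∀ i, |(k i : ℝ)| ≤ N := by
    intro i
    have h1 : ‖gridPt ε k i‖ ≤ ‖gridPt ε k‖ := PiLp.norm_apply_le (gridPt ε k) i
    rw [gridPt_apply, Real.norm_eq_abs, abs_mul, abs_of_pos hε] at h1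
    have h2 : |(k i : ℝ)| ≤ 1 / ε := by
      rw [le_div_iff₀ hε]
      linarith
    exact h2.trans (Int.le_ceil _)
  refine ⟨k, ⟨fun i => ?_, fun i => ?_⟩, rfl⟩
  · have := (abs_le.mp (hbd i)).1
    show -N ≤ k i
    exact_mod_cast this
  · have := (abs_le.mp (hbd i)).2
    show k i ≤ N
    exact_mod_cast this

lemma volume_biUnion_cells {ε : ℝ} (hε : 0 < ε) (C : Finset (EE n))
    (hC : ∀ p ∈ C, ∃ k, p = gridPt ε k) :
    volume (⋃ p ∈ C, cell ε p) = (C.card : ENNReal) * ENNReal.ofReal (ε ^ n) := by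
  rw [measure_biUnion_finset ?_ (fun p _ => measurableSet_cell ε p)]
  · simp [volume_cell hε]
  · intro p hp p' hp' hne
    obtain ⟨k, rfl⟩ := hC p hp
    obtain ⟨k', rfl⟩ := hC p' hp'
    exact cell_disjoint hε hne

/-- Upper counting bound. -/
lemma count_upper {ε : ℝ} (hε : 0 < ε) {e0 : EE n} (he0 : ‖e0‖ = 1) {z : EE n} (hz : z ≠ 0)
    (T : ℝ) (D : Finset (EE n)) (hD : ∀ p ∈ D, (∃ k, p = gridPt ε k) ∧ ‖p‖ ≤ 1) :
    ((cap D z T).card : ℝ) * ε ^ n ≤
      (1 + ε * Real.sqrt n) ^ n * capVol e0 ((T / ‖z‖ - ε * Real.sqrt n) / (1 + ε * Real.sqrt n)) := by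
  classical
  set δ : ℝ := ε * Real.sqrt n with hδ
  have hδ0 : 0 ≤ δ := mul_nonneg hε.le (Real.sqrt_nonneg _)
  have hzpos : 0 < ‖z‖ := norm_pos_iff.mpr hz
  set e : EE n := ‖z‖⁻¹ • z with he
  have hen : ‖e‖ = 1 := by
    rw [he, norm_smul, norm_inv, norm_norm, inv_mul_cancel₀ hzpos.ne']
  set t' : ℝ := (T / ‖z‖ - δ) / (1 + δ) with ht'
  have h1δ : 0 < 1 + δ := by linarith
  have hsub : (⋃ p ∈ cap D z T, cell ε p) ⊆ (fun u => (1 + δ) • u + (0 : EE n)) '' capSet e t' := by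
    intro x hx
    simp only [mem_iUnion, exists_prop] at hx
    obtain ⟨p, hp, hxp⟩ := hx
    have hp' : p ∈ D ∧ T < inner ℝ z p := by
      unfold cap at hp
      simpa using hp
    have hpn := (hD p hp'.1).2
    have hd := mem_cell_norm_le hε hxp
    rw [← hδ] at hd
    refine ⟨(1 + δ)⁻¹ • x, ⟨?_, ?_⟩, ?_⟩
    · rw [norm_smul, norm_inv, Real.norm_of_nonneg h1δ.le, inv_mul_le_iff₀ h1δ]
      have : ‖x‖ ≤ ‖x - p‖ + ‖p‖ := norm_le_norm_sub_add _ _
      linarith
    · rw [inner_smul_right, ht', div_eq_inv_mul]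
      refine mul_lt_mul_of_pos_left ?_ (inv_pos.mpr h1δ)
      have h2 : |inner ℝ e (x - p)| ≤ ‖e‖ * ‖x - p‖ := abs_real_inner_le_norm _ _
      rw [hen, one_mul] at h2
      have h3 := (abs_le.mp h2).1
      have h4 : inner ℝ e (x - p) = inner ℝ e x - inner ℝ e p := inner_sub_right _ _ _
      have h5 : inner ℝ e p = ‖z‖⁻¹ * inner ℝ z p := by
        rw [he, real_inner_smul_left]
      have h6 : T / ‖z‖ < inner ℝ e p := by
        rw [h5, div_eq_inv_mul]
        exact mul_lt_mul_of_pos_left hp'.2 (inv_pos.mpr hzpos)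
      linarith
    · simp only [add_zero]
      rw [smul_smul, mul_inv_cancel₀ h1δ.ne', one_smul]
  have hvol := measure_mono (μ := volume) hsub
  rw [volume_biUnion_cells hε _ (fun p hp => by
      have hp' : p ∈ D := (Finset.mem_filter.mp hp).1
      exact (hD p hp').1),
    vol_affine_image (1 + δ) h1δ 0] at hvol
  have hvol' := ENNReal.toReal_mono
    (ENNReal.mul_ne_top ENNReal.ofReal_ne_top (volume_capSet_lt_top e t').ne) hvol
  rw [ENNReal.toReal_mul, ENNReal.toReal_mul, ENNReal.toReal_ofReal (pow_pos hε n).le,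
    ENNReal.toReal_ofReal (pow_pos h1δ n).le, ENNReal.toReal_natCast] at hvol'
  have heq : capVol e t' = capVol e0 t' := capVol_eq (by rw [hen, he0]) t'
  rw [← heq]
  exact hvol'

/-- Lower counting bound. -/
lemma count_lower {ε : ℝ} (hε : 0 < ε) {e0 : EE n} (he0 : ‖e0‖ = 1) {z : EE n} (hz : z ≠ 0)
    (T : ℝ) (D : Finset (EE n)) (hD : ∀ p, p ∈ D ↔ (∃ k, p = gridPt ε k) ∧ ‖p‖ ≤ 1)
    (hδ1 : ε * Real.sqrt n < 1) :
    (1 - ε * Real.sqrt n) ^ n * capVol e0 ((T / ‖z‖ + ε * Real.sqrt n) / (1 - ε * Real.sqrt n))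
      ≤ ((cap D z T).card : ℝ) * ε ^ n := by
  classical
  set δ : ℝ := ε * Real.sqrt n with hδ
  have hδ0 : 0 ≤ δ := mul_nonneg hε.le (Real.sqrt_nonneg _)
  have hzpos : 0 < ‖z‖ := norm_pos_iff.mpr hz
  set e : EE n := ‖z‖⁻¹ • z with he
  have hen : ‖e‖ = 1 := by
    rw [he, norm_smul, norm_inv, norm_norm, inv_mul_cancel₀ hzpos.ne']
  set t'' : ℝ := (T / ‖z‖ + δ) / (1 - δ) with ht''
  have h1δ : 0 < 1 - δ := by linarith
  have hsub : (fun u => (1 - δ) • u + (0 : EE n)) '' capSet e t'' ⊆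
      (⋃ p ∈ cap D z T, cell ε p) := by
    rintro _ ⟨u, ⟨hu1, hu2⟩, rfl⟩
    simp only [add_zero]
    set x : EE n := (1 - δ) • u with hx
    obtain ⟨k, hk⟩ := exists_cell hε x
    have hd := mem_cell_norm_le hε hk
    rw [← hδ] at hd
    have hxn : ‖x‖ ≤ 1 - δ := by
      rw [hx, norm_smul, Real.norm_of_nonneg h1δ.le]
      nlinarith
    have hpn : ‖gridPt ε k‖ ≤ 1 := by
      have : ‖gridPt ε k‖ ≤ ‖x - gridPt ε k‖ + ‖x‖ := by
        rw [← norm_neg (x - gridPt ε k), neg_sub]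
        exact norm_le_norm_sub_add _ _
      linarith
    have hpD : gridPt ε k ∈ D := (hD _).mpr ⟨⟨k, rfl⟩, hpn⟩
    simp only [mem_iUnion, exists_prop]
    refine ⟨gridPt ε k, ?_, hk⟩
    unfold cap
    rw [Finset.mem_filter]
    refine ⟨hpD, ?_⟩
    have h2 : |inner ℝ e (x - gridPt ε k)| ≤ ‖e‖ * ‖x - gridPt ε k‖ := abs_real_inner_le_norm _ _
    rw [hen, one_mul] at h2
    have h3 := (abs_le.mp h2).2
    have h4 : inner ℝ e (x - gridPt ε k) = inner ℝ e x - inner ℝ e (gridPt ε k) :=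
      inner_sub_right _ _ _
    have h5 : inner ℝ e (gridPt ε k) = ‖z‖⁻¹ * inner ℝ z (gridPt ε k) := by
      rw [he, real_inner_smul_left]
    have h6 : inner ℝ e x = (1 - δ) * inner ℝ e u := by
      rw [hx, inner_smul_right]
    have h7 : (T / ‖z‖ + δ) < (1 - δ) * inner ℝ e u := by
      have := mul_lt_mul_of_pos_left hu2 h1δ
      rwa [ht'', mul_div_cancel₀ _ h1δ.ne'] at this
    have h8 : T / ‖z‖ < ‖z‖⁻¹ * inner ℝ z (gridPt ε k) := by
      linarith
    rw [div_eq_inv_mul] at h8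
    exact lt_of_mul_lt_mul_left h8 (inv_pos.mpr hzpos).le
  have hvol := measure_mono (μ := volume) hsub
  rw [volume_biUnion_cells hε _ (fun p hp => by
      have hp' : p ∈ D := (Finset.mem_filter.mp hp).1
      exact ((hD p).mp hp').1),
    vol_affine_image (1 - δ) h1δ 0] at hvol
  have hfin : ((cap D z T).card : ENNReal) * ENNReal.ofReal (ε ^ n) ≠ ⊤ :=
    ENNReal.mul_ne_top (ENNReal.natCast_ne_top _) ENNReal.ofReal_ne_top
  have hvol' := ENNReal.toReal_mono hfin hvol
  rw [ENNReal.toReal_mul, ENNReal.toReal_mul, ENNReal.toReal_ofReal (pow_pos hε n).le,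
    ENNReal.toReal_ofReal (pow_pos h1δ n).le, ENNReal.toReal_natCast] at hvol'
  have heq : capVol e t'' = capVol e0 t'' := capVol_eq (by rw [hen, he0]) t''
  rw [← heq]
  exact hvol'

/-- Numeric step for the upper bound. -/
lemma upper_step {e0 : EE n} (he0 : ‖e0‖ = 1) {t δ : ℝ} (ht0 : 0 ≤ t) (ht1 : t < 1) (hδ0 : 0 ≤ δ)
    (hnδ : (n : ℝ) * (2 * δ / (1 - t)) ≤ 1 / 25) :
    (1 + δ) ^ n * capVol e0 ((t - δ) / (1 + δ)) ≤ 2 * capVol e0 t := by
  have h1t : 0 < 1 - t := by linarith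
  have h1δ : 0 < 1 + δ := by linarith
  set t' : ℝ := (t - δ) / (1 + δ) with ht'
  have h1t' : 1 - t' = (1 - t + 2 * δ) / (1 + δ) := by
    rw [ht']; field_simp; ring
  have h1t'pos : 0 < 1 - t' := by
    rw [h1t']; positivity
  have hdiff : 0 ≤ t - t' := by
    have : t' ≤ t := by
      rw [ht', div_le_iff₀ h1δ]
      nlinarith [mul_nonneg ht0 hδ0]
    linarith
  have hB := capB he0 (t := t') (d := t - t') hdiff (by linarith)
  have h2 : t' + (t - t') = t := by ring
  rw [h2] at hB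
  set y : ℝ := 2 * δ / (1 - t) with hy
  have hy0 : 0 ≤ y := by positivity
  have hfac : (1 - t' - (t - t')) / (1 - t') * (1 + y) = 1 + δ := by
    have h3 : 1 - t' - (t - t') = 1 - t := by ring
    rw [h3, h1t', hy]
    field_simp
  have hβ : 0 ≤ (1 - t' - (t - t')) / (1 - t') := by
    apply div_nonneg _ h1t'pos.le
    linarith
  have hpow : (1 + δ) ^ n = ((1 - t' - (t - t')) / (1 - t')) ^ n * (1 + y) ^ n := by
    rw [← mul_pow, hfac]
  have hexp : (1 + y) ^ n ≤ 2 := by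
    have h4 : (1 + y) ^ n ≤ Real.exp y ^ n :=
      pow_le_pow_left₀ (by linarith) (by linarith [Real.add_one_le_exp y]) n
    have h5 : Real.exp y ^ n = Real.exp (n * y) := by rw [Real.exp_nat_mul]
    have h6 : Real.exp (n * y) ≤ Real.exp (1 / 25) := Real.exp_le_exp.mpr hnδ
    have h7 : Real.exp (1 / 25) ≤ 2 := by
      have h8 := Real.add_one_le_exp (-(1 / 25 : ℝ))
      have h9 : Real.exp (-(1 / 25 : ℝ)) * Real.exp (1 / 25) = 1 := by
        rw [← Real.exp_add]; simp
      have h10 := Real.exp_pos (1 / 25 : ℝ)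
      nlinarith
    linarith
  rw [hpow]
  calc ((1 - t' - (t - t')) / (1 - t')) ^ n * (1 + y) ^ n * capVol e0 t'
      = (1 + y) ^ n * (((1 - t' - (t - t')) / (1 - t')) ^ n * capVol e0 t') := by ring
    _ ≤ 2 * capVol e0 t := by
      apply mul_le_mul hexp hB (mul_nonneg (pow_nonneg hβ n) (capVol_nonneg _ _)) (by norm_num)

/-- Numeric step for the lower bound. -/
lemma lower_step {e0 : EE n} (he0 : ‖e0‖ = 1) {t δ : ℝ} (ht0 : 0 ≤ t) (ht1 : t < 1) (hδ0 : 0 ≤ δ)
    (hδ1 : 2 * δ < 1 - t) (hδ2 : δ < 1)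
    (hnδ : (n : ℝ) * (2 * δ / (1 - t)) ≤ 1 / 25) :
    capVol e0 t / 2 ≤ (1 - δ) ^ n * capVol e0 ((t + δ) / (1 - δ)) := by
  have h1t : 0 < 1 - t := by linarith
  have h1δ : 0 < 1 - δ := by linarith
  set t'' : ℝ := (t + δ) / (1 - δ) with ht''
  have h1t'' : 1 - t'' = (1 - t - 2 * δ) / (1 - δ) := by
    rw [ht'']; field_simp; ring
  have h1t''pos : 0 < 1 - t'' := by
    rw [h1t'']; exact div_pos (by linarith) h1δ
  have hdiff : 0 ≤ t'' - t := by
    have : t ≤ t'' := by
      rw [ht'', le_div_iff₀ h1δ]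
      nlinarith [mul_nonneg ht0 hδ0]
    linarith
  have hB := capB he0 (t := t) (d := t'' - t) hdiff (by linarith)
  have h2 : t + (t'' - t) = t'' := by ring
  rw [h2] at hB
  set y : ℝ := 2 * δ / (1 - t) with hy
  have hy0 : 0 ≤ y := by positivity
  have hfac : (1 - δ) * ((1 - t - (t'' - t)) / (1 - t)) = 1 + (-y) := by
    have h3 : 1 - t - (t'' - t) = 1 - t'' := by ring
    rw [h3, h1t'', hy]
    field_simp
    ring
  have hbern : 1 + (n : ℝ) * (-y) ≤ (1 + (-y)) ^ n := by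
    apply one_add_mul_le_pow
    have : y < 1 := by
      rw [hy, div_lt_one h1t]; exact hδ1
    linarith
  have hp : (1 - δ) ^ n * ((1 - t - (t'' - t)) / (1 - t)) ^ n = (1 + (-y)) ^ n := by
    rw [← mul_pow, hfac]
  have hV := capVol_nonneg e0 t
  have hV'' := capVol_nonneg e0 t''
  have h5 : (1 - δ) ^ n * (((1 - t - (t'' - t)) / (1 - t)) ^ n * capVol e0 t) ≤
      (1 - δ) ^ n * capVol e0 t'' := mul_le_mul_of_nonneg_left hB (pow_nonneg h1δ.le n)
  rw [← mul_assoc, hp] at h5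
  have h6 : (1 / 2 : ℝ) ≤ (1 + (-y)) ^ n := by nlinarith
  nlinarith

/-- The atoms exist, in every dimension `≥ 2`. -/
theorem exists_atoms (n : ℕ) (hn : 2 ≤ n) :
    ∃ (D : Finset (EE n)) (q : ℝ) (Psi : ℝ → ℝ), AtomFacts n D q Psi := by
  classical
  have hn0 : 0 < n := by omega
  have hnR : (0 : ℝ) < n := by exact_mod_cast hn0
  let e0 : EE n := EuclideanSpace.single ⟨0, hn0⟩ 1
  have he0 : ‖e0‖ = 1 := by simp [e0]
  have hkappa : 0 < kappa := by norm_num [kappa]
  have hkappa1 : kappa < 1 / 100 := by norm_num [kappa]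
  have ht1lt : t1 < 1 := by unfold t1; linarith
  have ht10 : 0 ≤ t1 := by unfold t1; linarith
  have hV1 : 0 < capVol e0 t1 := capVol_pos he0 ht10 ht1lt
  set V1 : ℝ := capVol e0 t1 with hV1def
  have hsqrt : 0 < Real.sqrt n := Real.sqrt_pos.mpr hnR
  set ε : ℝ := min 1 (min (V1 / 2) (kappa / (100 * n * Real.sqrt n))) with hεdef
  have hε : 0 < ε := by
    apply lt_min one_pos
    apply lt_min (by positivity)
    positivity
  have hε1 : ε ≤ 1 := min_le_left _ _
  have hε2 : ε ≤ V1 / 2 := (min_le_right _ _).trans (min_le_left _ _)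
  have hε3 : ε ≤ kappa / (100 * n * Real.sqrt n) := (min_le_right _ _).trans (min_le_right _ _)
  set δ : ℝ := ε * Real.sqrt n with hδdef
  have hδ0 : 0 ≤ δ := by positivity
  have hδle : δ ≤ kappa / (100 * n) := by
    rw [hδdef]
    calc ε * Real.sqrt n ≤ kappa / (100 * n * Real.sqrt n) * Real.sqrt n :=
          mul_le_mul_of_nonneg_right hε3 hsqrt.le
      _ = kappa / (100 * n) := by field_simp
  have hn1R : (1 : ℝ) ≤ n := by exact_mod_cast hn0
  have hδkappa : δ ≤ kappa / 100 := by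
    refine hδle.trans ?_
    apply div_le_div_of_nonneg_left hkappa.le (by norm_num)
    nlinarith
  let D : Finset (EE n) := (atomSet_finite hε).toFinset
  have hD : ∀ p, p ∈ D ↔ (∃ k, p = gridPt ε k) ∧ ‖p‖ ≤ 1 := by
    intro p
    simp only [D, Set.Finite.mem_toFinset]
    rfl
  have hnum : ∀ t : ℝ, t ≤ tmax →
      (n : ℝ) * (2 * δ / (1 - t)) ≤ 1 / 25 ∧ t < 1 ∧ 2 * δ < 1 - t := by
    intro t ht
    have ht1 : kappa / 2 ≤ 1 - t := by
      unfold tmax at ht; linarith
    have h1t : 0 < 1 - t := by linarith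
    refine ⟨?_, by linarith, by linarith⟩
    have h1 : 2 * δ / (1 - t) ≤ 2 * δ / (kappa / 2) :=
      div_le_div_of_nonneg_left (by positivity) (by positivity) ht1
    have h2 : (n : ℝ) * (2 * δ / (kappa / 2)) ≤ 1 / 25 := by
      have h3 : (n : ℝ) * δ ≤ kappa / 100 := by
        calc (n : ℝ) * δ ≤ n * (kappa / (100 * n)) := mul_le_mul_of_nonneg_left hδle hnR.le
          _ = kappa / 100 := by field_simp
      calc (n : ℝ) * (2 * δ / (kappa / 2)) = 4 * (n * δ) / kappa := by field_simp; ring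
        _ ≤ 4 * (kappa / 100) / kappa := by gcongr
        _ = 1 / 25 := by field_simp; norm_num
    exact (mul_le_mul_of_nonneg_left h1 hnR.le).trans h2
  refine ⟨D, ε ^ n / V1, fun t => capVol e0 t / V1, ?_⟩
  refine
    { q_pos := by positivity
      q_le := ?_
      norm_le := fun u hu => ((hD u).mp hu).2
      Psi_t1 := div_self hV1.ne'
      Psi_pos := ?_
      upper := ?_
      lower := ?_
      psiA := ?_
      psiB := ?_ }
  · rw [div_le_iff₀ hV1]
    have h1 : ε ^ n ≤ ε := pow_le_of_le_one hε.le hε1 hn0.ne'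
    linarith
  · intro t ht ht'
    have := capVol_pos he0 (t := t) (by linarith) (hnum t ht').2.1
    positivity
  · intro z T hz ht ht'
    set t := T / ‖z‖ with ht0
    obtain ⟨h1, h2, h3⟩ := hnum t ht'
    have hU := count_upper hε he0 hz T D (fun p hp => (hD p).mp hp)
    rw [← ht0, ← hδdef] at hU
    have hS := upper_step he0 (by linarith) h2 hδ0 h1
    have : (ε ^ n / V1) * ((cap D z T).card : ℝ) = ((cap D z T).card * ε ^ n) / V1 := by ring
    rw [this, ← mul_div_assoc]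
    exact div_le_div_of_nonneg_right (hU.trans hS) hV1.le
  · intro z T hz ht ht'
    set t := T / ‖z‖ with ht0
    obtain ⟨h1, h2, h3⟩ := hnum t ht'
    have hδ1 : ε * Real.sqrt n < 1 := by
      rw [← hδdef]; linarith
    have hL := count_lower hε he0 hz T D hD hδ1
    rw [← ht0, ← hδdef] at hL
    have hS := lower_step he0 (by linarith) h2 hδ0 h3 (by linarith) h1
    have : (ε ^ n / V1) * ((cap D z T).card : ℝ) = ((cap D z T).card * ε ^ n) / V1 := by ring
    rw [this]
    have h5 : (1 / 2) * (capVol e0 t / V1) = (capVol e0 t / 2) / V1 := by ring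
    rw [h5]
    exact div_le_div_of_nonneg_right (hS.trans hL) hV1.le
  · intro t d ht hd htd
    have hle : t + d ≤ 1 := by
      unfold tmax at htd; linarith
    have hA := capA he0 (t := t) (d := d) (by linarith) hd hle
    have : Real.exp (-(n * t * d)) * (capVol e0 t / V1) = (Real.exp (-(n * t * d)) * capVol e0 t) / V1 := by
      ring
    rw [this]
    exact div_le_div_of_nonneg_right hA hV1.le
  · intro t d ht hd hd2 htd
    have h1 := hnum t (by linarith)
    have h1t : 0 < 1 - t := by linarith [h1.2.1]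
    have hle : t + d < 1 := (hnum (t + d) htd).2.1
    have hB := capB he0 (t := t) (d := d) hd hle
    set x : ℝ := d / (1 - t) with hx
    have hx0 : 0 ≤ x := by positivity
    have hx1 : x ≤ 1 / 2 := by
      rw [hx, div_le_iff₀ h1t]
      linarith
    have hα : (1 - t - d) / (1 - t) = 1 - x := by
      rw [hx]
      field_simp
    rw [hα] at hB
    have hexp : Real.exp (-(2 * x)) ≤ 1 - x := by
      have h2 := Real.add_one_le_exp (2 * x)
      have h3 : Real.exp (-(2 * x)) * Real.exp (2 * x) = 1 := by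
        rw [← Real.exp_add]; simp
      have h4 : 0 < Real.exp (-(2 * x)) := Real.exp_pos _
      have h5 : 1 ≤ (1 - x) * Real.exp (2 * x) := by
        have : (1 - x) * (2 * x + 1) ≤ (1 - x) * Real.exp (2 * x) :=
          mul_le_mul_of_nonneg_left (by linarith) (by linarith)
        nlinarith
      have h6 : Real.exp (-(2 * x)) * 1 ≤
          Real.exp (-(2 * x)) * ((1 - x) * Real.exp (2 * x)) :=
        mul_le_mul_of_nonneg_left h5 h4.le
      nlinarith
    have hpow : Real.exp (-(2 * n * d / (1 - t))) ≤ (1 - x) ^ n := by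
      have h7 : Real.exp (-(2 * n * d / (1 - t))) = Real.exp (-(2 * x)) ^ n := by
        rw [← Real.exp_nat_mul]
        congr 1
        rw [hx]
        ring
      rw [h7]
      exact pow_le_pow_left₀ (Real.exp_pos _).le hexp n
    have h8 : Real.exp (-(2 * n * d / (1 - t))) * (capVol e0 t / V1) =
        (Real.exp (-(2 * n * d / (1 - t))) * capVol e0 t) / V1 := by ring
    rw [h8]
    apply div_le_div_of_nonneg_right _ hV1.le
    exact (mul_le_mul_of_nonneg_right hpow (capVol_nonneg _ _)).trans hB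

end Vale.Agent.P230
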