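import Vale.Agent.P230.Defs

/-! P230 M2a: volumes of caps of the unit ball: rotation invariance, the two monotonicity
estimates (A), (B), positivity. -/

open MeasureTheory Metric Set
open scoped Pointwise

noncomputable section

namespace Vale.Agent.P230

variable {n : ℕ}

/-- The cap of the closed unit ball in direction `e` at height `t`. -/
def capSet (e : EE n) (t : ℝ) : Set (EE n) := {u | ‖u‖ ≤ 1 ∧ t < inner ℝ e u}

lemma capSet_subset (e : EE n) (t : ℝ) : capSet e t ⊆ closedBall 0 1 := by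
  intro u hu
  simpa using hu.1

lemma measurableSet_capSet (e : EE n) (t : ℝ) : MeasurableSet (capSet e t) := by
  have h1 : MeasurableSet {u : EE n | ‖u‖ ≤ 1} := measurableSet_le (by fun_prop) (by fun_prop)
  have h2 : MeasurableSet {u : EE n | t < inner ℝ e u} :=
    measurableSet_lt (by fun_prop) (by fun_prop)
  exact h1.inter h2

lemma volume_capSet_lt_top (e : EE n) (t : ℝ) : volume (capSet e t) < ⊤ :=
  (measure_mono (capSet_subset e t)).trans_lt measure_closedBall_lt_top

/-- Real volume of a cap. -/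
def capVol (e : EE n) (t : ℝ) : ℝ := (volume (capSet e t)).toReal

lemma capVol_nonneg (e : EE n) (t : ℝ) : 0 ≤ capVol e t := ENNReal.toReal_nonneg

/-- Rotation invariance: the volume of the cap depends only on the norm of the direction. -/
lemma capVol_eq {e e' : EE n} (he : ‖e‖ = ‖e'‖) (t : ℝ) : capVol e t = capVol e' t := by
  let R : EE n ≃ₗᵢ[ℝ] EE n := Submodule.reflection (ℝ ∙ (e - e'))ᗮ
  have hR : R e = e' := Submodule.reflection_sub he
  have hpre : R ⁻¹' capSet e' t = capSet e t := by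
    ext u
    simp only [capSet, mem_preimage, Set.mem_ofPred_eq]
    rw [← hR, LinearIsometryEquiv.inner_map_map, LinearIsometryEquiv.norm_map]
  unfold capVol
  rw [← hpre, (R.measurePreserving).measure_preimage (measurableSet_capSet e' t).nullMeasurableSet]

lemma vol_affine_image (σ : ℝ) (hσ : 0 < σ) (c : EE n) (S : Set (EE n)) :
    volume ((fun u => σ • u + c) '' S) = ENNReal.ofReal (σ ^ n) * volume S := by
  have h : (fun u => σ • u + c) '' S = (fun x => x + c) '' (σ • S) := by
    ext x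
    simp only [mem_image, Set.mem_smul_set]
    constructor
    · rintro ⟨u, hu, rfl⟩
      exact ⟨σ • u, ⟨u, hu, rfl⟩, rfl⟩
    · rintro ⟨_, ⟨u, hu, rfl⟩, rfl⟩
      exact ⟨u, hu, rfl⟩
  rw [h, Set.image_add_right, measure_preimage_add_right, Measure.addHaar_smul,
    finrank_euclideanSpace_fin, abs_of_pos (pow_pos hσ n)]

/-- Estimate (A): pushing the cap up by `d` loses a factor `exp(-n t d)`. -/
lemma capA {e : EE n} (he : ‖e‖ = 1) {t d : ℝ} (ht : 0 < t) (hd : 0 ≤ d) (htd : t + d ≤ 1) :
    capVol e (t + d) ≤ Real.exp (-(n * t * d)) * capVol e t := by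
  set s2 : ℝ := 1 - 2 * d * t - d ^ 2 with hs2
  have hs2pos : 0 < s2 := by
    have : (t + d) ^ 2 ≤ 1 := by nlinarith
    nlinarith [sq_pos_of_pos ht]
  set σ : ℝ := Real.sqrt s2 with hσdef
  have hσ : 0 < σ := Real.sqrt_pos.mpr hs2pos
  have hσ2 : σ ^ 2 = s2 := Real.sq_sqrt hs2pos.le
  have hσ1 : σ ≤ 1 := by
    have : σ ^ 2 ≤ 1 := by rw [hσ2, hs2]; nlinarith [sq_nonneg d, mul_nonneg hd ht.le]
    nlinarith
  have hsub : capSet e (t + d) ⊆ (fun u => σ • u + d • e) '' capSet e t := by
    rintro u ⟨hu1, hu2⟩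
    refine ⟨σ⁻¹ • (u - d • e), ⟨?_, ?_⟩, ?_⟩
    · rw [norm_smul, norm_inv, Real.norm_of_nonneg hσ.le]
      have hn : ‖u - d • e‖ ^ 2 ≤ σ ^ 2 := by
        rw [hσ2, @norm_sub_sq_real, norm_smul, he, inner_smul_right, real_inner_comm]
        rw [Real.norm_of_nonneg hd]
        have h1 : ‖u‖ ^ 2 ≤ 1 := by nlinarith [norm_nonneg u]
        have h2 : d * (t + d) ≤ d * inner ℝ e u := mul_le_mul_of_nonneg_left hu2.le hd
        rw [real_inner_comm] at h2
        nlinarith
      have hn' : ‖u - d • e‖ ≤ σ := by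
        exact (pow_le_pow_iff_left₀ (norm_nonneg _) hσ.le two_ne_zero).mp hn
      rw [inv_mul_le_iff₀ hσ]
      linarith
    · rw [inner_smul_right, inner_sub_right, inner_smul_right, real_inner_self_eq_norm_sq, he]
      have h3 : t < inner ℝ e u - d * 1 ^ 2 := by linarith
      have h4 : t ≤ σ⁻¹ * t := by
        rw [le_inv_mul_iff₀ hσ]
        nlinarith
      have h5 : σ⁻¹ * t < σ⁻¹ * (inner ℝ e u - d * 1 ^ 2) :=
        mul_lt_mul_of_pos_left h3 (inv_pos.mpr hσ)
      linarith
    · simp only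
      rw [smul_smul, mul_inv_cancel₀ hσ.ne', one_smul]
      abel
  have hle : volume (capSet e (t + d)) ≤ ENNReal.ofReal (σ ^ n) * volume (capSet e t) := by
    rw [← vol_affine_image σ hσ (d • e)]
    exact measure_mono hsub
  have hle' : capVol e (t + d) ≤ σ ^ n * capVol e t := by
    unfold capVol
    have := ENNReal.toReal_mono
      (ENNReal.mul_ne_top ENNReal.ofReal_ne_top (volume_capSet_lt_top e t).ne) hle
    rwa [ENNReal.toReal_mul, ENNReal.toReal_ofReal (pow_pos hσ n).le] at this
  refine hle'.trans (mul_le_mul_of_nonneg_right ?_ (capVol_nonneg e t))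
  have hσe : σ ≤ Real.exp (-(d * t)) := by
    have h1 : s2 ≤ Real.exp (-(2 * (d * t))) := by
      have := Real.add_one_le_exp (-(2 * (d * t)))
      rw [hs2]
      nlinarith [sq_nonneg d]
    have h2 : Real.exp (-(2 * (d * t))) = Real.exp (-(d * t)) ^ 2 := by
      rw [← Real.exp_nat_mul]
      congr 1
      push_cast
      ring
    rw [hσdef]
    rw [h2] at h1
    exact Real.sqrt_le_iff.mpr ⟨(Real.exp_pos _).le, h1⟩
  calc σ ^ n ≤ Real.exp (-(d * t)) ^ n := pow_le_pow_left₀ hσ.le hσe n
    _ = Real.exp (-(n * t * d)) := by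
      rw [← Real.exp_nat_mul]
      congr 1
      ring

/-- Estimate (B): homothety at the pole. -/
lemma capB {e : EE n} (he : ‖e‖ = 1) {t d : ℝ} (hd : 0 ≤ d) (htd : t + d < 1) :
    ((1 - t - d) / (1 - t)) ^ n * capVol e t ≤ capVol e (t + d) := by
  have ht1 : 0 < 1 - t := by linarith
  set α : ℝ := (1 - t - d) / (1 - t) with hα
  have hαpos : 0 < α := div_pos (by linarith) ht1
  have hα1 : α ≤ 1 := by
    rw [hα, div_le_one ht1]
    linarith
  have hαeq : α * (1 - t) = 1 - t - d := by
    rw [hα]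
    field_simp
  have hsub : (fun u => α • u + (1 - α) • e) '' capSet e t ⊆ capSet e (t + d) := by
    rintro _ ⟨u, ⟨hu1, hu2⟩, rfl⟩
    refine ⟨?_, ?_⟩
    · calc ‖α • u + (1 - α) • e‖ ≤ ‖α • u‖ + ‖(1 - α) • e‖ := norm_add_le _ _
        _ = α * ‖u‖ + (1 - α) * ‖e‖ := by
          rw [norm_smul, norm_smul, Real.norm_of_nonneg hαpos.le,
            Real.norm_of_nonneg (by linarith)]
        _ ≤ 1 := by rw [he]; nlinarith
    · simp only
      rw [inner_add_right, inner_smul_right, inner_smul_right, real_inner_self_eq_norm_sq, he]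
      have := mul_lt_mul_of_pos_left hu2 hαpos
      nlinarith
  have hle : ENNReal.ofReal (α ^ n) * volume (capSet e t) ≤ volume (capSet e (t + d)) := by
    rw [← vol_affine_image α hαpos ((1 - α) • e)]
    exact measure_mono hsub
  unfold capVol
  have := ENNReal.toReal_mono (volume_capSet_lt_top e (t + d)).ne hle
  rwa [ENNReal.toReal_mul, ENNReal.toReal_ofReal (pow_pos hαpos n).le] at this

/-- Caps below the pole have positive volume. -/
lemma capVol_pos {e : EE n} (he : ‖e‖ = 1) {t : ℝ} (ht0 : 0 ≤ t) (ht : t < 1) :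
    0 < capVol e t := by
  have hr : 0 < (1 - t) / 2 := by linarith
  have hsub : ball (((1 + t) / 2) • e) ((1 - t) / 2) ⊆ capSet e t := by
    intro w hw
    rw [mem_ball, dist_eq_norm] at hw
    constructor
    · have h0 : 0 ≤ (1 + t) / 2 := by linarith
      have : ‖w‖ ≤ ‖w - ((1 + t) / 2) • e‖ + ‖((1 + t) / 2) • e‖ := norm_le_norm_sub_add _ _
      rw [norm_smul, he, Real.norm_of_nonneg h0] at this
      linarith
    · have h1 : |inner ℝ e (w - ((1 + t) / 2) • e)| ≤ ‖e‖ * ‖w - ((1 + t) / 2) • e‖ :=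
        abs_real_inner_le_norm _ _
      rw [he, one_mul] at h1
      have h2 : inner ℝ e (w - ((1 + t) / 2) • e) = inner ℝ e w - (1 + t) / 2 := by
        rw [inner_sub_right, inner_smul_right, real_inner_self_eq_norm_sq, he]
        ring
      rw [h2] at h1
      have := (abs_le.mp h1).1
      linarith
  have h3 : 0 < volume (capSet e t) :=
    (measure_ball_pos volume _ hr).trans_le (measure_mono hsub)
  exact ENNReal.toReal_pos h3.ne' (volume_capSet_lt_top e t).ne

end Vale.Agent.P230
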