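import Mathlib

/-! P230: shared definitions.  See notes/P230_blueprint.md -/

open MeasureTheory Metric Set
open scoped BigOperators

noncomputable section

namespace Vale.Agent.P230

/-- Ambient Euclidean space. -/
abbrev EE (n : ℕ) := EuclideanSpace ℝ (Fin n)

/-! ### numerical constants and parameters (all functions of `n`) -/

def kappa : ℝ := 1 / 10 ^ 7
def t1 : ℝ := 1 - kappa
def tmax : ℝ := 1 - kappa / 2
def c0 : ℝ := 1 / 10 ^ 15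

def eps1 (n : ℕ) : ℝ := 1 / (n : ℝ) ^ 3
def rho (n : ℕ) : ℝ := 1 + eps1 n
def tau (n : ℕ) : ℝ := t1 * rho n
def tau0 (n : ℕ) : ℝ := tau n - eps1 n
def ell (n : ℕ) : ℝ := (n : ℝ) ^ (-(1 / 8 : ℝ))
def ss (n : ℕ) : ℝ := ell n ^ 4
def SS (n : ℕ) : ℝ := ell n ^ 2
def rho0 (n : ℕ) : ℝ := SS n / 2
def Tg (n : ℕ) : ℝ := tau n + 2 * ss n
def theta (n : ℕ) : ℝ := c0 * n * Real.log n
def theta' (n : ℕ) : ℝ := 2 * Real.exp 8 * theta n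
def Y0 (n : ℕ) : ℝ := 128 * theta' n
/-- `JJ = J+1` in the blueprint -/
def JJ (n : ℕ) : ℕ := ⌈Real.log (64 * theta' n)⌉₊
def rj (n j : ℕ) : ℝ := rho n * (1 - (j : ℝ) / n)
def mm (n : ℕ) : ℕ := ⌈8 * theta' n * 2 ^ n⌉₊
def AA : ℝ := 4 / kappa + 4
def cmax (n : ℕ) : ℝ := AA * JJ n
def r0 (n : ℕ) : ℕ := ⌈5 * n * ss n / kappa⌉₊
def RR (n : ℕ) : ℝ := r0 n * cmax n
def M0 (n : ℕ) : ℕ := ⌊(1 / 4 : ℝ) * (ell n)⁻¹ ^ n / ((mm n : ℝ) ^ 2 + 1)⌋₊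
def mu1 (n : ℕ) : ℝ := 14 * mm n * n * Real.log n / M0 n
def delta1 (n : ℕ) : ℝ := Real.sqrt ((rho n + ell n / 2) ^ 2 - (tau n - ell n / 2) ^ 2)

/-! ### atoms, caps, bodies -/

variable {n : ℕ}

open scoped Classical in
/-- `Cap(z,T)`: atoms `u ∈ D` with `⟪z,u⟫ > T`. -/
def cap (D : Finset (EE n)) (z : EE n) (T : ℝ) : Finset (EE n) :=
  D.filter fun u => T < inner ℝ z u

/-- The body `K(S)`: unit ball with the caps of `S` removed. -/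
def KK (n : ℕ) (S : Finset (EE n)) : Set (EE n) :=
  {z | ‖z‖ ≤ 1 ∧ ∀ u ∈ S, inner ℝ z u ≤ tau0 n}

/-- The slightly larger body `K⁺(S)` used after rounding. -/
def KP (n : ℕ) (S : Finset (EE n)) : Set (EE n) :=
  {z | ‖z‖ ≤ rho n ∧ ∀ u ∈ S, inner ℝ z u ≤ tau n}

/-- The properties of the atom system used in the proof (see blueprint section 4). -/
structure AtomFacts (n : ℕ) (D : Finset (EE n)) (q : ℝ) (Psi : ℝ → ℝ) : Prop where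
  q_pos : 0 < q
  q_le : q ≤ 1 / 2
  norm_le : ∀ u ∈ D, ‖u‖ ≤ 1
  Psi_t1 : Psi t1 = 1
  Psi_pos : ∀ t, 1 / 2 ≤ t → t ≤ tmax → 0 < Psi t
  upper : ∀ (z : EE n) (T : ℝ), z ≠ 0 → 1 / 2 ≤ T / ‖z‖ → T / ‖z‖ ≤ tmax →
    q * (cap D z T).card ≤ 2 * Psi (T / ‖z‖)
  lower : ∀ (z : EE n) (T : ℝ), z ≠ 0 → 1 / 2 ≤ T / ‖z‖ → T / ‖z‖ ≤ tmax →
    (1 / 2) * Psi (T / ‖z‖) ≤ q * (cap D z T).card
  psiA : ∀ t d, 1 / 2 ≤ t → 0 ≤ d → t + d ≤ tmax →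
    Psi (t + d) ≤ Real.exp (-(n * t * d)) * Psi t
  psiB : ∀ t d, 1 / 2 ≤ t → 0 ≤ d → d ≤ (1 - t) / 2 → t + d ≤ tmax →
    Real.exp (-(2 * n * d / (1 - t))) * Psi t ≤ Psi (t + d)

end Vale.Agent.P230
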