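import Vale.Agent.P230.EngineB

/-! P230 engine, part C: the main inequality. -/

open scoped BigOperators Classical

noncomputable section

namespace Vale.Agent.P230.Engine

variable {α : Type*} {q : ℝ}

lemma item_sub_Un {F : Finset (Finset α)} {C : Finset α} (hC : C ∈ F) : C ⊆ Un F := by
  intro u hu
  exact Finset.mem_biUnion.mpr ⟨C, hC, hu⟩

/-- `HAll F` only looks at `Un F`. -/
lemma hall_union_disjoint (F : Finset (Finset α)) {T₁ T₂ : Finset α} (h : Disjoint T₂ (Un F)) :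
    ind (HAll F (T₁ ∪ T₂)) = ind (HAll F T₁) := by
  have key : HAll F (T₁ ∪ T₂) ↔ HAll F T₁ := by
    constructor
    · intro hh C hC
      obtain ⟨v, hv⟩ := hh C hC
      simp only [Finset.mem_inter, Finset.mem_union] at hv
      rcases hv with ⟨h1 | h1, h2⟩
      · exact ⟨v, Finset.mem_inter.mpr ⟨h1, h2⟩⟩
      · exact absurd (item_sub_Un hC h2) (Finset.disjoint_left.mp h h1)
    · intro hh C hC
      obtain ⟨v, hv⟩ := hh C hC
      simp only [Finset.mem_inter] at hv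
      exact ⟨v, Finset.mem_inter.mpr ⟨Finset.mem_union_left _ hv.1, hv.2⟩⟩
  simp [ind, key]

lemma hall_inter (F : Finset (Finset α)) (S : Finset α) :
    ind (HAll F S) = ind (HAll F (S ∩ Un F)) := by
  have key : HAll F S ↔ HAll F (S ∩ Un F) := by
    constructor
    · intro hh C hC
      obtain ⟨v, hv⟩ := hh C hC
      simp only [Finset.mem_inter] at hv
      exact ⟨v, Finset.mem_inter.mpr ⟨Finset.mem_inter.mpr ⟨hv.1, item_sub_Un hC hv.2⟩, hv.2⟩⟩
    · intro hh C hC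
      obtain ⟨v, hv⟩ := hh C hC
      simp only [Finset.mem_inter] at hv
      exact ⟨v, Finset.mem_inter.mpr ⟨hv.1.1, hv.2⟩⟩
  simp [ind, key]

/-- The two-term bound on the tilted expectation. -/
lemma key_bound (hq0 : 0 ≤ q) (hq1 : q ≤ 1) (Fx Fy : Finset (Finset α))
    (hposx : ∀ C ∈ Fx, 0 < piC q C) (hposy : ∀ C ∈ Fy, 0 < piC q C) (R₀ : ℝ) (hR : 1 ≤ R₀)
    (hgx : ∀ u ∈ Un Fx ∩ Un Fy, gF q Fx u ≤ R₀) (hgy : ∀ u ∈ Un Fx ∩ Un Fy, gF q Fy u ≤ R₀)
    (hpair : R₀ ^ 2 * (q * ((Un Fx ∩ Un Fy).card : ℝ)) ≤ 1) :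
    Ex (Un Fx) q (fun T₁ => ind (HAll Fx T₁) * (ind ((T₁ ∩ Un Fy).Nonempty) *
        psiB (gF q Fy) (Un Fx ∩ Un Fy) T₁)) ≤
      3 * R₀ ^ 2 * (q * ((Un Fx ∩ Un Fy).card : ℝ)) * pF (Un Fx) q Fx := by
  set B := Un Fx ∩ Un Fy with hB
  set A := Un Fx with hA
  set γ := gF q Fy with hγdef
  set a := q * (B.card : ℝ) with ha
  set p := pF A q Fx with hp
  have hp0 : 0 ≤ p := pF_nonneg hq0 hq1 _ _
  have hBA : B ⊆ A := Finset.inter_subset_left
  have hFx : ∀ C ∈ Fx, C ⊆ A := fun C hC => item_sub_Un hC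
  have hγ1 : ∀ u ∈ B, 1 ≤ γ u := fun u _ => gF_ge_one hq0 hq1 Fy hposy u
  have ha0 : 0 ≤ a := mul_nonneg hq0 (Nat.cast_nonneg _)
  have hR0 : 0 ≤ R₀ := by linarith
  -- rewrite integrand
  have h1 : Ex A q (fun T₁ => ind (HAll Fx T₁) * (ind ((T₁ ∩ Un Fy).Nonempty) * psiB γ B T₁)) =
      Ex A q (fun T₁ => ind (HAll Fx T₁) * psiB γ B T₁) -
        Ex A q (fun T₁ => ind (HAll Fx T₁) * ind (Disjoint T₁ B)) := by
    rw [← Ex_sub]
    apply Ex_congr
    intro T₁ hT₁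
    have hinter : T₁ ∩ Un Fy = T₁ ∩ B := by
      ext v
      simp only [hB, Finset.mem_inter]
      constructor
      · rintro ⟨h1, h2⟩; exact ⟨h1, hT₁ h1, h2⟩
      · rintro ⟨h1, _, h2⟩; exact ⟨h1, h2⟩
    rw [hinter]
    by_cases hd : Disjoint T₁ B
    · have hne : ¬ (T₁ ∩ B).Nonempty := by
        rw [Finset.not_nonempty_iff_eq_empty]
        exact Finset.disjoint_iff_inter_eq_empty.mp hd
      have hpsi : psiB γ B T₁ = 1 := by
        unfold psiB
        apply Finset.prod_eq_one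
        intro v hv
        have : v ∉ T₁ := fun hh => Finset.disjoint_left.mp hd hh hv
        simp [this]
      simp [ind, hd, hne, hpsi]
    · have hne : (T₁ ∩ B).Nonempty := by
        rw [Finset.nonempty_iff_ne_empty]
        intro h'
        exact hd (Finset.disjoint_iff_inter_eq_empty.mpr h')
      simp [ind, hd, hne]
  rw [h1]
  -- tilt bound
  have h2 : Ex A q (fun T₁ => ind (HAll Fx T₁) * psiB γ B T₁) ≤ p * Real.exp (R₀ ^ 2 * a) := by
    have ht := tilt hq0 hq1 Fx hFx hposx γ B hBA hγ1 ∅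
    rw [Fres_empty] at ht
    refine le_trans ht (mul_le_mul_of_nonneg_left ?_ hp0)
    have hfac : ∀ u ∈ B, 1 + (γ u - 1) * q * gF q Fx u ≤ Real.exp (R₀ ^ 2 * q) := by
      intro u hu
      have h1u := hγ1 u hu
      have hgu : 1 ≤ gF q Fx u := gF_ge_one hq0 hq1 Fx hposx u
      have h3 : (γ u - 1) * q * gF q Fx u ≤ R₀ ^ 2 * q := by
        have h4 : γ u - 1 ≤ R₀ := by linarith [hgy u hu]
        have h5 : gF q Fx u ≤ R₀ := hgx u hu
        have h6 : (γ u - 1) * gF q Fx u ≤ R₀ * R₀ :=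
          mul_le_mul h4 h5 (by linarith) hR0
        have : (γ u - 1) * q * gF q Fx u = ((γ u - 1) * gF q Fx u) * q := by ring
        rw [this, sq]
        exact mul_le_mul_of_nonneg_right h6 hq0
      linarith [Real.add_one_le_exp (R₀ ^ 2 * q)]
    have hfac0 : ∀ u ∈ B, 0 ≤ 1 + (γ u - 1) * q * gF q Fx u := by
      intro u hu
      have h1u := hγ1 u hu
      have hgu : 1 ≤ gF q Fx u := gF_ge_one hq0 hq1 Fx hposx u
      have : 0 ≤ (γ u - 1) * q * gF q Fx u := mul_nonneg (mul_nonneg (by linarith) hq0) (by linarith)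
      linarith
    calc ∏ u ∈ B, (1 + (γ u - 1) * q * gF q Fx u) ≤ ∏ _u ∈ B, Real.exp (R₀ ^ 2 * q) :=
          Finset.prod_le_prod hfac0 hfac
      _ = Real.exp (R₀ ^ 2 * a) := by
          rw [Finset.prod_const, ← Real.exp_nat_mul, ha]
          congr 1
          ring
  -- lower bound for the second term
  have h3 : p * (1 - R₀ * a) ≤ Ex A q (fun T₁ => ind (HAll Fx T₁) * ind (Disjoint T₁ B)) := by
    have hpt : ∀ T₁ ⊆ A, ind (HAll Fx T₁) - ∑ u ∈ B, ind (u ∈ T₁) * ind (HAll (Fres Fx (insert u ∅)) T₁) ≤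
        ind (HAll Fx T₁) * ind (Disjoint T₁ B) := by
      intro T₁ _
      by_cases hd : Disjoint T₁ B
      · have h0 : 0 ≤ ∑ u ∈ B, ind (u ∈ T₁) * ind (HAll (Fres Fx (insert u ∅)) T₁) :=
          Finset.sum_nonneg (fun u _ => mul_nonneg (ind_nonneg _) (ind_nonneg _))
        have : ind (Disjoint T₁ B) = 1 := by simp [ind, hd]
        rw [this]; linarith
      · have hne : (T₁ ∩ B).Nonempty := by
          rw [Finset.nonempty_iff_ne_empty]
          intro h'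
          exact hd (Finset.disjoint_iff_inter_eq_empty.mpr h')
        obtain ⟨u, hu⟩ := hne
        have huT := (Finset.mem_inter.mp hu).1
        have huB := (Finset.mem_inter.mp hu).2
        have hsingle : ind (u ∈ T₁) * ind (HAll (Fres Fx (insert u ∅)) T₁) ≤
            ∑ v ∈ B, ind (v ∈ T₁) * ind (HAll (Fres Fx (insert v ∅)) T₁) :=
          Finset.single_le_sum (f := fun v => ind (v ∈ T₁) * ind (HAll (Fres Fx (insert v ∅)) T₁))
            (fun v _ => mul_nonneg (ind_nonneg _) (ind_nonneg _)) huB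
        have heq : ind (u ∈ T₁) * ind (HAll (Fres Fx (insert u ∅)) T₁) = ind (HAll Fx T₁) := by
          have := hall_fres_on_mem Fx ∅ u T₁ huT
          rw [Fres_empty] at this
          rw [← this]
          simp [ind, huT]
        have : ind (Disjoint T₁ B) = 0 := by simp [ind, hd]
        rw [this]
        linarith
    have h4 := Ex_mono hq0 hq1 hpt
    rw [Ex_sub, Ex_sum] at h4
    have h5 : ∑ u ∈ B, Ex A q (fun T₁ => ind (u ∈ T₁) * ind (HAll (Fres Fx (insert u ∅)) T₁)) ≤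
        (B.card : ℝ) * (q * (R₀ * p)) := by
      have : ∀ u ∈ B, Ex A q (fun T₁ => ind (u ∈ T₁) * ind (HAll (Fres Fx (insert u ∅)) T₁)) ≤
          q * (R₀ * p) := by
        intro u hu
        rw [Ex_mem_mul (hBA hu) (fun S => hall_fres_ignore Fx ∅ u S)]
        apply mul_le_mul_of_nonneg_left _ hq0
        have h6 := ratio_step hq0 hq1 Fx hFx hposx ∅ u
        rw [Fres_empty] at h6
        exact le_trans h6 (mul_le_mul_of_nonneg_right (hgx u hu) hp0)
      have h7 := Finset.sum_le_sum this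
      rwa [Finset.sum_const, nsmul_eq_mul] at h7
    have hp' : Ex A q (fun T₁ => ind (HAll Fx T₁)) = p := rfl
    rw [hp'] at h4
    have : p * (1 - R₀ * a) = p - (B.card : ℝ) * (q * (R₀ * p)) := by rw [ha]; ring
    rw [this]
    linarith
  -- conclude
  have hv0 : 0 ≤ R₀ ^ 2 * a := mul_nonneg (sq_nonneg _) ha0
  have h8 : Real.exp (R₀ ^ 2 * a) ≤ 1 + 2 * (R₀ ^ 2 * a) := by
    have habs : |R₀ ^ 2 * a| ≤ 1 := by rw [abs_of_nonneg hv0]; exact hpair
    have := Real.abs_exp_sub_one_le habs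
    rw [abs_of_nonneg hv0] at this
    have h9 := le_abs_self (Real.exp (R₀ ^ 2 * a) - 1)
    linarith
  have h10 : R₀ * a ≤ R₀ ^ 2 * a := by
    apply mul_le_mul_of_nonneg_right _ ha0
    nlinarith
  calc Ex A q (fun T₁ => ind (HAll Fx T₁) * psiB γ B T₁) -
        Ex A q (fun T₁ => ind (HAll Fx T₁) * ind (Disjoint T₁ B))
      ≤ p * Real.exp (R₀ ^ 2 * a) - p * (1 - R₀ * a) := by linarith
    _ ≤ p * (1 + 2 * (R₀ ^ 2 * a)) - p * (1 - R₀ ^ 2 * a) := by
        apply sub_le_sub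
        · exact mul_le_mul_of_nonneg_left h8 hp0
        · apply mul_le_mul_of_nonneg_left _ hp0
          linarith
    _ = 3 * R₀ ^ 2 * a * p := by ring

/-- Bound for `h_j(T₁)`. -/
lemma h_bound (hq0 : 0 ≤ q) (hq1 : q ≤ 1) {G G₂ : Finset α} (hG₂ : G₂ ⊆ G) (Fy : Finset (Finset α))
    (hFy : ∀ C ∈ Fy, C ⊆ G) (hposy : ∀ C ∈ Fy, 0 < piC q C) (Dx T₁ : Finset α) (hT₁ : T₁ ⊆ Dx) :
    Ex G₂ q (fun T₂ => ind (HAll Fy (T₁ ∪ T₂))) ≤
      psiB (gF q Fy) (Dx ∩ Un Fy) T₁ * pF G q Fy := by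
  have hresid : ∀ T₂, ind (HAll Fy (T₁ ∪ T₂)) ≤ ind (HAll (Fres Fy (T₁ ∩ Un Fy)) T₂) := by
    intro T₂
    apply ind_mono_of_imp
    intro hh C hC
    have hC1 := (Finset.mem_filter.mp hC).1
    have hC2 : Disjoint C (T₁ ∩ Un Fy) := (Finset.mem_filter.mp hC).2
    obtain ⟨v, hv⟩ := hh C hC1
    simp only [Finset.mem_inter, Finset.mem_union] at hv
    rcases hv with ⟨h1 | h1, h2⟩
    · exact absurd (Finset.mem_inter.mpr ⟨h1, item_sub_Un hC1 h2⟩) (Finset.disjoint_left.mp hC2 h2)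
    · exact ⟨v, Finset.mem_inter.mpr ⟨h1, h2⟩⟩
  have h1 : Ex G₂ q (fun T₂ => ind (HAll Fy (T₁ ∪ T₂))) ≤ Ex G₂ q (fun T₂ => ind (HAll (Fres Fy (T₁ ∩ Un Fy)) T₂)) :=
    Ex_mono hq0 hq1 (fun T₂ _ => hresid T₂)
  have h2 : Ex G₂ q (fun T₂ => ind (HAll (Fres Fy (T₁ ∩ Un Fy)) T₂)) ≤ pF G q (Fres Fy (T₁ ∩ Un Fy)) :=
    Ex_ground_mono hq0 hq1 hG₂ (hall_mono _)
  have h3 := ratio_iter hq0 hq1 Fy hFy hposy (T₁ ∩ Un Fy)
  have h4 : ∏ u ∈ T₁ ∩ Un Fy, gF q Fy u = psiB (gF q Fy) (Dx ∩ Un Fy) T₁ := by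
    unfold psiB
    have hsub : T₁ ∩ Un Fy ⊆ Dx ∩ Un Fy := by
      intro v hv
      have := Finset.mem_inter.mp hv
      exact Finset.mem_inter.mpr ⟨hT₁ this.1, this.2⟩
    rw [← Finset.prod_subset hsub]
    · apply Finset.prod_congr rfl
      intro v hv
      simp [(Finset.mem_inter.mp hv).1]
    · intro v hv hv'
      have : v ∉ T₁ := fun h => hv' (Finset.mem_inter.mpr ⟨h, (Finset.mem_inter.mp hv).2⟩)
      simp [this]
  rw [h4] at h3
  linarith

/-- pointwise inequality for the product `φ`. -/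
lemma phi_pointwise {ι : Type*} (F : ι → Finset (Finset α)) (w : ι → ℝ)
    (hw0 : ∀ j, 0 ≤ w j) (hw1 : ∀ j, w j ≤ 1) (P : Finset ι) (T₁ T₂ : Finset α) :
    (∏ j ∈ P, (1 - w j * ind (HAll (F j) T₂))) *
        (1 - ∑ j ∈ P, w j * (ind ((T₁ ∩ Un (F j)).Nonempty) * ind (HAll (F j) (T₁ ∪ T₂)))) ≤
      ∏ j ∈ P, (1 - w j * ind (HAll (F j) (T₁ ∪ T₂))) := by
  classical
  have hfac : ∀ (S : Finset α) j, 0 ≤ 1 - w j * ind (HAll (F j) S) ∧ 1 - w j * ind (HAll (F j) S) ≤ 1 := by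
    intro S j
    have h1 := ind_nonneg (HAll (F j) S)
    have h2 := ind_le_one (HAll (F j) S)
    have h3 := hw0 j
    have h4 := hw1 j
    constructor <;> nlinarith
  induction P using Finset.induction_on with
  | empty => simp
  | insert x P hx ih =>
    rw [Finset.prod_insert hx, Finset.prod_insert hx, Finset.sum_insert hx]
    set Pr0 := ∏ j ∈ P, (1 - w j * ind (HAll (F j) T₂)) with hPr0
    set Pr1 := ∏ j ∈ P, (1 - w j * ind (HAll (F j) (T₁ ∪ T₂))) with hPr1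
    set Sg := ∑ j ∈ P, w j * (ind ((T₁ ∩ Un (F j)).Nonempty) * ind (HAll (F j) (T₁ ∪ T₂))) with hSg
    have hPr00 : 0 ≤ Pr0 := Finset.prod_nonneg (fun j _ => (hfac T₂ j).1)
    have hPr10 : 0 ≤ Pr1 := Finset.prod_nonneg (fun j _ => (hfac (T₁ ∪ T₂) j).1)
    have hSg0 : 0 ≤ Sg := Finset.sum_nonneg (fun j _ =>
      mul_nonneg (hw0 j) (mul_nonneg (ind_nonneg _) (ind_nonneg _)))
    by_cases haff : (T₁ ∩ Un (F x)).Nonempty
    · have hind : ind ((T₁ ∩ Un (F x)).Nonempty) = 1 := by simp [ind, haff]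
      rw [hind, one_mul]
      set b := w x * ind (HAll (F x) (T₁ ∪ T₂)) with hb
      set a0 := 1 - w x * ind (HAll (F x) T₂) with ha0
      have hb0 : 0 ≤ b := mul_nonneg (hw0 x) (ind_nonneg _)
      have hb1 : 1 - b ≥ 0 := (hfac (T₁ ∪ T₂) x).1
      have ha00 := (hfac T₂ x).1
      have ha01 := (hfac T₂ x).2
      have hmain : (1 - b) * Pr1 ≥ (1 - b) * (Pr0 * (1 - Sg)) := mul_le_mul_of_nonneg_left ih hb1
      by_cases hneg : 1 - (b + Sg) ≤ 0
      · have : a0 * Pr0 * (1 - (b + Sg)) ≤ 0 :=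
          mul_nonpos_of_nonneg_of_nonpos (mul_nonneg ha00 hPr00) hneg
        have h5 : 0 ≤ (1 - b) * Pr1 := mul_nonneg hb1 hPr10
        linarith
      · push Not at hneg
        have h6 : a0 * Pr0 * (1 - (b + Sg)) ≤ Pr0 * (1 - (b + Sg)) := by
          have : a0 * Pr0 ≤ 1 * Pr0 := mul_le_mul_of_nonneg_right ha01 hPr00
          have := mul_le_mul_of_nonneg_right this hneg.le
          linarith
        have h7 : Pr0 * (1 - (b + Sg)) ≤ (1 - b) * (Pr0 * (1 - Sg)) := by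
          have : (1 - b) * (Pr0 * (1 - Sg)) - Pr0 * (1 - (b + Sg)) = Pr0 * (b * Sg) := by ring
          have h8 : 0 ≤ Pr0 * (b * Sg) := mul_nonneg hPr00 (mul_nonneg hb0 hSg0)
          linarith
        linarith
    · have hind : ind ((T₁ ∩ Un (F x)).Nonempty) = 0 := by simp [ind, haff]
      have hdisj : Disjoint T₁ (Un (F x)) := by
        rw [Finset.disjoint_iff_inter_eq_empty]
        exact Finset.not_nonempty_iff_eq_empty.mp haff
      have heq : ind (HAll (F x) (T₁ ∪ T₂)) = ind (HAll (F x) T₂) := by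
        rw [Finset.union_comm]
        exact hall_union_disjoint (F x) hdisj
      rw [hind, heq]
      simp only [zero_mul, mul_zero, zero_add]
      have ha00 := (hfac T₂ x).1
      have := mul_le_mul_of_nonneg_left ih ha00
      calc (1 - w x * ind (HAll (F x) T₂)) * Pr0 * (1 - Sg)
          = (1 - w x * ind (HAll (F x) T₂)) * (Pr0 * (1 - Sg)) := by ring
        _ ≤ _ := this


/-- one step of the main induction -/
lemma engine_step {ι : Type*} (G : Finset α) (hq0 : 0 ≤ q) (hq1 : q ≤ 1)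
    (F : ι → Finset (Finset α)) (w : ι → ℝ) (hw0 : ∀ j, 0 ≤ w j) (hw1 : ∀ j, w j ≤ 1)
    (μ R₀ : ℝ) (hμ : 0 < μ) (hR : 1 ≤ R₀) (T : Finset ι) (hFG : ∀ y ∈ T, ∀ C ∈ F y, C ⊆ G)
    (hwp : ∀ j ∈ T, w j * pF G q (F j) = μ)
    (hpos : ∀ y ∈ T, ∀ C ∈ F y, 0 < piC q C)
    (hg : ∀ y ∈ T, ∀ u ∈ G, gF q (F y) u ≤ R₀)
    (hpair : ∀ x ∈ T, ∀ y ∈ T, x ≠ y → R₀ ^ 2 * (q * ((Un (F x) ∩ Un (F y)).card : ℝ)) ≤ 1)
    (hload : ∀ x ∈ T, 3 * μ * R₀ ^ 2 *
      ∑ y ∈ T.erase x, (q * ((Un (F x) ∩ Un (F y)).card : ℝ)) ≤ 1 / 2)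
    (x : ι) (hx : x ∈ T) (P : Finset ι) (hP : P ⊆ T.erase x) :
    Ex G q (fun S => ∏ j ∈ P, (1 - w j * ind (HAll (F j) S))) * pF G q (F x) / 2 ≤
      Ex G q (fun S => ind (HAll (F x) S) * ∏ j ∈ P, (1 - w j * ind (HAll (F j) S))) := by
  set φ : Finset α → ℝ := fun S => ∏ j ∈ P, (1 - w j * ind (HAll (F j) S)) with hφ
  have hfac : ∀ (S : Finset α) j, 0 ≤ 1 - w j * ind (HAll (F j) S) := by
    intro S j
    have h1 := ind_nonneg (HAll (F j) S)
    have h2 := ind_le_one (HAll (F j) S)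
    have h3 := hw0 j
    have h4 := hw1 j
    nlinarith
  have hφ0 : ∀ S, 0 ≤ φ S := fun S => Finset.prod_nonneg (fun j _ => hfac S j)
  have hφanti : Anti φ := by
    intro S S' hSS
    apply Finset.prod_le_prod (fun j _ => hfac S' j)
    intro j _
    have := hall_mono (F j) hSS
    simp only at this
    have h3 := hw0 j
    have := mul_le_mul_of_nonneg_left this h3
    linarith
  set Dx := Un (F x) with hDx
  have hDxG : Dx ⊆ G := by
    intro v hv
    obtain ⟨C, hC, hvC⟩ := Finset.mem_biUnion.mp hv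
    exact hFG x hx C hC hvC
  set G₂ := G \ Dx with hG₂
  have hG₂G : G₂ ⊆ G := Finset.sdiff_subset
  have hd : Disjoint Dx G₂ := Finset.disjoint_sdiff
  have hGeq : G = Dx ∪ G₂ := (Finset.union_sdiff_of_subset hDxG).symm
  set z := Ex G₂ q φ with hz
  have hz0 : 0 ≤ z := Ex_nonneg hq0 hq1 (fun S _ => hφ0 S)
  have hzE : Ex G q φ ≤ z := Ex_ground_anti hq0 hq1 hG₂G hφanti
  have hPT : ∀ j ∈ P, j ∈ T ∧ j ≠ x := fun j hj => by
    have := Finset.mem_erase.mp (hP hj)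
    exact ⟨this.2, this.1⟩
  have hposx := hpos x hx
  -- the inner lower bound
  have hinner : ∀ T₁ ⊆ Dx, z * (1 - ∑ j ∈ P, μ * (ind ((T₁ ∩ Un (F j)).Nonempty) *
        psiB (gF q (F j)) (Dx ∩ Un (F j)) T₁)) ≤ Ex G₂ q (fun T₂ => φ (T₁ ∪ T₂)) := by
    intro T₁ hT₁
    have h1 : Ex G₂ q (fun T₂ => φ T₂ * (1 - ∑ j ∈ P, w j * (ind ((T₁ ∩ Un (F j)).Nonempty) *
        ind (HAll (F j) (T₁ ∪ T₂))))) ≤ Ex G₂ q (fun T₂ => φ (T₁ ∪ T₂)) :=
      Ex_mono hq0 hq1 (fun T₂ _ => phi_pointwise F w hw0 hw1 P T₁ T₂)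
    refine le_trans ?_ h1
    have h2 : Ex G₂ q (fun T₂ => φ T₂ * (1 - ∑ j ∈ P, w j * (ind ((T₁ ∩ Un (F j)).Nonempty) *
        ind (HAll (F j) (T₁ ∪ T₂))))) =
        z - ∑ j ∈ P, w j * (ind ((T₁ ∩ Un (F j)).Nonempty) *
          Ex G₂ q (fun T₂ => ind (HAll (F j) (T₁ ∪ T₂)) * φ T₂)) := by
      have : (fun T₂ => φ T₂ * (1 - ∑ j ∈ P, w j * (ind ((T₁ ∩ Un (F j)).Nonempty) *
          ind (HAll (F j) (T₁ ∪ T₂))))) =
          fun T₂ => φ T₂ - ∑ j ∈ P, (w j * ind ((T₁ ∩ Un (F j)).Nonempty)) *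
            (ind (HAll (F j) (T₁ ∪ T₂)) * φ T₂) := by
        funext T₂
        rw [mul_sub, mul_one, Finset.mul_sum]
        congr 1
        apply Finset.sum_congr rfl
        intro j _
        ring
      rw [this, Ex_sub, Ex_sum]
      congr 1
      apply Finset.sum_congr rfl
      intro j _
      rw [Ex_mul_left]
      ring
    rw [h2, mul_sub, mul_one, Finset.mul_sum]
    apply sub_le_sub_left
    apply Finset.sum_le_sum
    intro j hj
    have hjT := (hPT j hj).1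
    have hmono : Mono (fun T₂ => ind (HAll (F j) (T₁ ∪ T₂))) := by
      intro S S' hSS
      exact hall_mono (F j) (Finset.union_subset_union_right hSS)
    have h3 : Ex G₂ q (fun T₂ => ind (HAll (F j) (T₁ ∪ T₂)) * φ T₂) ≤
        Ex G₂ q (fun T₂ => ind (HAll (F j) (T₁ ∪ T₂))) * z :=
      harris_anti hq0 hq1 G₂ hmono hφanti
    have h4 := h_bound hq0 hq1 hG₂G (F j) (hFG j hjT) (hpos j hjT) Dx T₁ hT₁
    set ψ := psiB (gF q (F j)) (Dx ∩ Un (F j)) T₁ with hψ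
    have hψ0 : 0 ≤ ψ := psiB_nonneg _ _ (fun u _ => gF_ge_one hq0 hq1 (F j) (hpos j hjT) u) _
    set Aj := ind ((T₁ ∩ Un (F j)).Nonempty) with hAj
    have hAj0 : 0 ≤ Aj := ind_nonneg _
    have h5 : w j * (Aj * Ex G₂ q (fun T₂ => ind (HAll (F j) (T₁ ∪ T₂)) * φ T₂)) ≤
        w j * (Aj * ((ψ * pF G q (F j)) * z)) := by
      apply mul_le_mul_of_nonneg_left _ (hw0 j)
      apply mul_le_mul_of_nonneg_left _ hAj0
      exact le_trans h3 (mul_le_mul_of_nonneg_right h4 hz0)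
    refine le_trans h5 (le_of_eq ?_)
    have := hwp j hjT
    calc w j * (Aj * (ψ * pF G q (F j) * z)) = (w j * pF G q (F j)) * (Aj * ψ) * z := by ring
      _ = z * (μ * (Aj * ψ)) := by rw [this]; ring
  -- integrate over T₁
  have hsplit : Ex G q (fun S => ind (HAll (F x) S) * φ S) =
      Ex Dx q (fun T₁ => ind (HAll (F x) T₁) * Ex G₂ q (fun T₂ => φ (T₁ ∪ T₂))) := by
    rw [hGeq, Ex_split _ _ hd]
    apply Ex_congr
    intro T₁ _
    rw [← Ex_mul_left]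
    apply Ex_congr
    intro T₂ hT₂
    have : Disjoint T₂ (Un (F x)) :=
      Finset.disjoint_of_subset_left hT₂ (Finset.sdiff_disjoint)
    rw [hall_union_disjoint (F x) this]
  have hp_restrict : pF G q (F x) = pF Dx q (F x) := by
    unfold pF
    exact Ex_restrict hq0 hDxG (fun S => hall_inter (F x) S)
  set p := pF Dx q (F x) with hp
  have hp0 : 0 ≤ p := pF_nonneg hq0 hq1 _ _
  have hlow : z * (p - ∑ j ∈ P, μ * Ex Dx q (fun T₁ => ind (HAll (F x) T₁) *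
      (ind ((T₁ ∩ Un (F j)).Nonempty) * psiB (gF q (F j)) (Dx ∩ Un (F j)) T₁))) ≤
      Ex Dx q (fun T₁ => ind (HAll (F x) T₁) * Ex G₂ q (fun T₂ => φ (T₁ ∪ T₂))) := by
    have h1 : Ex Dx q (fun T₁ => ind (HAll (F x) T₁) * (z * (1 - ∑ j ∈ P, μ *
        (ind ((T₁ ∩ Un (F j)).Nonempty) * psiB (gF q (F j)) (Dx ∩ Un (F j)) T₁)))) ≤
        Ex Dx q (fun T₁ => ind (HAll (F x) T₁) * Ex G₂ q (fun T₂ => φ (T₁ ∪ T₂))) :=
      Ex_mono hq0 hq1 (fun T₁ hT₁ =>
        mul_le_mul_of_nonneg_left (hinner T₁ hT₁) (ind_nonneg _))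
    refine le_trans (le_of_eq ?_) h1
    have : (fun T₁ => ind (HAll (F x) T₁) * (z * (1 - ∑ j ∈ P, μ *
        (ind ((T₁ ∩ Un (F j)).Nonempty) * psiB (gF q (F j)) (Dx ∩ Un (F j)) T₁)))) =
        fun T₁ => z * ind (HAll (F x) T₁) - ∑ j ∈ P, (z * μ) * (ind (HAll (F x) T₁) *
        (ind ((T₁ ∩ Un (F j)).Nonempty) * psiB (gF q (F j)) (Dx ∩ Un (F j)) T₁)) := by
      funext T₁
      have e1 : ∑ j ∈ P, (z * μ) * (ind (HAll (F x) T₁) *
          (ind ((T₁ ∩ Un (F j)).Nonempty) * psiB (gF q (F j)) (Dx ∩ Un (F j)) T₁)) =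
          ind (HAll (F x) T₁) * z * ∑ j ∈ P, μ *
          (ind ((T₁ ∩ Un (F j)).Nonempty) * psiB (gF q (F j)) (Dx ∩ Un (F j)) T₁) := by
        rw [Finset.mul_sum]
        apply Finset.sum_congr rfl
        intro j _
        ring
      rw [e1]
      ring
    rw [this, Ex_sub, Ex_sum, Ex_mul_left, mul_sub, Finset.mul_sum]
    congr 1
    apply Finset.sum_congr rfl
    intro j _
    rw [Ex_mul_left]
    ring
  -- key bound
  have hsum : ∑ j ∈ P, μ * Ex Dx q (fun T₁ => ind (HAll (F x) T₁) *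
      (ind ((T₁ ∩ Un (F j)).Nonempty) * psiB (gF q (F j)) (Dx ∩ Un (F j)) T₁)) ≤ p / 2 := by
    have h1 : ∀ j ∈ P, μ * Ex Dx q (fun T₁ => ind (HAll (F x) T₁) *
        (ind ((T₁ ∩ Un (F j)).Nonempty) * psiB (gF q (F j)) (Dx ∩ Un (F j)) T₁)) ≤
        (3 * μ * R₀ ^ 2 * (q * ((Un (F x) ∩ Un (F j)).card : ℝ))) * p := by
      intro j hj
      have hjT := (hPT j hj).1
      have hjx := (hPT j hj).2
      have hGv : ∀ u ∈ Un (F x) ∩ Un (F j), u ∈ G := fun u hu =>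
        hDxG (Finset.mem_inter.mp hu).1
      have := key_bound hq0 hq1 (F x) (F j) hposx (hpos j hjT) R₀ hR
        (fun u hu => hg x hx u (hGv u hu)) (fun u hu => hg j hjT u (hGv u hu))
        (hpair x hx j hjT (Ne.symm hjx))
      have h2 := mul_le_mul_of_nonneg_left this hμ.le
      refine le_trans h2 (le_of_eq ?_)
      ring
    refine le_trans (Finset.sum_le_sum h1) ?_
    rw [← Finset.sum_mul]
    have h3 : ∑ j ∈ P, 3 * μ * R₀ ^ 2 * (q * ((Un (F x) ∩ Un (F j)).card : ℝ)) ≤ 1 / 2 := by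
      rw [← Finset.mul_sum]
      refine le_trans ?_ (hload x hx)
      apply mul_le_mul_of_nonneg_left _ (by positivity)
      apply Finset.sum_le_sum_of_subset_of_nonneg hP
      intro j _ _
      exact mul_nonneg hq0 (Nat.cast_nonneg _)
    calc _ ≤ (1 / 2) * p := mul_le_mul_of_nonneg_right h3 hp0
      _ = p / 2 := by ring
  rw [hsplit, hp_restrict]
  have hfin : z * (p / 2) ≤ Ex Dx q (fun T₁ => ind (HAll (F x) T₁) * Ex G₂ q (fun T₂ => φ (T₁ ∪ T₂))) := by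
    refine le_trans ?_ hlow
    apply mul_le_mul_of_nonneg_left _ hz0
    linarith
  have h9 : Ex G q φ * p / 2 ≤ z * (p / 2) := by
    have := mul_le_mul_of_nonneg_right hzE (by positivity : 0 ≤ p / 2)
    linarith
  linarith

/-- The engine. -/
theorem engine {α ι : Type*} (G : Finset α) (q : ℝ) (hq0 : 0 ≤ q) (hq1 : q ≤ 1)
    (T : Finset ι) (F : ι → Finset (Finset α)) (hFG : ∀ y ∈ T, ∀ C ∈ F y, C ⊆ G)
    (μ R₀ : ℝ) (hμ : 0 < μ) (hR : 1 ≤ R₀)
    (hp : ∀ y ∈ T, μ ≤ ∏ C ∈ F y, piC q C)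
    (hg : ∀ y ∈ T, ∀ u ∈ G, ∏ C ∈ (F y).filter (fun C => u ∈ C), (piC q C)⁻¹ ≤ R₀)
    (hpair : ∀ x ∈ T, ∀ y ∈ T, x ≠ y → R₀ ^ 2 * (q * ((Un (F x) ∩ Un (F y)).card : ℝ)) ≤ 1)
    (hload : ∀ x ∈ T, 3 * μ * R₀ ^ 2 *
      ∑ y ∈ T.erase x, (q * ((Un (F x) ∩ Un (F y)).card : ℝ)) ≤ 1 / 2) :
    Ex G q (fun S => ind (∀ y ∈ T, ¬ HAll (F y) S)) ≤ (1 - μ / 2) ^ T.card := by
  have hpos : ∀ y ∈ T, ∀ C ∈ F y, 0 < piC q C := by
    intro y hy C hC
    have h0 := piC_nonneg hq0 hq1 C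
    rcases h0.lt_or_eq with h | h
    · exact h
    · exfalso
      have : ∏ C ∈ F y, piC q C = 0 := Finset.prod_eq_zero hC h.symm
      have := hp y hy
      linarith
  have hpF : ∀ y ∈ T, μ ≤ pF G q (F y) := fun y hy =>
    le_trans (hp y hy) (pF_ge_prod hq0 hq1 (F y) (hFG y hy))
  set w : ι → ℝ := fun j => if j ∈ T then μ / pF G q (F j) else 0 with hw
  have hw0 : ∀ j, 0 ≤ w j := by
    intro j
    simp only [hw]
    split_ifs with hj
    · exact div_nonneg hμ.le (pF_nonneg hq0 hq1 _ _)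
    · exact le_rfl
  have hw1 : ∀ j, w j ≤ 1 := by
    intro j
    simp only [hw]
    split_ifs with hj
    · have := hpF j hj
      rw [div_le_one (by linarith)]
      exact this
    · norm_num
  have hwp : ∀ j ∈ T, w j * pF G q (F j) = μ := by
    intro j hj
    simp only [hw, hj, if_true]
    have : pF G q (F j) ≠ 0 := by have := hpF j hj; linarith
    field_simp
  have hgF : ∀ y ∈ T, ∀ u ∈ G, gF q (F y) u ≤ R₀ := hg
  have hmain : ∀ P : Finset ι, P ⊆ T →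
      Ex G q (fun S => ∏ j ∈ P, (1 - w j * ind (HAll (F j) S))) ≤ (1 - μ / 2) ^ P.card := by
    intro P
    induction P using Finset.induction_on with
    | empty =>
      intro _
      simp [Ex_const]
    | insert x P hxP ih =>
      intro hsub
      have hxT : x ∈ T := hsub (Finset.mem_insert_self x P)
      have hPT : P ⊆ T := fun j hj => hsub (Finset.mem_insert_of_mem hj)
      have hPe : P ⊆ T.erase x := fun j hj =>
        Finset.mem_erase.mpr ⟨fun h => hxP (h ▸ hj), hPT hj⟩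
      have hstep := engine_step G hq0 hq1 F w hw0 hw1 μ R₀ hμ hR T hFG hwp hpos hgF hpair hload x hxT P hPe
      have heq : (fun S => ∏ j ∈ insert x P, (1 - w j * ind (HAll (F j) S))) =
          fun S => (∏ j ∈ P, (1 - w j * ind (HAll (F j) S))) -
            w x * (ind (HAll (F x) S) * ∏ j ∈ P, (1 - w j * ind (HAll (F j) S))) := by
        funext S
        rw [Finset.prod_insert hxP]
        ring
      rw [heq, Ex_sub, Ex_mul_left, Finset.card_insert_of_notMem hxP, pow_succ]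
      set Eφ := Ex G q (fun S => ∏ j ∈ P, (1 - w j * ind (HAll (F j) S))) with hEφ
      have hμ1 : μ ≤ 1 := le_trans (hpF x hxT) (pF_le_one hq0 hq1 _ _)
      have h1 := mul_le_mul_of_nonneg_left hstep (hw0 x)
      have h2 : w x * (Eφ * pF G q (F x) / 2) = Eφ * (μ / 2) := by
        have := hwp x hxT
        calc w x * (Eφ * pF G q (F x) / 2) = (w x * pF G q (F x)) * (Eφ / 2) := by ring
          _ = Eφ * (μ / 2) := by rw [this]; ring
      rw [h2] at h1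
      have h3 : Eφ * (1 - μ / 2) ≤ (1 - μ / 2) ^ P.card * (1 - μ / 2) :=
        mul_le_mul_of_nonneg_right (ih hPT) (by linarith)
      nlinarith
  refine le_trans ?_ (hmain T (Finset.Subset.refl T))
  apply Ex_mono hq0 hq1
  intro S _
  by_cases hall : ∀ y ∈ T, ¬ HAll (F y) S
  · have h1 : ind (∀ y ∈ T, ¬ HAll (F y) S) = 1 := if_pos hall
    have h2 : ∏ j ∈ T, (1 - w j * ind (HAll (F j) S)) = 1 := by
      apply Finset.prod_eq_one
      intro j hj
      simp [ind, hall j hj]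
    rw [h1, h2]
  · have h1 : ind (∀ y ∈ T, ¬ HAll (F y) S) = 0 := if_neg hall
    rw [h1]
    apply Finset.prod_nonneg
    intro j _
    have h1 := ind_nonneg (HAll (F j) S)
    have h2 := ind_le_one (HAll (F j) S)
    have h3 := hw0 j
    have h4 := hw1 j
    nlinarith

end Vale.Agent.P230.Engine
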