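import Vale.Agent.P230.EngineDefs

/-! P230 engine, part A: basic calculus of `Ex`, Harris inequalities, splitting. -/

open scoped BigOperators Classical

noncomputable section

namespace Vale.Agent.P230.Engine

variable {α : Type*} {q : ℝ}

lemma wt_nonneg (hq0 : 0 ≤ q) (hq1 : q ≤ 1) (G S : Finset α) : 0 ≤ wt G q S := by
  unfold wt
  apply Finset.prod_nonneg
  intro u _
  split_ifs <;> linarith

lemma Ex_insert {G : Finset α} {u : α} (hu : u ∉ G) (φ : Finset α → ℝ) :
    Ex (insert u G) q φ = q * Ex G q (fun S => φ (insert u S)) + (1 - q) * Ex G q φ := by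
  unfold Ex
  rw [Finset.sum_powerset_insert hu, add_comm]
  congr 1
  · rw [Finset.mul_sum]
    apply Finset.sum_congr rfl
    intro S hS
    have hS' : S ⊆ G := Finset.mem_powerset.mp hS
    have huS : u ∉ S := fun h => hu (hS' h)
    unfold wt
    rw [Finset.prod_insert hu]
    have : ∏ v ∈ G, (if v ∈ insert u S then q else 1 - q) = ∏ v ∈ G, (if v ∈ S then q else 1 - q) := by
      apply Finset.prod_congr rfl
      intro v hv
      have hne : v ≠ u := fun h => hu (h ▸ hv)
      simp [Finset.mem_insert, hne]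
    rw [this]
    simp only [Finset.mem_insert, true_or, if_true]
    ring
  · rw [Finset.mul_sum]
    apply Finset.sum_congr rfl
    intro S hS
    have hS' : S ⊆ G := Finset.mem_powerset.mp hS
    have huS : u ∉ S := fun h => hu (hS' h)
    unfold wt
    rw [Finset.prod_insert hu]
    simp only [huS, if_false]
    ring

@[simp] lemma Ex_empty (φ : Finset α → ℝ) : Ex (∅ : Finset α) q φ = φ ∅ := by
  simp [Ex, wt]

lemma Ex_const (G : Finset α) (c : ℝ) : Ex G q (fun _ => c) = c := by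
  induction G using Finset.induction_on with
  | empty => simp
  | insert u G hu ih =>
    rw [Ex_insert hu, ih]; ring

lemma Ex_congr {G : Finset α} {φ ψ : Finset α → ℝ} (h : ∀ S ⊆ G, φ S = ψ S) :
    Ex G q φ = Ex G q ψ := by
  unfold Ex
  apply Finset.sum_congr rfl
  intro S hS
  rw [h S (Finset.mem_powerset.mp hS)]

lemma Ex_mono (hq0 : 0 ≤ q) (hq1 : q ≤ 1) {G : Finset α} {φ ψ : Finset α → ℝ}
    (h : ∀ S ⊆ G, φ S ≤ ψ S) : Ex G q φ ≤ Ex G q ψ := by
  unfold Ex
  apply Finset.sum_le_sum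
  intro S hS
  exact mul_le_mul_of_nonneg_left (h S (Finset.mem_powerset.mp hS)) (wt_nonneg hq0 hq1 G S)

lemma Ex_add (G : Finset α) (φ ψ : Finset α → ℝ) :
    Ex G q (fun S => φ S + ψ S) = Ex G q φ + Ex G q ψ := by
  unfold Ex
  rw [← Finset.sum_add_distrib]
  apply Finset.sum_congr rfl
  intro S _
  ring

lemma Ex_sub (G : Finset α) (φ ψ : Finset α → ℝ) :
    Ex G q (fun S => φ S - ψ S) = Ex G q φ - Ex G q ψ := by
  unfold Ex
  rw [← Finset.sum_sub_distrib]
  apply Finset.sum_congr rfl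
  intro S _
  ring

lemma Ex_mul_left (G : Finset α) (c : ℝ) (φ : Finset α → ℝ) :
    Ex G q (fun S => c * φ S) = c * Ex G q φ := by
  unfold Ex
  rw [Finset.mul_sum]
  apply Finset.sum_congr rfl
  intro S _
  ring

lemma Ex_sum {ι : Type*} (G : Finset α) (I : Finset ι) (φ : ι → Finset α → ℝ) :
    Ex G q (fun S => ∑ i ∈ I, φ i S) = ∑ i ∈ I, Ex G q (φ i) := by
  unfold Ex
  simp_rw [Finset.mul_sum]
  rw [Finset.sum_comm]

lemma Ex_nonneg (hq0 : 0 ≤ q) (hq1 : q ≤ 1) {G : Finset α} {φ : Finset α → ℝ}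
    (h : ∀ S ⊆ G, 0 ≤ φ S) : 0 ≤ Ex G q φ := by
  have := Ex_mono hq0 hq1 (G := G) (φ := fun _ => (0:ℝ)) (ψ := φ) h
  rwa [Ex_const] at this

/-- monotone on all finsets -/
def Mono (φ : Finset α → ℝ) : Prop := ∀ ⦃S S' : Finset α⦄, S ⊆ S' → φ S ≤ φ S'
def Anti (φ : Finset α → ℝ) : Prop := ∀ ⦃S S' : Finset α⦄, S ⊆ S' → φ S' ≤ φ S

lemma Mono.insert {φ : Finset α → ℝ} (h : Mono φ) (u : α) : Mono (fun S => φ (insert u S)) :=
  fun _ _ hSS => h (Finset.insert_subset_insert u hSS)

lemma Anti.insert {φ : Finset α → ℝ} (h : Anti φ) (u : α) : Anti (fun S => φ (insert u S)) :=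
  fun _ _ hSS => h (Finset.insert_subset_insert u hSS)

/-- Harris: monotone times antitone. -/
lemma harris_anti (hq0 : 0 ≤ q) (hq1 : q ≤ 1) (G : Finset α) :
    ∀ {φ ψ : Finset α → ℝ}, Mono φ → Anti ψ →
      Ex G q (fun S => φ S * ψ S) ≤ Ex G q φ * Ex G q ψ := by
  induction G using Finset.induction_on with
  | empty => intro φ ψ _ _; simp
  | insert u G hu ih =>
    intro φ ψ hφ hψ
    rw [Ex_insert hu, Ex_insert hu, Ex_insert hu]
    have h1 := ih (hφ.insert u) (hψ.insert u)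
    have h0 := ih hφ hψ
    set a1 := Ex G q (fun S => φ (insert u S))
    set a0 := Ex G q φ
    set b1 := Ex G q (fun S => ψ (insert u S))
    set b0 := Ex G q ψ
    have ha : a0 ≤ a1 := Ex_mono hq0 hq1 (fun S _ => hφ (Finset.subset_insert u S))
    have hb : b1 ≤ b0 := Ex_mono hq0 hq1 (fun S _ => hψ (Finset.subset_insert u S))
    have hq' : 0 ≤ 1 - q := by linarith
    have key : q * (a1 * b1) + (1 - q) * (a0 * b0) ≤ (q * a1 + (1 - q) * a0) * (q * b1 + (1 - q) * b0) := by
      have : (q * a1 + (1 - q) * a0) * (q * b1 + (1 - q) * b0) - (q * (a1 * b1) + (1 - q) * (a0 * b0))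
          = q * (1 - q) * ((a1 - a0) * (b0 - b1)) := by ring
      have h2 : 0 ≤ q * (1 - q) * ((a1 - a0) * (b0 - b1)) :=
        mul_nonneg (mul_nonneg hq0 hq') (mul_nonneg (by linarith) (by linarith))
      linarith
    calc q * Ex G q (fun S => φ (insert u S) * ψ (insert u S)) + (1 - q) * Ex G q (fun S => φ S * ψ S)
        ≤ q * (a1 * b1) + (1 - q) * (a0 * b0) := by
          apply add_le_add
          · exact mul_le_mul_of_nonneg_left h1 hq0
          · exact mul_le_mul_of_nonneg_left h0 hq'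
      _ ≤ _ := key

/-- Harris: monotone times monotone. -/
lemma harris_mono (hq0 : 0 ≤ q) (hq1 : q ≤ 1) (G : Finset α) :
    ∀ {φ ψ : Finset α → ℝ}, Mono φ → Mono ψ →
      Ex G q φ * Ex G q ψ ≤ Ex G q (fun S => φ S * ψ S) := by
  induction G using Finset.induction_on with
  | empty => intro φ ψ _ _; simp
  | insert u G hu ih =>
    intro φ ψ hφ hψ
    rw [Ex_insert hu, Ex_insert hu, Ex_insert hu]
    have h1 := ih (hφ.insert u) (hψ.insert u)
    have h0 := ih hφ hψ
    set a1 := Ex G q (fun S => φ (insert u S))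
    set a0 := Ex G q φ
    set b1 := Ex G q (fun S => ψ (insert u S))
    set b0 := Ex G q ψ
    have ha : a0 ≤ a1 := Ex_mono hq0 hq1 (fun S _ => hφ (Finset.subset_insert u S))
    have hb : b0 ≤ b1 := Ex_mono hq0 hq1 (fun S _ => hψ (Finset.subset_insert u S))
    have hq' : 0 ≤ 1 - q := by linarith
    have key : (q * a1 + (1 - q) * a0) * (q * b1 + (1 - q) * b0) ≤ q * (a1 * b1) + (1 - q) * (a0 * b0) := by
      have : (q * (a1 * b1) + (1 - q) * (a0 * b0)) - (q * a1 + (1 - q) * a0) * (q * b1 + (1 - q) * b0)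
          = q * (1 - q) * ((a1 - a0) * (b1 - b0)) := by ring
      have h2 : 0 ≤ q * (1 - q) * ((a1 - a0) * (b1 - b0)) :=
        mul_nonneg (mul_nonneg hq0 hq') (mul_nonneg (by linarith) (by linarith))
      linarith
    calc (q * a1 + (1 - q) * a0) * (q * b1 + (1 - q) * b0)
        ≤ q * (a1 * b1) + (1 - q) * (a0 * b0) := key
      _ ≤ _ := by
          apply add_le_add
          · exact mul_le_mul_of_nonneg_left h1 hq0
          · exact mul_le_mul_of_nonneg_left h0 hq'

/-- Splitting the ground set. -/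
lemma Ex_split (G₁ G₂ : Finset α) (hd : Disjoint G₁ G₂) (φ : Finset α → ℝ) :
    Ex (G₁ ∪ G₂) q φ = Ex G₁ q (fun T₁ => Ex G₂ q (fun T₂ => φ (T₁ ∪ T₂))) := by
  induction G₁ using Finset.induction_on generalizing φ with
  | empty => simp
  | insert u G₁ hu ih =>
    have hd' : Disjoint G₁ G₂ := (Finset.disjoint_insert_left.mp hd).2
    have hu2 : u ∉ G₂ := (Finset.disjoint_insert_left.mp hd).1
    have hu' : u ∉ G₁ ∪ G₂ := by simp [hu, hu2]
    rw [Finset.insert_union, Ex_insert hu', Ex_insert hu, ih hd', ih hd']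
    congr 2
    · apply congrArg
      funext T₁
      apply congrArg
      funext T₂
      rw [Finset.insert_union]

/-- A function of `S ∩ B` can be integrated on `B` alone. -/
lemma Ex_restrict (hq0 : 0 ≤ q) {G B : Finset α} (hB : B ⊆ G) {φ : Finset α → ℝ}
    (hφ : ∀ S, φ S = φ (S ∩ B)) : Ex G q φ = Ex B q φ := by
  have hG : G = B ∪ (G \ B) := by
    rw [Finset.union_sdiff_of_subset hB]
  have hd : Disjoint B (G \ B) := Finset.disjoint_sdiff
  rw [hG, Ex_split _ _ hd]
  apply Ex_congr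
  intro T₁ hT₁
  have : ∀ T₂ ⊆ (G \ B), φ (T₁ ∪ T₂) = φ T₁ := by
    intro T₂ hT₂
    rw [hφ (T₁ ∪ T₂), hφ T₁]
    congr 1
    ext v
    simp only [Finset.mem_inter, Finset.mem_union]
    constructor
    · rintro ⟨h | h, hv⟩
      · exact ⟨h, hv⟩
      · have := hT₂ h
        simp only [Finset.mem_sdiff] at this
        exact absurd hv this.2
    · rintro ⟨h, hv⟩
      exact ⟨Or.inl h, hv⟩
  rw [Ex_congr this, Ex_const]

/-- Integrating over a larger ground set only increases the mean of a monotone function. -/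
lemma Ex_ground_mono (hq0 : 0 ≤ q) (hq1 : q ≤ 1) {G₂ G : Finset α} (h : G₂ ⊆ G) {φ : Finset α → ℝ}
    (hφ : Mono φ) : Ex G₂ q φ ≤ Ex G q φ := by
  have hG : G = (G \ G₂) ∪ G₂ := by
    rw [Finset.sdiff_union_of_subset h]
  have hd : Disjoint (G \ G₂) G₂ := Finset.sdiff_disjoint
  rw [hG, Ex_split _ _ hd]
  have : Ex G₂ q φ = Ex (G \ G₂) q (fun _ => Ex G₂ q φ) := (Ex_const _ _).symm
  rw [this]
  apply Ex_mono hq0 hq1
  intro T₁ _
  apply Ex_mono hq0 hq1
  intro T₂ _
  exact hφ Finset.subset_union_right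

/-- Antitone version: a larger ground set only decreases the mean. -/
lemma Ex_ground_anti (hq0 : 0 ≤ q) (hq1 : q ≤ 1) {G₂ G : Finset α} (h : G₂ ⊆ G) {φ : Finset α → ℝ}
    (hφ : Anti φ) : Ex G q φ ≤ Ex G₂ q φ := by
  have hG : G = (G \ G₂) ∪ G₂ := by
    rw [Finset.sdiff_union_of_subset h]
  have hd : Disjoint (G \ G₂) G₂ := Finset.sdiff_disjoint
  rw [hG, Ex_split _ _ hd]
  have : Ex G₂ q φ = Ex (G \ G₂) q (fun _ => Ex G₂ q φ) := (Ex_const _ _).symm
  rw [this]
  apply Ex_mono hq0 hq1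
  intro T₁ _
  apply Ex_mono hq0 hq1
  intro T₂ _
  exact hφ Finset.subset_union_right

/-- Atom `u ∈ G`, function `ζ` that ignores `u`: `E[1_{u∈S} ζ] = q E[ζ]`. -/
lemma Ex_mem_mul {G : Finset α} {u : α} (hu : u ∈ G) {ζ : Finset α → ℝ}
    (hζ : ∀ S, ζ (insert u S) = ζ S) :
    Ex G q (fun S => ind (u ∈ S) * ζ S) = q * Ex G q ζ := by
  obtain ⟨G', hG', rfl⟩ : ∃ G', u ∉ G' ∧ G = insert u G' :=
    ⟨G.erase u, Finset.notMem_erase u G, (Finset.insert_erase hu).symm⟩
  rw [Ex_insert hG', Ex_insert hG']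
  have h1 : Ex G' q (fun S => ind (u ∈ insert u S) * ζ (insert u S)) = Ex G' q ζ := by
    apply Ex_congr
    intro S _
    simp [ind, hζ]
  have h2 : Ex G' q (fun S => ind (u ∈ S) * ζ S) = 0 := by
    have : Ex G' q (fun S => ind (u ∈ S) * ζ S) = Ex G' q (fun _ => 0) := by
      apply Ex_congr
      intro S hS
      have : u ∉ S := fun h => hG' (hS h)
      simp [ind, this]
    rw [this, Ex_const]
  have h3 : Ex G' q (fun S => ζ (insert u S)) = Ex G' q ζ := by
    apply Ex_congr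
    intro S _
    exact hζ S
  rw [h1, h2, h3]
  ring

lemma ind_nonneg (p : Prop) : 0 ≤ ind p := by
  unfold ind; split_ifs <;> norm_num

lemma ind_le_one (p : Prop) : ind p ≤ 1 := by
  unfold ind; split_ifs <;> norm_num

lemma ind_mono_of_imp {p r : Prop} (h : p → r) : ind p ≤ ind r := by
  unfold ind
  by_cases hp : p
  · simp [hp, h hp]
  · simp only [hp, if_false]
    split_ifs <;> norm_num

end Vale.Agent.P230.Engine
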