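import Vale.Agent.P230.EngineA

/-! P230 engine, part B: hitting families, ratio lemma, tilt lemma. -/

open scoped BigOperators Classical

noncomputable section

namespace Vale.Agent.P230.Engine

variable {α : Type*} {q : ℝ}

lemma one_le_prod_real {ι : Type*} (s : Finset ι) (f : ι → ℝ) (h : ∀ i ∈ s, 1 ≤ f i) :
    1 ≤ ∏ i ∈ s, f i := by
  have := Finset.prod_le_prod (s := s) (f := fun _ => (1:ℝ)) (g := f)
    (fun _ _ => zero_le_one) h
  simpa using this

lemma prod_le_prod_subset_real {ι : Type*} {s t : Finset ι} (hst : s ⊆ t) (f : ι → ℝ)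
    (h0 : ∀ i ∈ t, 1 ≤ f i) : ∏ i ∈ s, f i ≤ ∏ i ∈ t, f i := by
  rw [← Finset.prod_sdiff hst]
  have h1 : 1 ≤ ∏ i ∈ t \ s, f i := one_le_prod_real _ _ (fun i hi => h0 i (Finset.sdiff_subset hi))
  have h2 : 1 ≤ ∏ i ∈ s, f i := one_le_prod_real _ _ (fun i hi => h0 i (hst hi))
  nlinarith

/-- items not met by `V` -/
def Fres (F : Finset (Finset α)) (V : Finset α) : Finset (Finset α) :=
  F.filter (fun C => Disjoint C V)

/-- the function `g(u)` of the blueprint -/
def gF (q : ℝ) (F : Finset (Finset α)) (u : α) : ℝ :=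
  ∏ C ∈ F.filter (fun C => u ∈ C), (piC q C)⁻¹

lemma hall_mono (F : Finset (Finset α)) : Mono (fun S => ind (HAll F S)) := by
  intro S S' h
  apply ind_mono_of_imp
  intro hS C hC
  obtain ⟨v, hv⟩ := hS C hC
  simp only [Finset.mem_inter] at hv
  exact ⟨v, Finset.mem_inter.mpr ⟨h hv.1, hv.2⟩⟩

lemma Ex_disjoint (G C : Finset α) :
    Ex G q (fun S => ind (Disjoint S C)) = (1 - q) ^ (G ∩ C).card := by
  induction G using Finset.induction_on with
  | empty => simp [ind]
  | insert u G hu ih =>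
    rw [Ex_insert hu, ih]
    by_cases huC : u ∈ C
    · have h1 : Ex G q (fun S => ind (Disjoint (insert u S) C)) = 0 := by
        have : Ex G q (fun S => ind (Disjoint (insert u S) C)) = Ex G q (fun _ => 0) := by
          apply Ex_congr
          intro S _
          simp [ind, Finset.disjoint_insert_left, huC]
        rw [this, Ex_const]
      rw [h1, Finset.insert_inter_of_mem huC, Finset.card_insert_of_notMem (by simp [hu])]
      ring
    · have h1 : Ex G q (fun S => ind (Disjoint (insert u S) C)) = Ex G q (fun S => ind (Disjoint S C)) := by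
        apply Ex_congr
        intro S _
        simp [Finset.disjoint_insert_left, huC]
      rw [h1, ih, Finset.insert_inter_of_notMem huC]
      ring

lemma ind_nonempty_eq (S C : Finset α) : ind ((S ∩ C).Nonempty) = 1 - ind (Disjoint S C) := by
  unfold ind
  by_cases h : Disjoint S C
  · have : ¬ (S ∩ C).Nonempty := by
      rw [Finset.not_nonempty_iff_eq_empty]
      exact Finset.disjoint_iff_inter_eq_empty.mp h
    simp [h, this]
  · have : (S ∩ C).Nonempty := by
      rw [Finset.nonempty_iff_ne_empty]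
      intro h'
      exact h (Finset.disjoint_iff_inter_eq_empty.mpr h')
    simp [h, this]

lemma Ex_meet {G C : Finset α} (hC : C ⊆ G) :
    Ex G q (fun S => ind ((S ∩ C).Nonempty)) = piC q C := by
  have : (fun S => ind ((S ∩ C).Nonempty)) = fun S => (1:ℝ) - ind (Disjoint S C) := by
    funext S; exact ind_nonempty_eq S C
  rw [this, Ex_sub, Ex_const, Ex_disjoint, Finset.inter_eq_right.mpr hC]
  rfl

lemma ind_hall_union (F₁ F₂ : Finset (Finset α)) (S : Finset α) :
    ind (HAll (F₁ ∪ F₂) S) = ind (HAll F₁ S) * ind (HAll F₂ S) := by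
  unfold ind
  by_cases h1 : HAll F₁ S <;> by_cases h2 : HAll F₂ S
  · have : HAll (F₁ ∪ F₂) S := by
      intro C hC
      rcases Finset.mem_union.mp hC with h | h
      · exact h1 C h
      · exact h2 C h
    simp [h1, h2, this]
  · have : ¬ HAll (F₁ ∪ F₂) S := fun h => h2 (fun C hC => h C (Finset.mem_union_right _ hC))
    simp [h1, h2, this]
  · have : ¬ HAll (F₁ ∪ F₂) S := fun h => h1 (fun C hC => h C (Finset.mem_union_left _ hC))
    simp [h1, h2, this]
  · have : ¬ HAll (F₁ ∪ F₂) S := fun h => h1 (fun C hC => h C (Finset.mem_union_left _ hC))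
    simp [h1, h2, this]

/-- probability of `HAll F` -/
def pF (G : Finset α) (q : ℝ) (F : Finset (Finset α)) : ℝ := Ex G q (fun S => ind (HAll F S))

lemma pF_union_ge (hq0 : 0 ≤ q) (hq1 : q ≤ 1) (G : Finset α) (F₁ F₂ : Finset (Finset α)) :
    pF G q F₁ * pF G q F₂ ≤ pF G q (F₁ ∪ F₂) := by
  unfold pF
  simp_rw [ind_hall_union]
  exact harris_mono hq0 hq1 G (hall_mono F₁) (hall_mono F₂)

lemma pF_nonneg (hq0 : 0 ≤ q) (hq1 : q ≤ 1) (G : Finset α) (F : Finset (Finset α)) : 0 ≤ pF G q F :=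
  Ex_nonneg hq0 hq1 (fun S _ => ind_nonneg _)

lemma pF_le_one (hq0 : 0 ≤ q) (hq1 : q ≤ 1) (G : Finset α) (F : Finset (Finset α)) : pF G q F ≤ 1 := by
  have := Ex_mono hq0 hq1 (G := G) (φ := fun S => ind (HAll F S)) (ψ := fun _ => (1:ℝ))
    (fun S _ => ind_le_one _)
  rwa [Ex_const] at this

lemma piC_nonneg (hq0 : 0 ≤ q) (hq1 : q ≤ 1) (C : Finset α) : 0 ≤ piC q C := by
  unfold piC
  have : (1 - q) ^ C.card ≤ 1 := pow_le_one₀ (by linarith) (by linarith)
  linarith

lemma piC_le_one (hq0 : 0 ≤ q) (hq1 : q ≤ 1) (C : Finset α) : piC q C ≤ 1 := by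
  unfold piC
  have : 0 ≤ (1 - q) ^ C.card := pow_nonneg (by linarith) _
  linarith

lemma pF_ge_prod (hq0 : 0 ≤ q) (hq1 : q ≤ 1) {G : Finset α} (F : Finset (Finset α))
    (hF : ∀ C ∈ F, C ⊆ G) : ∏ C ∈ F, piC q C ≤ pF G q F := by
  induction F using Finset.induction_on with
  | empty =>
    simp only [Finset.prod_empty]
    unfold pF
    have : (fun S : Finset α => ind (HAll (∅ : Finset (Finset α)) S)) = fun _ => 1 := by
      funext S
      simp [ind, HAll]
    rw [this, Ex_const]
  | insert C F hC ih =>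
    rw [Finset.prod_insert hC]
    have h1 := ih (fun D hD => hF D (Finset.mem_insert_of_mem hD))
    have h2 : pF G q {C} = piC q C := by
      unfold pF
      rw [← Ex_meet (hF C (Finset.mem_insert_self C F))]
      apply Ex_congr
      intro S _
      simp [HAll]
    have h3 := pF_union_ge hq0 hq1 G {C} F
    rw [h2, ← Finset.insert_eq] at h3
    calc piC q C * ∏ C ∈ F, piC q C ≤ piC q C * pF G q F :=
          mul_le_mul_of_nonneg_left h1 (piC_nonneg hq0 hq1 C)
      _ ≤ _ := h3

lemma gF_ge_one (hq0 : 0 ≤ q) (hq1 : q ≤ 1) (F : Finset (Finset α)) (hF : ∀ C ∈ F, 0 < piC q C)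
    (u : α) : 1 ≤ gF q F u := by
  unfold gF
  apply one_le_prod_real
  intro C hC
  have hC' := (Finset.mem_filter.mp hC).1
  exact (one_le_inv₀ (hF C hC')).mpr (piC_le_one hq0 hq1 C)

lemma Fres_empty (F : Finset (Finset α)) : Fres F ∅ = F := by
  simp [Fres]

lemma Fres_split (F : Finset (Finset α)) (V : Finset α) (u : α) :
    Fres F V = Fres F (insert u V) ∪ (Fres F V).filter (fun C => u ∈ C) := by
  ext C
  simp only [Fres, Finset.mem_union, Finset.mem_filter, Finset.disjoint_insert_right]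
  constructor
  · rintro ⟨hC, hV⟩
    by_cases hu : u ∈ C
    · exact Or.inr ⟨⟨hC, hV⟩, hu⟩
    · exact Or.inl ⟨hC, hu, hV⟩
  · rintro (⟨hC, _, hV⟩ | ⟨⟨hC, hV⟩, _⟩) <;> exact ⟨hC, hV⟩

/-- One-step ratio lemma. -/
lemma ratio_step (hq0 : 0 ≤ q) (hq1 : q ≤ 1) {G : Finset α} (F : Finset (Finset α))
    (hF : ∀ C ∈ F, C ⊆ G) (hpos : ∀ C ∈ F, 0 < piC q C) (V : Finset α) (u : α) :
    pF G q (Fres F (insert u V)) ≤ gF q F u * pF G q (Fres F V) := by
  set F₂ := (Fres F V).filter (fun C => u ∈ C) with hF₂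
  have hF₂F : ∀ C ∈ F₂, C ∈ F := fun C hC =>
    (Finset.mem_filter.mp (Finset.mem_filter.mp hC).1).1
  have h1 : pF G q (Fres F (insert u V)) * pF G q F₂ ≤ pF G q (Fres F V) := by
    have := pF_union_ge hq0 hq1 G (Fres F (insert u V)) F₂
    rwa [← Fres_split] at this
  have h2 : ∏ C ∈ F₂, piC q C ≤ pF G q F₂ := pF_ge_prod hq0 hq1 F₂ (fun C hC => hF C (hF₂F C hC))
  have hprodpos : 0 < ∏ C ∈ F₂, piC q C := Finset.prod_pos (fun C hC => hpos C (hF₂F C hC))
  have h3 : pF G q (Fres F (insert u V)) * ∏ C ∈ F₂, piC q C ≤ pF G q (Fres F V) :=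
    le_trans (mul_le_mul_of_nonneg_left h2 (pF_nonneg hq0 hq1 _ _)) h1
  have h4 : pF G q (Fres F (insert u V)) ≤ pF G q (Fres F V) * (∏ C ∈ F₂, piC q C)⁻¹ := by
    rw [← div_eq_mul_inv, le_div_iff₀ hprodpos]
    exact h3
  have h5 : (∏ C ∈ F₂, piC q C)⁻¹ ≤ gF q F u := by
    unfold gF
    rw [← Finset.prod_inv_distrib]
    have hsub : F₂ ⊆ F.filter (fun C => u ∈ C) := by
      intro C hC
      exact Finset.mem_filter.mpr ⟨hF₂F C hC, (Finset.mem_filter.mp hC).2⟩
    apply prod_le_prod_subset_real hsub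
    intro C hC
    have hC' := (Finset.mem_filter.mp hC).1
    exact (one_le_inv₀ (hpos C hC')).mpr (piC_le_one hq0 hq1 C)
  have hg0 : 0 ≤ pF G q (Fres F V) := pF_nonneg hq0 hq1 _ _
  calc pF G q (Fres F (insert u V)) ≤ pF G q (Fres F V) * (∏ C ∈ F₂, piC q C)⁻¹ := h4
    _ ≤ pF G q (Fres F V) * gF q F u := mul_le_mul_of_nonneg_left h5 hg0
    _ = _ := mul_comm _ _

/-- Iterated ratio. -/
lemma ratio_iter (hq0 : 0 ≤ q) (hq1 : q ≤ 1) {G : Finset α} (F : Finset (Finset α))
    (hF : ∀ C ∈ F, C ⊆ G) (hpos : ∀ C ∈ F, 0 < piC q C) (V : Finset α) :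
    pF G q (Fres F V) ≤ (∏ u ∈ V, gF q F u) * pF G q F := by
  induction V using Finset.induction_on with
  | empty => simp [Fres_empty]
  | insert u V hu ih =>
    rw [Finset.prod_insert hu]
    have h1 := ratio_step hq0 hq1 F hF hpos V u
    have hg : 0 ≤ gF q F u := le_trans zero_le_one (gF_ge_one hq0 hq1 F hpos u)
    calc pF G q (Fres F (insert u V)) ≤ gF q F u * pF G q (Fres F V) := h1
      _ ≤ gF q F u * ((∏ u ∈ V, gF q F u) * pF G q F) := mul_le_mul_of_nonneg_left ih hg
      _ = _ := by ring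

/-- tilting function -/
def psiB (γ : α → ℝ) (B : Finset α) (S : Finset α) : ℝ := ∏ u ∈ B, if u ∈ S then γ u else 1

lemma psiB_insert (γ : α → ℝ) {B : Finset α} {u : α} (hu : u ∉ B) (S : Finset α) :
    psiB γ (insert u B) S = psiB γ B S + (γ u - 1) * (ind (u ∈ S) * psiB γ B S) := by
  unfold psiB
  rw [Finset.prod_insert hu]
  unfold ind
  by_cases h : u ∈ S <;> simp [h]
  ring

lemma psiB_ignore (γ : α → ℝ) {B : Finset α} {u : α} (hu : u ∉ B) (S : Finset α) :
    psiB γ B (insert u S) = psiB γ B S := by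
  unfold psiB
  apply Finset.prod_congr rfl
  intro v hv
  have hne : v ≠ u := fun h => hu (h ▸ hv)
  simp [hne]

lemma psiB_nonneg (γ : α → ℝ) (B : Finset α) (hγ : ∀ u ∈ B, 1 ≤ γ u) (S : Finset α) :
    0 ≤ psiB γ B S := by
  unfold psiB
  apply Finset.prod_nonneg
  intro u hu
  split_ifs
  · linarith [hγ u hu]
  · norm_num

lemma hall_fres_ignore (F : Finset (Finset α)) (V : Finset α) (u : α) (S : Finset α) :
    ind (HAll (Fres F (insert u V)) (insert u S)) = ind (HAll (Fres F (insert u V)) S) := by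
  have key : HAll (Fres F (insert u V)) (insert u S) ↔ HAll (Fres F (insert u V)) S := by
    constructor
    · intro h C hC
      obtain ⟨v, hv⟩ := h C hC
      have hdisj : Disjoint C (insert u V) := (Finset.mem_filter.mp hC).2
      have huC : u ∉ C := (Finset.disjoint_insert_right.mp hdisj).1
      simp only [Finset.mem_inter, Finset.mem_insert] at hv
      rcases hv with ⟨rfl | hv1, hv2⟩
      · exact absurd hv2 huC
      · exact ⟨v, Finset.mem_inter.mpr ⟨hv1, hv2⟩⟩
    · intro h C hC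
      obtain ⟨v, hv⟩ := h C hC
      simp only [Finset.mem_inter] at hv
      exact ⟨v, Finset.mem_inter.mpr ⟨Finset.mem_insert_of_mem hv.1, hv.2⟩⟩
  simp [ind, key]

/-- On `{u ∈ S}` the events with `V` and `V+u` agree. -/
lemma hall_fres_on_mem (F : Finset (Finset α)) (V : Finset α) (u : α) (S : Finset α) (hu : u ∈ S) :
    ind (HAll (Fres F V) S) = ind (HAll (Fres F (insert u V)) S) := by
  have key : HAll (Fres F V) S ↔ HAll (Fres F (insert u V)) S := by
    constructor
    · intro h C hC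
      apply h C
      rw [Fres_split F V u]
      exact Finset.mem_union_left _ hC
    · intro h C hC
      rw [Fres_split F V u] at hC
      rcases Finset.mem_union.mp hC with h1 | h1
      · exact h C h1
      · exact ⟨u, Finset.mem_inter.mpr ⟨hu, (Finset.mem_filter.mp h1).2⟩⟩
  simp [ind, key]

/-- Tilt lemma. -/
lemma tilt (hq0 : 0 ≤ q) (hq1 : q ≤ 1) {A : Finset α} (F : Finset (Finset α))
    (hF : ∀ C ∈ F, C ⊆ A) (hpos : ∀ C ∈ F, 0 < piC q C) (γ : α → ℝ) (B : Finset α)
    (hBA : B ⊆ A) (hγ : ∀ u ∈ B, 1 ≤ γ u) :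
    ∀ V : Finset α, Ex A q (fun S => ind (HAll (Fres F V) S) * psiB γ B S) ≤
      pF A q (Fres F V) * ∏ u ∈ B, (1 + (γ u - 1) * q * gF q F u) := by
  induction B using Finset.induction_on with
  | empty =>
    intro V
    simp [psiB, pF]
  | insert u B hu ih =>
    intro V
    have hγB : ∀ v ∈ B, 1 ≤ γ v := fun v hv => hγ v (Finset.mem_insert_of_mem hv)
    have hBA' : B ⊆ A := fun v hv => hBA (Finset.mem_insert_of_mem hv)
    have huA : u ∈ A := hBA (Finset.mem_insert_self u B)
    have ih1 := ih hBA' hγB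
    have hγu : 1 ≤ γ u := hγ u (Finset.mem_insert_self u B)
    rw [Finset.prod_insert hu]
    have hexpand : (fun S => ind (HAll (Fres F V) S) * psiB γ (insert u B) S) =
        fun S => ind (HAll (Fres F V) S) * psiB γ B S +
          (γ u - 1) * (ind (u ∈ S) * (ind (HAll (Fres F (insert u V)) S) * psiB γ B S)) := by
      funext S
      rw [psiB_insert γ hu S]
      by_cases h : u ∈ S
      · rw [hall_fres_on_mem F V u S h]
        ring
      · simp [ind, h]
    rw [hexpand, Ex_add, Ex_mul_left]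
    have hzeta : ∀ S, ind (HAll (Fres F (insert u V)) (insert u S)) * psiB γ B (insert u S) =
        ind (HAll (Fres F (insert u V)) S) * psiB γ B S := by
      intro S
      rw [hall_fres_ignore, psiB_ignore γ hu]
    rw [Ex_mem_mul huA hzeta]
    have h2 := ih1 (insert u V)
    have h3 := ratio_step hq0 hq1 F hF hpos V u
    set Pp := ∏ v ∈ B, (1 + (γ v - 1) * q * gF q F v) with hPp
    have hPp0 : 0 ≤ Pp := by
      apply Finset.prod_nonneg
      intro v hv
      have : 1 ≤ gF q F v := gF_ge_one hq0 hq1 F hpos v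
      have h1v := hγB v hv
      have : 0 ≤ (γ v - 1) * q * gF q F v :=
        mul_nonneg (mul_nonneg (by linarith) hq0) (by linarith)
      linarith
    have h4 : Ex A q (fun S => ind (HAll (Fres F (insert u V)) S) * psiB γ B S) ≤
        gF q F u * pF A q (Fres F V) * Pp :=
      le_trans h2 (mul_le_mul_of_nonneg_right h3 hPp0)
    have h5 := ih1 V
    have hc : 0 ≤ (γ u - 1) * q := mul_nonneg (by linarith) hq0
    calc Ex A q (fun S => ind (HAll (Fres F V) S) * psiB γ B S) +
          (γ u - 1) * (q * Ex A q (fun S => ind (HAll (Fres F (insert u V)) S) * psiB γ B S))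
        ≤ pF A q (Fres F V) * Pp + (γ u - 1) * (q * (gF q F u * pF A q (Fres F V) * Pp)) := by
          have := mul_le_mul_of_nonneg_left h4 hc
          nlinarith [this, h5]
      _ = _ := by ring

end Vale.Agent.P230.Engine
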