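import Mathlib

/-! P230: definitions of the abstract probability engine. -/

open scoped BigOperators Classical

noncomputable section

namespace Vale.Agent.P230.Engine

variable {α : Type*}

/-- Weight of `S` in the product measure on subsets of `G`, inclusion probability `q`. -/
def wt (G : Finset α) (q : ℝ) (S : Finset α) : ℝ := ∏ u ∈ G, if u ∈ S then q else 1 - q

/-- Expectation over random subsets of `G`. -/
def Ex (G : Finset α) (q : ℝ) (φ : Finset α → ℝ) : ℝ := ∑ S ∈ G.powerset, wt G q S * φ S

/-- Real indicator of a proposition. -/
def ind (p : Prop) : ℝ := if p then 1 else 0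

/-- Probability that a random subset of size-`|C|` ground meets `C`. -/
def piC (q : ℝ) (C : Finset α) : ℝ := 1 - (1 - q) ^ C.card

/-- `S` meets every member of the family `F`. -/
def HAll (F : Finset (Finset α)) (S : Finset α) : Prop := ∀ C ∈ F, (S ∩ C).Nonempty

/-- Union of a family. -/
def Un (F : Finset (Finset α)) : Finset α := F.biUnion id

end Vale.Agent.P230.Engine
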