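import Vale.Agent.P230.Defs

/-! P230: shared definitions used by several modules (`GG`: good test points; `IsGrid`: rounding grid). -/

open MeasureTheory Metric Set
open scoped BigOperators Classical

noncomputable section

namespace Vale.Agent.P230

/-- `G'(A)`: good test points -/
def GG (n : ℕ) (A : Finset (EE n)) : Set (EE n) :=
  {x | ‖x‖ ≤ 1 ∧ (∑ j ∈ Finset.range (JJ n), ((A.filter (fun a => ‖x - a‖ ≤ rj n j)).card : ℝ) ≤ Y0 n) ∧
       ∀ a ∈ A, rj n (JJ n) < ‖x - a‖}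

/-- The rounding grid: `eps2 Z^n ∩ 3B` with `eps2 = eps1/sqrt n`; any finset with: -/
structure IsGrid (n : ℕ) (Grd : Finset (EE n)) : Prop where
  card_le : (Grd.card : ℝ) ≤ (n : ℝ) ^ (5 * n)
  rounds : ∀ a : EE n, ‖a‖ ≤ 2 → ∃ a' ∈ Grd, ‖a - a'‖ ≤ eps1 n

end Vale.Agent.P230
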