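import Mathlib

/-! P230: the objects in the final statement: translative covering density. -/

open MeasureTheory Set Filter
open scoped Pointwise ENNReal

noncomputable section

namespace Vale.Agent.P230

/-- The cube `Q_R = [-R,R]^n`. -/
def Qbox (n : ℕ) (R : ℝ) : Set (EuclideanSpace ℝ (Fin n)) := {x | ∀ i, |x i| ≤ R}

/-- Locally finite sets. -/
def LocFin {n : ℕ} (X : Set (EuclideanSpace ℝ (Fin n))) : Prop :=
  ∀ B : Set (EuclideanSpace ℝ (Fin n)), Bornology.IsBounded B → (X ∩ B).Finite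

/-- Upper density `limsup_{R→∞} #(X ∩ Q_R)/(2R)^n`, a value in `[0,∞]`. -/
def upperDensity {n : ℕ} (X : Set (EuclideanSpace ℝ (Fin n))) : ℝ≥0∞ :=
  limsup (fun R : ℝ => (((X ∩ Qbox n R).encard : ℕ∞) : ℝ≥0∞) / ENNReal.ofReal ((2 * R) ^ n)) atTop

/-- Translative covering density `θ_T(K)`: infimum over locally finite `X` with `K + X = ℝ^n`
of `vol(K) · upperDensity X`. -/
def thetaT {n : ℕ} (K : Set (EuclideanSpace ℝ (Fin n))) : ℝ≥0∞ :=
  ⨅ (X : Set (EuclideanSpace ℝ (Fin n))) (_ : LocFin X) (_ : K + X = univ),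
    volume K * upperDensity X

/-- Convex bodies. -/
def IsBody {n : ℕ} (K : Set (EuclideanSpace ℝ (Fin n))) : Prop :=
  IsCompact K ∧ Convex ℝ K ∧ (interior K).Nonempty

/-- `Θ_T(n) = sup_K θ_T(K)`. -/
def bigThetaT (n : ℕ) : ℝ≥0∞ :=
  ⨆ (K : Set (EuclideanSpace ℝ (Fin n))) (_ : IsBody K), thetaT K

end Vale.Agent.P230
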