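import Vale.Agent.P230.Defs
import Vale.Agent.P230.GridDefs
import Vale.Agent.P230.Statement

/-! P230 M7: local selection.  See notes/P230_blueprint.md, section 8. -/

open MeasureTheory Metric Set Filter
open scoped BigOperators Pointwise ENNReal Classical

noncomputable section
namespace Vale.Agent.P230

/-- numeric hypotheses of the local selection step (true for all large `n`). -/
structure LocalNum (n : ℕ) : Prop where
  two_le : 2 ≤ n
  r_nonneg : ∀ j ≤ JJ n, 0 ≤ rj n j + eps1 n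
  r_pow : ∀ j ≤ JJ n, (rj n j + eps1 n) ^ n ≤ 2 * Real.exp (-(j : ℝ))

variable {n : ℕ}

/-! ### the body -/

theorem KK_isBody {n : ℕ} (hn : 1 ≤ n) (htau : 0 < tau0 n) (S : Finset (EE n)) (hS : ∀ u ∈ S, ‖u‖ ≤ 1) :
    IsBody (KK n S) := by
  have hclosed : IsClosed (KK n S) := by
    have h1 : IsClosed {z : EE n | ‖z‖ ≤ 1} := isClosed_le continuous_norm continuous_const
    have h2 : IsClosed (⋂ u ∈ S, {z : EE n | inner ℝ z u ≤ tau0 n}) :=
      isClosed_biInter fun u _ =>
        isClosed_le (continuous_id.inner continuous_const) continuous_const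
    have : KK n S = {z : EE n | ‖z‖ ≤ 1} ∩ ⋂ u ∈ S, {z : EE n | inner ℝ z u ≤ tau0 n} := by
      ext z; simp [KK]
    rw [this]; exact h1.inter h2
  have hbdd : Bornology.IsBounded (KK n S) :=
    (isBounded_closedBall (x := (0 : EE n)) (r := 1)).subset fun z hz => by
      simpa using hz.1
  refine ⟨Metric.isCompact_of_isClosed_isBounded hclosed hbdd, ?_, ?_⟩
  · intro x hx y hy a b ha hb hab
    refine ⟨?_, fun u hu => ?_⟩
    · calc ‖a • x + b • y‖ ≤ ‖a • x‖ + ‖b • y‖ := norm_add_le _ _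
        _ = a * ‖x‖ + b * ‖y‖ := by
            rw [norm_smul, norm_smul, Real.norm_of_nonneg ha, Real.norm_of_nonneg hb]
        _ ≤ a * 1 + b * 1 := by gcongr; exacts [hx.1, hy.1]
        _ = 1 := by rw [mul_one, mul_one, hab]
    · have h1 := hx.2 u hu
      have h2 := hy.2 u hu
      rw [inner_add_left, inner_smul_left, inner_smul_left]
      simp only [conj_trivial]
      calc a * inner ℝ x u + b * inner ℝ y u ≤ a * tau0 n + b * tau0 n := by gcongr
        _ = tau0 n := by rw [← add_mul, hab, one_mul]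
  · refine ⟨0, ?_⟩
    rw [mem_interior]
    refine ⟨ball 0 (min 1 (tau0 n)), ?_, isOpen_ball, mem_ball_self (lt_min one_pos htau)⟩
    intro z hz
    have hz' : ‖z‖ < min 1 (tau0 n) := by simpa using hz
    refine ⟨(hz'.trans_le (min_le_left _ _)).le, fun u hu => ?_⟩
    calc inner ℝ z u ≤ ‖z‖ * ‖u‖ := real_inner_le_norm z u
      _ ≤ ‖z‖ * 1 := by gcongr; exact hS u hu
      _ ≤ tau0 n := by rw [mul_one]; exact (hz'.trans_le (min_le_right _ _)).le

/-! ### the cube -/

theorem volume_Qbox (R : ℝ) (hR : 0 ≤ R) :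
    volume (Qbox n R) = ENNReal.ofReal ((2 * R) ^ n) := by
  have hmp := PiLp.volume_preserving_toLp (Fin n)
  have h : Qbox n R = (@WithLp.ofLp 2 (Fin n → ℝ)) ⁻¹' (Set.pi univ fun _ => Set.Icc (-R) R) := by
    ext x
    simp only [Qbox, abs_le, Set.mem_ofPred_eq, mem_preimage, Set.mem_pi, mem_univ, true_imp_iff, mem_Icc]
  rw [h]
  have hmp2 := PiLp.volume_preserving_ofLp (Fin n)
  rw [hmp2.measure_preimage (MeasurableSet.univ_pi fun _ => measurableSet_Icc).nullMeasurableSet,
    volume_pi_pi]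
  simp only [Real.volume_Icc, Finset.prod_const, Finset.card_univ, Fintype.card_fin]
  rw [← ENNReal.ofReal_pow (by linarith)]
  congr 2; ring

theorem Qbox_bounded (R : ℝ) : Bornology.IsBounded (Qbox n R) := by
  refine (isBounded_closedBall (x := (0 : EE n)) (r := Real.sqrt (n * R ^ 2))).subset fun x hx => ?_
  rw [mem_closedBall_zero_iff, EuclideanSpace.norm_eq]
  apply Real.sqrt_le_sqrt
  calc ∑ i, ‖x i‖ ^ 2 ≤ ∑ _i : Fin n, R ^ 2 := by
        apply Finset.sum_le_sum
        intro i _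
        have := hx i
        rw [Real.norm_eq_abs]
        exact sq_le_sq' (by linarith [neg_abs_le (x i), abs_nonneg (x i)]) this
    _ = n * R ^ 2 := by simp

theorem coord_le_norm (x : EE n) (i : Fin n) : |x i| ≤ ‖x‖ := by
  have := PiLp.norm_apply_le x i
  simpa [Real.norm_eq_abs] using this

/-! ### balls -/

theorem finrank_EE : Module.finrank ℝ (EE n) = n := by simp

theorem vol_closedBall (a : EE n) (r : ℝ) (hr : 0 ≤ r) :
    volume (closedBall a r) = ENNReal.ofReal (r ^ n) * volume (closedBall (0 : EE n) 1) := by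
  have := Measure.addHaar_closedBall' (volume : Measure (EE n)) a hr
  rwa [finrank_EE] at this

theorem vol_ball_pos (hn : 0 ≤ n) : volume (closedBall (0 : EE n) 1) ≠ 0 :=
  (measure_closedBall_pos _ _ one_pos).ne'

theorem vol_ball_fin : volume (closedBall (0 : EE n) 1) ≠ ⊤ :=
  (isCompact_closedBall _ _).measure_lt_top.ne

/-! ### counting functions -/

/-- Indicator of a closed ball, value in `ℝ≥0∞`. -/
def ib (a : EE n) (r : ℝ) (x : EE n) : ℝ≥0∞ := (closedBall a r).indicator 1 x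

theorem ib_meas (a : EE n) (r : ℝ) : Measurable (ib a r) :=
  measurable_one.indicator measurableSet_closedBall

theorem ib_lint (a : EE n) (r : ℝ) : ∫⁻ x, ib a r x = volume (closedBall a r) := by
  unfold ib
  rw [lintegral_indicator_one measurableSet_closedBall]

theorem ib_sum_card (A : Finset (EE n)) (r : ℝ) (x : EE n) :
    ∑ a ∈ A, ib a r x = ((A.filter (fun a => ‖x - a‖ ≤ r)).card : ℝ≥0∞) := by
  rw [Finset.natCast_card_filter]
  apply Finset.sum_congr rfl
  intro a _
  simp [ib, Set.indicator_apply, mem_closedBall, dist_eq_norm]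

/-- The weight function `G`. -/
def GF (A : Finset (EE n)) (x : EE n) : ℝ≥0∞ :=
  (ENNReal.ofReal (Y0 n))⁻¹ * ∑ j ∈ Finset.range (JJ n), ∑ a ∈ A, ib a (rj n j + eps1 n) x
    + ∑ a ∈ A, ib a (rj n (JJ n) + eps1 n) x

theorem GF_meas (A : Finset (EE n)) : Measurable (GF A) := by
  unfold GF
  refine Measurable.add (Measurable.const_mul ?_ _) ?_
  · exact Finset.measurable_sum _ fun j _ => Finset.measurable_sum _ fun a _ => ib_meas _ _
  · exact Finset.measurable_sum _ fun a _ => ib_meas _ _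

theorem exp_neg_sum_le (J : ℕ) : ∑ j ∈ Finset.range J, (2 * Real.exp (-(j : ℝ))) ≤ 4 := by
  have h1 : ∀ j : ℕ, Real.exp (-(j : ℝ)) ≤ (1 / 2 : ℝ) ^ j := by
    intro j
    have : Real.exp (-1) ≤ 1 / 2 := by
      have h := Real.add_one_le_exp (1 : ℝ)
      rw [Real.exp_neg]
      rw [inv_le_comm₀ (Real.exp_pos 1) (by norm_num)]
      norm_num; linarith
    calc Real.exp (-(j : ℝ)) = Real.exp (-1) ^ j := by
          rw [← Real.exp_nat_mul]; congr 1; ring
      _ ≤ (1 / 2 : ℝ) ^ j := by gcongr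
  calc ∑ j ∈ Finset.range J, (2 * Real.exp (-(j : ℝ)))
      ≤ ∑ j ∈ Finset.range J, (2 * (1 / 2 : ℝ) ^ j) := by
        apply Finset.sum_le_sum; intro j _; have := h1 j; linarith
    _ = 2 * ∑ j ∈ Finset.range J, (1 / 2 : ℝ) ^ j := by rw [Finset.mul_sum]
    _ ≤ 2 * 2 := by
        gcongr
        rw [geom_sum_eq (by norm_num)]
        have : (0:ℝ) ≤ (1 / 2 : ℝ) ^ J := by positivity
        norm_num
        rw [div_le_iff_of_neg (by norm_num)]
        linarith
    _ = 4 := by norm_num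

theorem JJ_bound (hθ : 0 < theta' n) : 2 * Real.exp (-(JJ n : ℝ)) ≤ 1 / (32 * theta' n) := by
  have h1 : Real.log (64 * theta' n) ≤ JJ n := Nat.le_ceil _
  have h2 : Real.exp (-(JJ n : ℝ)) ≤ Real.exp (-Real.log (64 * theta' n)) :=
    Real.exp_le_exp.mpr (by linarith)
  rw [Real.exp_neg (Real.log _), Real.exp_log (by positivity)] at h2
  calc 2 * Real.exp (-(JJ n : ℝ)) ≤ 2 * (64 * theta' n)⁻¹ := by linarith
    _ = 1 / (32 * theta' n) := by field_simp; norm_num

theorem GF_lint (hnum : LocalNum n) (hθ : 0 < theta' n) (A : Finset (EE n)) :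
    ∫⁻ x, GF A x ≤ (A.card : ℝ≥0∞) * ENNReal.ofReal (1 / (16 * theta' n)) *
      volume (closedBall (0 : EE n) 1) := by
  set Bd := volume (closedBall (0 : EE n) 1) with hBd
  have hY : 0 < Y0 n := by unfold Y0; positivity
  have hlin : ∫⁻ x, GF A x = (ENNReal.ofReal (Y0 n))⁻¹ *
        ∑ j ∈ Finset.range (JJ n), ∑ a ∈ A, volume (closedBall a (rj n j + eps1 n))
      + ∑ a ∈ A, volume (closedBall a (rj n (JJ n) + eps1 n)) := by
    unfold GF
    rw [lintegral_add_left (Measurable.const_mul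
      (Finset.measurable_sum _ fun j _ => Finset.measurable_sum _ fun a _ => ib_meas _ _) _),
      lintegral_const_mul _
      (Finset.measurable_sum _ fun j _ => Finset.measurable_sum _ fun a _ => ib_meas _ _),
      lintegral_finsetSum _ (fun j _ => Finset.measurable_sum _ fun a _ => ib_meas _ _),
      lintegral_finsetSum _ (fun a _ => ib_meas _ _)]
    congr 1
    · congr 1
      apply Finset.sum_congr rfl; intro j _
      rw [lintegral_finsetSum _ (fun a _ => ib_meas _ _)]
      exact Finset.sum_congr rfl fun a _ => ib_lint _ _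
    · exact Finset.sum_congr rfl fun a _ => ib_lint _ _
  have hsum1 : ∀ j ∈ Finset.range (JJ n), ∑ a ∈ A, volume (closedBall a (rj n j + eps1 n)) ≤
      (A.card : ℝ≥0∞) * (ENNReal.ofReal (2 * Real.exp (-(j : ℝ))) * Bd) := by
    intro j hj
    have hj' : j ≤ JJ n := (Finset.mem_range.mp hj).le
    calc ∑ a ∈ A, volume (closedBall a (rj n j + eps1 n))
        ≤ ∑ _a ∈ A, (ENNReal.ofReal (2 * Real.exp (-(j : ℝ))) * Bd) := by
          apply Finset.sum_le_sum; intro a _
          rw [vol_closedBall _ _ (hnum.r_nonneg j hj')]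
          gcongr
          exact hnum.r_pow j hj'
      _ = _ := by simp
  have hsum2 : ∑ a ∈ A, volume (closedBall a (rj n (JJ n) + eps1 n)) ≤
      (A.card : ℝ≥0∞) * (ENNReal.ofReal (1 / (32 * theta' n)) * Bd) := by
    calc ∑ a ∈ A, volume (closedBall a (rj n (JJ n) + eps1 n))
        ≤ ∑ _a ∈ A, (ENNReal.ofReal (1 / (32 * theta' n)) * Bd) := by
          apply Finset.sum_le_sum; intro a _
          rw [vol_closedBall _ _ (hnum.r_nonneg _ le_rfl)]
          gcongr
          exact (hnum.r_pow _ le_rfl).trans (JJ_bound hθ)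
      _ = _ := by simp
  have hsum3 : ∑ j ∈ Finset.range (JJ n), ∑ a ∈ A, volume (closedBall a (rj n j + eps1 n)) ≤
      (A.card : ℝ≥0∞) * (ENNReal.ofReal 4 * Bd) := by
    calc ∑ j ∈ Finset.range (JJ n), ∑ a ∈ A, volume (closedBall a (rj n j + eps1 n))
        ≤ ∑ j ∈ Finset.range (JJ n), (A.card : ℝ≥0∞) * (ENNReal.ofReal (2 * Real.exp (-(j : ℝ))) * Bd) :=
          Finset.sum_le_sum hsum1
      _ = (A.card : ℝ≥0∞) * (ENNReal.ofReal (∑ j ∈ Finset.range (JJ n), (2 * Real.exp (-(j : ℝ)))) * Bd) := by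
          rw [← Finset.mul_sum, ← Finset.sum_mul, ENNReal.ofReal_sum_of_nonneg]
          intro j _; positivity
      _ ≤ _ := by
          gcongr
          exact exp_neg_sum_le _
  rw [hlin]
  have hY' : (ENNReal.ofReal (Y0 n))⁻¹ * ENNReal.ofReal 4 = ENNReal.ofReal (1 / (32 * theta' n)) := by
    rw [← ENNReal.ofReal_inv_of_pos hY, ← ENNReal.ofReal_mul (by positivity)]
    congr 1
    unfold Y0
    field_simp
    norm_num
  calc (ENNReal.ofReal (Y0 n))⁻¹ *
        ∑ j ∈ Finset.range (JJ n), ∑ a ∈ A, volume (closedBall a (rj n j + eps1 n))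
      + ∑ a ∈ A, volume (closedBall a (rj n (JJ n) + eps1 n))
      ≤ (ENNReal.ofReal (Y0 n))⁻¹ * ((A.card : ℝ≥0∞) * (ENNReal.ofReal 4 * Bd))
        + (A.card : ℝ≥0∞) * (ENNReal.ofReal (1 / (32 * theta' n)) * Bd) := by
        gcongr
    _ = (A.card : ℝ≥0∞) * (ENNReal.ofReal (1 / (32 * theta' n)) + ENNReal.ofReal (1 / (32 * theta' n))) * Bd := by
        rw [← hY']; ring
    _ = _ := by
        rw [← ENNReal.ofReal_add (by positivity) (by positivity)]
        congr 3
        field_simp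
        norm_num

/-! ### selection of the centre -/

/-- Indicator of the unit ball. -/
def ub (x : EE n) : ℝ≥0∞ := (closedBall (0 : EE n) 1).indicator 1 x

theorem ub_meas : Measurable (ub : EE n → ℝ≥0∞) :=
  measurable_one.indicator measurableSet_closedBall

theorem ub_lint : ∫⁻ x : EE n, ub x = volume (closedBall (0 : EE n) 1) := by
  unfold ub
  rw [lintegral_indicator_one measurableSet_closedBall]

/-- The inner integral. -/
def JF (A : Finset (EE n)) (y : EE n) : ℝ≥0∞ := ∫⁻ x, ub x * GF A (x + y)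

theorem JF_uncurry_meas (A : Finset (EE n)) :
    Measurable (Function.uncurry fun (y x : EE n) => ub x * GF A (x + y)) := by
  apply Measurable.mul
  · exact ub_meas.comp measurable_snd
  · exact (GF_meas A).comp (measurable_snd.add measurable_fst)

theorem JF_meas (A : Finset (EE n)) : Measurable (JF A) :=
  (JF_uncurry_meas A).lintegral_prod_right'

theorem JF_lint (A : Finset (EE n)) :
    ∫⁻ y, JF A y = volume (closedBall (0 : EE n) 1) * ∫⁻ x, GF A x := by
  unfold JF
  rw [lintegral_lintegral_swap (JF_uncurry_meas A).aemeasurable]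
  have : ∀ x : EE n, ∫⁻ y, ub x * GF A (x + y) = ub x * ∫⁻ x, GF A x := by
    intro x
    rw [lintegral_const_mul (f := fun y => GF A (x + y)) _
      ((GF_meas A).comp (measurable_const.add measurable_id))]
    congr 1
    exact lintegral_add_left_eq_self (GF A) x
  simp_rw [this]
  rw [lintegral_mul_const _ ub_meas, ub_lint]

/-- The count function. -/
def CF (A : Finset (EE n)) (y : EE n) : ℝ≥0∞ := ∑ a ∈ A, ib a 2 y

theorem CF_meas (A : Finset (EE n)) : Measurable (CF A) :=
  Finset.measurable_sum _ fun a _ => ib_meas _ _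

theorem CF_lint (A : Finset (EE n)) :
    ∫⁻ y, CF A y = (A.card : ℝ≥0∞) * (ENNReal.ofReal (2 ^ n) * volume (closedBall (0 : EE n) 1)) := by
  unfold CF
  rw [lintegral_finsetSum _ (fun a _ => ib_meas _ _)]
  calc ∑ a ∈ A, ∫⁻ y, ib a 2 y = ∑ _a ∈ A, (ENNReal.ofReal (2 ^ n) * volume (closedBall (0 : EE n) 1)) := by
        apply Finset.sum_congr rfl; intro a _
        rw [ib_lint, vol_closedBall _ _ (by norm_num)]
    _ = _ := by simp

theorem mm_ge (n : ℕ) : 8 * theta' n * 2 ^ n ≤ (mm n : ℝ) := Nat.le_ceil _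

theorem exists_center (hnum : LocalNum n) (hθ : 0 < theta' n) (A : Finset (EE n)) (R : ℝ) (hR : 0 < R)
    (hN : (A.card : ℝ) * (volume (closedBall (0 : EE n) 1)).toReal / (4 * theta' n) ≤ (2 * R) ^ n / 2) :
    ∃ y ∈ Qbox n R, (A.filter (fun a => ‖y - a‖ ≤ 2)).card ≤ mm n ∧
      JF A y ≤ volume (closedBall (0 : EE n) 1) / 2 := by
  have hB0 : volume (closedBall (0 : EE n) 1) ≠ 0 := vol_ball_pos (Nat.zero_le n)
  have hBt : volume (closedBall (0 : EE n) 1) ≠ ⊤ := vol_ball_fin
  have hJL := JF_lint (n := n) A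
  have hCL := CF_lint (n := n) A
  have hGL := GF_lint hnum hθ A
  generalize volume (closedBall (0 : EE n) 1) = Bd at *
  obtain ⟨b, hb⟩ : ∃ b : ℝ, b = Bd.toReal := ⟨_, rfl⟩
  rw [← hb] at hN
  have hbpos : 0 < b := by rw [hb]; exact ENNReal.toReal_pos hB0 hBt
  have hBb : Bd = ENNReal.ofReal b := by rw [hb]; exact (ENNReal.ofReal_toReal hBt).symm
  clear hb
  have hMr : 0 < (mm n : ℝ) := lt_of_lt_of_le (by positivity) (mm_ge n)
  have hM0 : ((mm n : ℕ) : ℝ≥0∞) ≠ 0 := by
    have : mm n ≠ 0 := by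
      intro h; rw [h] at hMr; simp at hMr
    exact_mod_cast this
  have hMt : ((mm n : ℕ) : ℝ≥0∞) ≠ ⊤ := ENNReal.natCast_ne_top _
  by_contra hcon
  push Not at hcon
  -- H ≥ 1 on the cube
  have hH : ∀ y ∈ Qbox n R, 1 ≤ CF A y / (mm n : ℝ≥0∞) + (2 / Bd) * JF A y := by
    intro y hy
    by_cases hc : (A.filter (fun a => ‖y - a‖ ≤ 2)).card ≤ mm n
    · have hJ := hcon y hy hc
      refine le_trans ?_ le_add_self
      have h2B : (2 / Bd) * (Bd / 2) = 1 := by
        simp only [div_eq_mul_inv]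
        calc 2 * Bd⁻¹ * (Bd * 2⁻¹) = 2 * (Bd⁻¹ * Bd) * 2⁻¹ := by ring
          _ = 1 := by
            rw [ENNReal.inv_mul_cancel hB0 hBt, mul_one]
            exact ENNReal.mul_inv_cancel (by simp) (by simp)
      calc (1 : ℝ≥0∞) = (2 / Bd) * (Bd / 2) := h2B.symm
        _ ≤ _ := by gcongr
    · refine le_trans ?_ le_self_add
      push Not at hc
      have hCF : CF A y = ((A.filter (fun a => ‖y - a‖ ≤ 2)).card : ℝ≥0∞) := ib_sum_card A 2 y
      rw [hCF, ENNReal.le_div_iff_mul_le (Or.inl hM0) (Or.inl hMt), one_mul]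
      exact_mod_cast hc.le
  have hHm : Measurable fun y => CF A y / (mm n : ℝ≥0∞) + (2 / Bd) * JF A y := by
    refine Measurable.add ?_ ?_
    · simp only [div_eq_mul_inv]; exact (CF_meas A).mul_const _
    · exact (JF_meas A).const_mul _
  have hQm : MeasurableSet (Qbox n R) := by
    have : Qbox n R = ⋂ i, {x : EE n | |x i| ≤ R} := by
      ext x; simp [Qbox]
    rw [this]
    refine MeasurableSet.iInter fun i => ?_
    exact measurableSet_le (by fun_prop) measurable_const
  have hlow : volume (Qbox n R) ≤ ∫⁻ y, (CF A y / (mm n : ℝ≥0∞) + (2 / Bd) * JF A y) := by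
    calc volume (Qbox n R) = ∫⁻ _y in Qbox n R, 1 := by simp
      _ ≤ ∫⁻ y in Qbox n R, (CF A y / (mm n : ℝ≥0∞) + (2 / Bd) * JF A y) :=
          setLIntegral_mono' hQm hH
      _ ≤ _ := setLIntegral_le_lintegral _ _
  have hup : ∫⁻ y, (CF A y / (mm n : ℝ≥0∞) + (2 / Bd) * JF A y) ≤
      ENNReal.ofReal ((A.card : ℝ) * b / (4 * theta' n)) := by
    rw [lintegral_add_left (by simp only [div_eq_mul_inv]; exact (CF_meas A).mul_const _),
      lintegral_const_mul _ (JF_meas A), hJL]
    simp only [div_eq_mul_inv]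
    rw [lintegral_mul_const _ (CF_meas A), hCL]
    have h1 : (A.card : ℝ≥0∞) * (ENNReal.ofReal (2 ^ n) * Bd) * (mm n : ℝ≥0∞)⁻¹ ≤
        ENNReal.ofReal ((A.card : ℝ) * b / (8 * theta' n)) := by
      have hm : ((mm n : ℕ) : ℝ≥0∞) = ENNReal.ofReal (mm n) := (ENNReal.ofReal_natCast _).symm
      have hc : ((A.card : ℕ) : ℝ≥0∞) = ENNReal.ofReal (A.card) := (ENNReal.ofReal_natCast _).symm
      have he : ENNReal.ofReal (A.card : ℝ) * (ENNReal.ofReal (2 ^ n) * ENNReal.ofReal b) *
          ENNReal.ofReal (mm n : ℝ)⁻¹ = ENNReal.ofReal ((A.card : ℝ) * (2 ^ n * b) * (mm n : ℝ)⁻¹) := by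
        rw [ENNReal.ofReal_mul (p := (A.card : ℝ) * (2 ^ n * b)) (by positivity),
          ENNReal.ofReal_mul (p := (A.card : ℝ)) (by positivity),
          ENNReal.ofReal_mul (p := (2 : ℝ) ^ n) (by positivity)]
      rw [hm, hc, hBb, ← ENNReal.ofReal_inv_of_pos hMr, he]
      apply ENNReal.ofReal_le_ofReal
      have := mm_ge n
      have h28 : 2 ^ n * (mm n : ℝ)⁻¹ ≤ 1 / (8 * theta' n) := by
        rw [← div_eq_mul_inv, div_le_div_iff₀ hMr (by positivity)]
        nlinarith
      calc (A.card : ℝ) * (2 ^ n * b) * (mm n : ℝ)⁻¹ = (A.card : ℝ) * b * (2 ^ n * (mm n : ℝ)⁻¹) := by ring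
        _ ≤ (A.card : ℝ) * b * (1 / (8 * theta' n)) := by gcongr
        _ = _ := by ring
    have h2 : 2 * Bd⁻¹ * (Bd * ∫⁻ x, GF A x) ≤ ENNReal.ofReal ((A.card : ℝ) * b / (8 * theta' n)) := by
      have : 2 * Bd⁻¹ * (Bd * ∫⁻ x, GF A x) = 2 * ∫⁻ x, GF A x := by
        rw [mul_assoc, ← mul_assoc Bd⁻¹, ENNReal.inv_mul_cancel hB0 hBt, one_mul]
      rw [this]
      calc 2 * ∫⁻ x, GF A x ≤ 2 * ((A.card : ℝ≥0∞) * ENNReal.ofReal (1 / (16 * theta' n)) * Bd) := by
            gcongr
        _ = ENNReal.ofReal ((A.card : ℝ) * b / (8 * theta' n)) := by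
            have hc : ((A.card : ℕ) : ℝ≥0∞) = ENNReal.ofReal (A.card) := (ENNReal.ofReal_natCast _).symm
            have h2' : (2 : ℝ≥0∞) = ENNReal.ofReal 2 := by simp
            have he : ENNReal.ofReal 2 * (ENNReal.ofReal (A.card : ℝ) * ENNReal.ofReal (1 / (16 * theta' n)) *
                ENNReal.ofReal b) = ENNReal.ofReal (2 * ((A.card : ℝ) * (1 / (16 * theta' n)) * b)) := by
              rw [ENNReal.ofReal_mul (p := 2) (by positivity),
                ENNReal.ofReal_mul (p := (A.card : ℝ) * (1 / (16 * theta' n))) (by positivity),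
                ENNReal.ofReal_mul (p := (A.card : ℝ)) (by positivity)]
            rw [hc, hBb, h2', he]
            congr 1
            field_simp
            ring
    calc _ ≤ ENNReal.ofReal ((A.card : ℝ) * b / (8 * theta' n))
          + ENNReal.ofReal ((A.card : ℝ) * b / (8 * theta' n)) := add_le_add h1 h2
      _ = _ := by
          rw [← ENNReal.ofReal_add (by positivity) (by positivity)]
          congr 1
          field_simp
          ring
  have hQ := volume_Qbox (n := n) R hR.le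
  have hfinal : ENNReal.ofReal ((2 * R) ^ n) ≤ ENNReal.ofReal ((2 * R) ^ n / 2) := by
    calc _ = volume (Qbox n R) := hQ.symm
      _ ≤ _ := hlow
      _ ≤ _ := hup
      _ ≤ _ := ENNReal.ofReal_le_ofReal hN
  have hpos : 0 < (2 * R) ^ n := by positivity
  rw [ENNReal.ofReal_le_ofReal_iff (by positivity)] at hfinal
  linarith

/-! ### rounding -/

theorem GG_mem (A Grd : Finset (EE n)) (y : EE n) (rd : EE n → EE n)
    (hrd : ∀ a : EE n, ‖a‖ ≤ 2 → rd a ∈ Grd ∧ ‖a - rd a‖ ≤ eps1 n)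
    (hY : 0 < Y0 n) (x : EE n) (hx : ‖x‖ ≤ 1) (hG : GF A (x + y) < 1) :
    x ∈ GG n ((A.filter (fun a => ‖y - a‖ ≤ 2)).image (fun a => rd (a - y))) := by
  set A' := (A.filter (fun a => ‖y - a‖ ≤ 2)).image (fun a => rd (a - y)) with hA'
  have hprop : ∀ a' ∈ A', ∃ a ∈ A, ‖y - a‖ ≤ 2 ∧ a' = rd (a - y) ∧ ‖(a - y) - a'‖ ≤ eps1 n := by
    intro a' ha'
    obtain ⟨a, ha, rfl⟩ := Finset.mem_image.mp ha'
    have ha2 := Finset.mem_filter.mp ha
    refine ⟨a, ha2.1, ha2.2, rfl, (hrd (a - y) ?_).2⟩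
    rw [norm_sub_rev]; exact ha2.2
  unfold GF at hG
  have hD : ∑ a ∈ A, ib a (rj n (JJ n) + eps1 n) (x + y) < 1 := lt_of_le_of_lt le_add_self hG
  have hC : (ENNReal.ofReal (Y0 n))⁻¹ *
      ∑ j ∈ Finset.range (JJ n), ∑ a ∈ A, ib a (rj n j + eps1 n) (x + y) < 1 :=
    lt_of_le_of_lt le_self_add hG
  simp_rw [ib_sum_card] at hD hC
  have hD0 : A.filter (fun a => ‖x + y - a‖ ≤ rj n (JJ n) + eps1 n) = ∅ := by
    have : (A.filter (fun a => ‖x + y - a‖ ≤ rj n (JJ n) + eps1 n)).card < 1 := by exact_mod_cast hD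
    exact Finset.card_eq_zero.mp (by omega)
  -- the sum
  set s : ℕ := ∑ j ∈ Finset.range (JJ n), (A.filter (fun a => ‖x + y - a‖ ≤ rj n j + eps1 n)).card with hs
  have hsY : (s : ℝ) ≤ Y0 n := by
    have h1 : (ENNReal.ofReal (Y0 n))⁻¹ * (s : ℝ≥0∞) < 1 := by
      rw [hs]; push_cast; exact hC
    by_contra hcon
    push Not at hcon
    have h2 : ENNReal.ofReal (Y0 n) ≤ (s : ℝ≥0∞) := by
      rw [← ENNReal.ofReal_natCast]; exact ENNReal.ofReal_le_ofReal hcon.le
    have h3 : (1 : ℝ≥0∞) ≤ (ENNReal.ofReal (Y0 n))⁻¹ * (s : ℝ≥0∞) := by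
      calc (1 : ℝ≥0∞) = (ENNReal.ofReal (Y0 n))⁻¹ * ENNReal.ofReal (Y0 n) :=
            (ENNReal.inv_mul_cancel (by simpa using hY) (by simp)).symm
        _ ≤ _ := by gcongr
    exact absurd h1 (not_lt.mpr h3)
  have hnormstep : ∀ a' ∈ A', ∀ r : ℝ, ‖x - a'‖ ≤ r → ∃ a ∈ A, a' = rd (a - y) ∧ ‖x + y - a‖ ≤ r + eps1 n := by
    intro a' ha' r hr
    obtain ⟨a, haA, _, hreq, hnorm⟩ := hprop a' ha'
    refine ⟨a, haA, hreq, ?_⟩
    have : x + y - a = (x - a') - ((a - y) - a') := by abel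
    rw [this]
    calc _ ≤ ‖x - a'‖ + ‖(a - y) - a'‖ := norm_sub_le _ _
      _ ≤ _ := add_le_add hr hnorm
  refine ⟨hx, ?_, ?_⟩
  · calc ∑ j ∈ Finset.range (JJ n), ((A'.filter (fun a => ‖x - a‖ ≤ rj n j)).card : ℝ)
        ≤ ∑ j ∈ Finset.range (JJ n), ((A.filter (fun a => ‖x + y - a‖ ≤ rj n j + eps1 n)).card : ℝ) := by
          apply Finset.sum_le_sum
          intro j _
          have : (A'.filter (fun a => ‖x - a‖ ≤ rj n j)) ⊆
              (A.filter (fun a => ‖x + y - a‖ ≤ rj n j + eps1 n)).image (fun a => rd (a - y)) := by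
            intro a' ha'
            obtain ⟨h1, h2⟩ := Finset.mem_filter.mp ha'
            obtain ⟨a, haA, hreq, hnorm⟩ := hnormstep a' h1 _ h2
            exact Finset.mem_image.mpr ⟨a, Finset.mem_filter.mpr ⟨haA, hnorm⟩, hreq.symm⟩
          have h3 := (Finset.card_le_card this).trans Finset.card_image_le
          exact_mod_cast h3
      _ = (s : ℝ) := by rw [hs]; push_cast; rfl
      _ ≤ _ := hsY
  · intro a' ha'
    by_contra hcon
    push Not at hcon
    obtain ⟨a, haA, _, hnorm⟩ := hnormstep a' ha' _ hcon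
    have : a ∈ A.filter (fun a => ‖x + y - a‖ ≤ rj n (JJ n) + eps1 n) :=
      Finset.mem_filter.mpr ⟨haA, hnorm⟩
    rw [hD0] at this
    simp at this

theorem GG_vol (A Grd : Finset (EE n)) (y : EE n) (rd : EE n → EE n)
    (hrd : ∀ a : EE n, ‖a‖ ≤ 2 → rd a ∈ Grd ∧ ‖a - rd a‖ ≤ eps1 n)
    (hY : 0 < Y0 n) (hJ : JF A y ≤ volume (closedBall (0 : EE n) 1) / 2) :
    volume (closedBall (0 : EE n) 1) / 2 ≤
      volume (GG n ((A.filter (fun a => ‖y - a‖ ≤ 2)).image (fun a => rd (a - y)))) := by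
  set Bd := volume (closedBall (0 : EE n) 1) with hBd
  have hBt : Bd ≠ ⊤ := vol_ball_fin
  set GS := GG n ((A.filter (fun a => ‖y - a‖ ≤ 2)).image (fun a => rd (a - y))) with hGS
  have hmeas : Measurable fun x => ub x * GF A (x + y) :=
    ub_meas.mul ((GF_meas A).comp (measurable_id.add measurable_const))
  have hM := mul_meas_ge_le_lintegral (μ := volume) hmeas 1
  rw [one_mul] at hM
  have hcover : closedBall (0 : EE n) 1 ⊆ GS ∪ {x | 1 ≤ ub x * GF A (x + y)} := by
    intro x hx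
    by_cases hG : GF A (x + y) < 1
    · left
      exact GG_mem A Grd y rd hrd hY x (by simpa using hx) hG
    · right
      push Not at hG
      have : ub x = 1 := by simp [ub, hx]
      simp only [Set.mem_ofPred_eq, this, one_mul]
      exact hG
  have h1 : Bd ≤ volume GS + JF A y := by
    calc Bd ≤ volume (GS ∪ {x | 1 ≤ ub x * GF A (x + y)}) := measure_mono hcover
      _ ≤ volume GS + volume {x | 1 ≤ ub x * GF A (x + y)} := measure_union_le _ _
      _ ≤ volume GS + JF A y := by gcongr; exact hM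
  by_contra hcon
  push Not at hcon
  have h2 : volume GS + JF A y < Bd / 2 + Bd / 2 := by
    exact ENNReal.add_lt_add_of_lt_of_le (ne_top_of_le_ne_top (ENNReal.div_ne_top hBt (by simp)) hJ) hcon hJ
  rw [ENNReal.add_halves] at h2
  exact absurd h1 (not_le.mpr h2)

/-! ### the numerics -/

theorem exp_half_le_two : Real.exp (1 / 2) ≤ 2 := by
  have h := Real.add_one_le_exp (-(1 / 2) : ℝ)
  rw [Real.exp_neg] at h
  have hpos := Real.exp_pos (1 / 2 : ℝ)
  have : (1 / 2 : ℝ) ≤ (Real.exp (1 / 2))⁻¹ := by linarith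
  rw [le_inv_comm₀ (by norm_num) hpos] at this
  linarith

theorem JJ_le (hn : 9 ≤ n) : JJ n ≤ n := by
  have hn' : (9 : ℝ) ≤ n := by exact_mod_cast hn
  have hn1 : (1 : ℝ) < n := by linarith
  have hlog : 0 < Real.log n := Real.log_pos hn1
  have hlogle : Real.log n ≤ n := (Real.log_le_sub_one_of_pos (by linarith)).trans (by linarith)
  have hexp8 : Real.exp 8 ≤ 6561 := by
    have h1 : Real.exp 1 ≤ 3 := by linarith [Real.exp_one_lt_d9]
    calc Real.exp 8 = Real.exp 1 ^ 8 := by rw [← Real.exp_nat_mul]; norm_num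
      _ ≤ 3 ^ 8 := by gcongr
      _ = 6561 := by norm_num
  have h64 : 64 * theta' n ≤ (n : ℝ) ^ 2 := by
    unfold theta' theta c0
    have h1 : Real.log n * n ≤ n * n := by gcongr
    have h2 : 0 ≤ Real.log n * n := by positivity
    have h3 : 64 * (2 * Real.exp 8 * (1 / 10 ^ 15 * (n : ℝ) * Real.log n))
        = (64 * 2 * Real.exp 8 / 10 ^ 15) * (Real.log n * n) := by ring
    rw [h3]
    have h4 : 64 * 2 * Real.exp 8 / 10 ^ 15 ≤ 1 := by
      rw [div_le_one (by norm_num)]; linarith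
    calc _ ≤ 1 * (Real.log n * n) := by gcongr
      _ ≤ (n : ℝ) ^ 2 := by rw [one_mul, sq]; exact h1
  have hpos : 0 < 64 * theta' n := by unfold theta' theta c0; positivity
  have hloglog : Real.log (64 * theta' n) ≤ 2 * Real.log n := by
    calc Real.log (64 * theta' n) ≤ Real.log ((n : ℝ) ^ 2) := Real.log_le_log hpos h64
      _ = 2 * Real.log n := by rw [Real.log_pow]; norm_num
  -- `2 log n ≤ n - 1`
  have hs : 2 * Real.log n ≤ n - 1 := by
    have hsq : 0 < Real.sqrt n := Real.sqrt_pos.mpr (by linarith)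
    have hsqq : Real.sqrt n ^ 2 = n := Real.sq_sqrt (by linarith)
    have h3 : 3 ≤ Real.sqrt n := by
      rw [show (3 : ℝ) = Real.sqrt 9 by
        rw [show (9 : ℝ) = 3 ^ 2 by norm_num]; exact (Real.sqrt_sq (by norm_num)).symm]
      exact Real.sqrt_le_sqrt hn'
    have hl : Real.log n = 2 * Real.log (Real.sqrt n) := by
      conv_lhs => rw [← hsqq, Real.log_pow]
      norm_num
    have hl2 : Real.log (Real.sqrt n) ≤ Real.sqrt n - 1 := Real.log_le_sub_one_of_pos hsq
    rw [hl]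
    nlinarith
  exact Nat.ceil_le.mpr (by linarith)

theorem localNum_of_ge (hn : 9 ≤ n) : LocalNum n := by
  have hn' : (9 : ℝ) ≤ n := by exact_mod_cast hn
  have hnpos : (0 : ℝ) < n := by linarith
  have he : 0 ≤ eps1 n := by unfold eps1; positivity
  have hbase : ∀ j ≤ JJ n, 0 ≤ (1 : ℝ) - (j : ℝ) / n := by
    intro j hj
    have : (j : ℝ) ≤ n := by exact_mod_cast hj.trans (JJ_le hn)
    rw [sub_nonneg, div_le_one hnpos]; exact this
  have hrho : 0 ≤ rho n := by unfold rho; linarith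
  have hnn : ∀ j ≤ JJ n, 0 ≤ rj n j + eps1 n := by
    intro j hj
    unfold rj
    have := mul_nonneg hrho (hbase j hj)
    linarith
  refine ⟨by omega, hnn, ?_⟩
  intro j hj
  have hb := hbase j hj
  have hj0 : (0 : ℝ) ≤ (j : ℝ) / n := by positivity
  have h1 : rj n j + eps1 n ≤ 1 - (j : ℝ) / n + 2 * eps1 n := by
    unfold rj rho
    have : (1 + eps1 n) * (1 - (j : ℝ) / n) ≤ 1 - (j : ℝ) / n + eps1 n := by nlinarith
    linarith
  have h2 : rj n j + eps1 n ≤ Real.exp (-((j : ℝ) / n) + 2 * eps1 n) := by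
    have := Real.add_one_le_exp (-((j : ℝ) / n) + 2 * eps1 n)
    linarith
  calc (rj n j + eps1 n) ^ n ≤ Real.exp (-((j : ℝ) / n) + 2 * eps1 n) ^ n := by
        exact pow_le_pow_left₀ (hnn j hj) h2 n
    _ = Real.exp (n * (-((j : ℝ) / n) + 2 * eps1 n)) := by rw [Real.exp_nat_mul]
    _ = Real.exp (2 * (n * eps1 n)) * Real.exp (-(j : ℝ)) := by
        rw [← Real.exp_add]; congr 1; field_simp; ring
    _ ≤ 2 * Real.exp (-(j : ℝ)) := by
        gcongr
        have h3 : 2 * ((n : ℝ) * eps1 n) ≤ 1 / 2 := by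
          unfold eps1
          have : (n : ℝ) * (1 / (n : ℝ) ^ 3) = 1 / (n : ℝ) ^ 2 := by field_simp
          rw [this]
          have h4 : (1 : ℝ) / (n : ℝ) ^ 2 ≤ 1 / 81 := by
            apply one_div_le_one_div_of_le (by norm_num)
            nlinarith
          linarith
        exact (Real.exp_le_exp.mpr h3).trans exp_half_le_two

/-! ### the main theorem -/

theorem box_growth (R : ℝ) (hR : 6 * (n : ℝ) ≤ R) (hR1 : 1 ≤ R) :
    (2 * (R + 3)) ^ n ≤ 2 * (2 * R) ^ n := by
  have hRpos : 0 < R := by linarith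
  have h1 : 2 * (R + 3) = (2 * R) * (1 + 3 / R) := by field_simp
  rw [h1, mul_pow]
  have h2 : (1 + 3 / R) ^ n ≤ 2 := by
    have h3 : 1 + 3 / R ≤ Real.exp (3 / R) := by linarith [Real.add_one_le_exp (3 / R)]
    calc (1 + 3 / R) ^ n ≤ Real.exp (3 / R) ^ n := by gcongr
      _ = Real.exp (n * (3 / R)) := by rw [Real.exp_nat_mul]
      _ ≤ Real.exp (1 / 2) := by
          apply Real.exp_le_exp.mpr
          rw [← mul_div_assoc, div_le_iff₀ hRpos]
          linarith
      _ ≤ 2 := exp_half_le_two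
  have h4 : 0 ≤ (2 * R) ^ n := by positivity
  nlinarith

theorem no_cover {n : ℕ} (hnum : LocalNum n) (S : Finset (EE n)) (hSn : ∀ u ∈ S, ‖u‖ ≤ 1)
    (Grd : Finset (EE n)) (hGrd : IsGrid n Grd)
    (hvol : ENNReal.ofReal (Real.exp (-8) / 2) * volume (closedBall (0 : EE n) 1) ≤ volume (KK n S))
    (hhole : ∀ A ⊆ Grd, A.card ≤ mm n → volume (closedBall (0 : EE n) 1) / 2 ≤ volume (GG n A) →
        ∃ x ∈ closedBall (0 : EE n) 1, ∀ a ∈ A, x - a ∉ KP n S)
    (X : Set (EE n)) (hX : LocFin X) (hcov : KK n S + X = univ) :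
    ENNReal.ofReal (theta n) ≤ volume (KK n S) * upperDensity X := by
  have hn2 := hnum.two_le
  have hn1 : (1 : ℝ) < n := by exact_mod_cast hn2
  have hlog : 0 < Real.log n := Real.log_pos hn1
  have hθ0 : 0 < theta n := by unfold theta c0; positivity
  have hθ : 0 < theta' n := by unfold theta'; positivity
  have hY : 0 < Y0 n := by unfold Y0; positivity
  by_contra hcon
  push Not at hcon
  have hB0 : volume (closedBall (0 : EE n) 1) ≠ 0 := vol_ball_pos (Nat.zero_le n)
  have hBt : volume (closedBall (0 : EE n) 1) ≠ ⊤ := vol_ball_fin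
  have hbpos : 0 < (volume (closedBall (0 : EE n) 1)).toReal := ENNReal.toReal_pos hB0 hBt
  have hBb : volume (closedBall (0 : EE n) 1) = ENNReal.ofReal (volume (closedBall (0 : EE n) 1)).toReal :=
    (ENNReal.ofReal_toReal hBt).symm
  -- Step 1: density bound
  have hdens : upperDensity X < ENNReal.ofReal (theta' n) / volume (closedBall (0 : EE n) 1) := by
    rw [ENNReal.lt_div_iff_mul_lt (Or.inl hB0) (Or.inl hBt)]
    have hc : 0 < Real.exp (-8) / 2 := by positivity
    have h1 : ENNReal.ofReal (Real.exp (-8) / 2) * (upperDensity X * volume (closedBall (0 : EE n) 1))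
        < ENNReal.ofReal (theta n) := by
      calc _ = upperDensity X * (ENNReal.ofReal (Real.exp (-8) / 2) * volume (closedBall (0 : EE n) 1)) := by ring
        _ ≤ upperDensity X * volume (KK n S) := by gcongr
        _ = volume (KK n S) * upperDensity X := mul_comm _ _
        _ < _ := hcon
    have h2 : theta n = Real.exp (-8) / 2 * theta' n := by
      unfold theta'
      rw [Real.exp_neg]
      have := Real.exp_pos (8 : ℝ)
      field_simp
    rw [h2, ENNReal.ofReal_mul hc.le] at h1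
    exact (ENNReal.mul_lt_mul_iff_right (by simpa using hc) (by simp)).mp h1
  -- Step 2: eventually
  have hev := Filter.eventually_lt_of_limsup_lt hdens
  obtain ⟨R0, hR0⟩ := Filter.eventually_atTop.mp hev
  -- Step 3: choose R
  set R : ℝ := max R0 (max 1 (6 * (n : ℝ))) with hRdef
  have hR1 : 1 ≤ R := le_trans (le_max_left _ _) (le_max_right _ _)
  have hR6 : 6 * (n : ℝ) ≤ R := le_trans (le_max_right _ _) (le_max_right _ _)
  have hRR0 : R0 ≤ R := le_max_left _ _
  have hRpos : 0 < R := by linarith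
  have hfin : (X ∩ Qbox n (R + 3)).Finite := hX _ (Qbox_bounded _)
  set A : Finset (EE n) := hfin.toFinset with hA
  have hmemA : ∀ a, a ∈ A ↔ a ∈ X ∧ a ∈ Qbox n (R + 3) := by
    intro a; simp [hA]
  -- count bound
  have hN : (A.card : ℝ) * (volume (closedBall (0 : EE n) 1)).toReal / (4 * theta' n) ≤ (2 * R) ^ n / 2 := by
    have h := hR0 (R + 3) (by linarith)
    have henc : (X ∩ Qbox n (R + 3)).encard = (A.card : ℕ∞) := by
      rw [hA, hfin.encard_eq_coe_toFinset_card]
    rw [henc] at h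
    have hApos : 0 < (2 * (R + 3)) ^ n := by positivity
    have h' : (A.card : ℝ≥0∞) / ENNReal.ofReal ((2 * (R + 3)) ^ n) <
        ENNReal.ofReal (theta' n) / volume (closedBall (0 : EE n) 1) := by
      simpa using h
    rw [hBb, ← ENNReal.ofReal_natCast, ← ENNReal.ofReal_div_of_pos hApos,
      ← ENNReal.ofReal_div_of_pos hbpos,
      ENNReal.ofReal_lt_ofReal_iff (by positivity)] at h'
    rw [div_lt_div_iff₀ hApos hbpos] at h'
    have h5 := box_growth R hR6 hR1
    rw [div_le_div_iff₀ (by positivity) (by norm_num)]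
    nlinarith [mul_le_mul_of_nonneg_left h5 hθ.le]
  obtain ⟨y, hyQ, hcard, hJ⟩ := exists_center hnum hθ A R hRpos hN
  -- Step 5: rounding
  have hround : ∀ a : EE n, ∃ a', ‖a‖ ≤ 2 → a' ∈ Grd ∧ ‖a - a'‖ ≤ eps1 n := by
    intro a
    by_cases h : ‖a‖ ≤ 2
    · obtain ⟨a', h1, h2⟩ := hGrd.rounds a h
      exact ⟨a', fun _ => ⟨h1, h2⟩⟩
    · exact ⟨0, fun h' => absurd h' h⟩
  choose rd hrd using hround
  set A' := (A.filter (fun a => ‖y - a‖ ≤ 2)).image (fun a => rd (a - y)) with hA'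
  have hsub : A' ⊆ Grd := by
    intro a' ha'
    obtain ⟨a, ha, rfl⟩ := Finset.mem_image.mp ha'
    have ha2 := Finset.mem_filter.mp ha
    exact (hrd (a - y) (by rw [norm_sub_rev]; exact ha2.2)).1
  have hcard' : A'.card ≤ mm n := Finset.card_image_le.trans hcard
  have hvolG : volume (closedBall (0 : EE n) 1) / 2 ≤ volume (GG n A') :=
    GG_vol A Grd y rd hrd hY hJ
  obtain ⟨x, hx, hxa⟩ := hhole A' hsub hcard' hvolG
  -- the cover
  have hxy : x + y ∈ KK n S + X := by rw [hcov]; exact mem_univ _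
  obtain ⟨k, hk, a, ha, hka⟩ := Set.mem_add.mp hxy
  have hxnorm : ‖x‖ ≤ 1 := by simpa using hx
  have hay : a - y = x - k := by
    have : x = k + a - y := by rw [hka]; abel
    rw [this]; abel
  have hay2 : ‖y - a‖ ≤ 2 := by
    rw [norm_sub_rev, hay]
    calc ‖x - k‖ ≤ ‖x‖ + ‖k‖ := norm_sub_le _ _
      _ ≤ 1 + 1 := add_le_add hxnorm hk.1
      _ = 2 := by norm_num
  have haQ : a ∈ Qbox n (R + 3) := by
    intro i
    have h1 := coord_le_norm (y - a) i
    have h2 := hyQ i
    have h3 : (y - a) i = y i - a i := by simp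
    rw [h3] at h1
    have h4 : |a i| ≤ |y i| + |y i - a i| := by
      have : a i = y i - (y i - a i) := by ring
      calc |a i| = |y i - (y i - a i)| := by rw [← this]
        _ ≤ _ := abs_sub _ _
    linarith
  have haA : a ∈ A := (hmemA a).mpr ⟨ha, haQ⟩
  have ha'mem : rd (a - y) ∈ A' :=
    Finset.mem_image.mpr ⟨a, Finset.mem_filter.mpr ⟨haA, hay2⟩, rfl⟩
  have hnot := hxa _ ha'mem
  apply hnot
  have hrdn : ‖(a - y) - rd (a - y)‖ ≤ eps1 n := (hrd (a - y) (by rw [norm_sub_rev]; exact hay2)).2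
  -- x - a' = k + v
  set v := (a - y) - rd (a - y) with hv
  have hsum : x - rd (a - y) = k + v := by
    rw [hv, hay]; abel
  rw [hsum]
  refine ⟨?_, fun u hu => ?_⟩
  · calc ‖k + v‖ ≤ ‖k‖ + ‖v‖ := norm_add_le _ _
      _ ≤ 1 + eps1 n := add_le_add hk.1 hrdn
      _ = rho n := rfl
  · rw [inner_add_left]
    have h1 := hk.2 u hu
    have h2 : inner ℝ v u ≤ eps1 n := by
      calc inner ℝ v u ≤ ‖v‖ * ‖u‖ := real_inner_le_norm v u
        _ ≤ eps1 n * 1 := mul_le_mul hrdn (hSn u hu) (norm_nonneg _) ((norm_nonneg _).trans hrdn)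
        _ = eps1 n := mul_one _
    have h3 : tau n = tau0 n + eps1 n := by unfold tau0; ring
    linarith

end Vale.Agent.P230
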