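import Vale.Agent.P230.Defs

/-! P230 M8a: eventual bounds for all parameters.  `Big n` collects the facts about `n` that are
true eventually; every parameter is then bounded by an explicit expression in `x = n^(1/8)` and
`L = log n`. -/

open Filter

noncomputable section

namespace Vale.Agent.P230

/-- `n^(1/8)`. -/
def xx (n : ℕ) : ℝ := (n : ℝ) ^ ((1 : ℝ) / 8)

/-- `log n`. -/
def LL (n : ℕ) : ℝ := Real.log n

/-- What largeness of `n` gives. -/
structure Big (n : ℕ) : Prop where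
  n_ge : 2 ≤ n
  x_ge : (10 : ℝ) ^ 40 ≤ xx n
  L_ge : (10 : ℝ) ^ 3 ≤ LL n
  L_le : LL n * 10 ^ 40 ≤ xx n

lemma eventually_big : ∀ᶠ n : ℕ in atTop, Big n := by
  have h1 : ∀ᶠ n : ℕ in atTop, 2 ≤ n := eventually_ge_atTop 2
  have hnat : Tendsto (fun n : ℕ => (n : ℝ)) atTop atTop := tendsto_natCast_atTop_atTop
  have h2 : ∀ᶠ n : ℕ in atTop, (10 : ℝ) ^ 40 ≤ xx n :=
    ((tendsto_rpow_atTop (by norm_num : (0 : ℝ) < 1 / 8)).comp hnat).eventually_ge_atTop _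
  have h3 : ∀ᶠ n : ℕ in atTop, (10 : ℝ) ^ 3 ≤ LL n :=
    (Real.tendsto_log_atTop.comp hnat).eventually_ge_atTop _
  have h4 : ∀ᶠ n : ℕ in atTop, LL n * 10 ^ 40 ≤ xx n := by
    have hlo := (isLittleO_log_rpow_atTop (by norm_num : (0 : ℝ) < 1 / 8)).def
      (by positivity : (0 : ℝ) < 1 / 10 ^ 40)
    have h5 := hnat.eventually hlo
    filter_upwards [h5, h1] with n hn hn2
    have hpos : (0 : ℝ) < n := by
      have : (2 : ℝ) ≤ n := by exact_mod_cast hn2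
      linarith
    have h6 : 0 < (n : ℝ) ^ ((1 : ℝ) / 8) := Real.rpow_pos_of_pos hpos _
    rw [Real.norm_of_nonneg (Real.rpow_pos_of_pos hpos _).le] at hn
    have h7 : Real.log n ≤ 1 / 10 ^ 40 * (n : ℝ) ^ ((1 : ℝ) / 8) :=
      (le_abs_self _).trans (by simpa using hn)
    unfold LL xx
    have h8 : Real.log n * 10 ^ 40 ≤ (1 / 10 ^ 40 * (n : ℝ) ^ ((1 : ℝ) / 8)) * 10 ^ 40 :=
      mul_le_mul_of_nonneg_right h7 (by positivity)
    have h9 : (1 / 10 ^ 40 * (n : ℝ) ^ ((1 : ℝ) / 8)) * 10 ^ 40 = (n : ℝ) ^ ((1 : ℝ) / 8) := by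
      field_simp
    linarith
  filter_upwards [h1, h2, h3, h4] with n a b c d
  exact ⟨a, b, c, d⟩

variable {n : ℕ}

lemma Big.n_pos (h : Big n) : (0 : ℝ) < n := by
  have : (2 : ℝ) ≤ n := by exact_mod_cast h.n_ge
  linarith

lemma Big.x_pos (h : Big n) : 0 < xx n := lt_of_lt_of_le (by positivity) h.x_ge

lemma Big.L_pos (h : Big n) : 0 < LL n := lt_of_lt_of_le (by positivity) h.L_ge

lemma Big.x_pow (h : Big n) : xx n ^ 8 = n := by
  unfold xx
  rw [← Real.rpow_natCast, ← Real.rpow_mul h.n_pos.le]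
  norm_num

lemma Big.ell_eq (h : Big n) : ell n = (xx n)⁻¹ := by
  unfold ell xx
  rw [Real.rpow_neg h.n_pos.le]

lemma Big.ss_eq (h : Big n) : ss n = (xx n ^ 4)⁻¹ := by
  unfold ss
  rw [h.ell_eq, inv_pow]

lemma Big.SS_eq (h : Big n) : SS n = (xx n ^ 2)⁻¹ := by
  unfold SS
  rw [h.ell_eq, inv_pow]

lemma Big.n_ss (h : Big n) : (n : ℝ) * ss n = xx n ^ 4 := by
  rw [h.ss_eq, ← h.x_pow]
  have := h.x_pos
  field_simp

lemma Big.n_ell2 (h : Big n) : (n : ℝ) * ell n ^ 2 = xx n ^ 6 := by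
  rw [h.ell_eq, ← h.x_pow]
  have := h.x_pos
  field_simp

lemma Big.n_ge_big (h : Big n) : (10 : ℝ) ^ 100 ≤ n := by
  rw [← h.x_pow]
  calc (10 : ℝ) ^ 100 ≤ ((10 : ℝ) ^ 40) ^ 8 := by norm_num
    _ ≤ xx n ^ 8 := pow_le_pow_left₀ (by positivity) h.x_ge 8

/-- `n = exp L`. -/
lemma Big.exp_L (h : Big n) : Real.exp (LL n) = n := by
  unfold LL
  exact Real.exp_log h.n_pos

/-- `ℓ^n = exp(-n L/8)`. -/
lemma Big.ell_pow (h : Big n) : ell n ^ n = Real.exp (-(n * LL n / 8)) := by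
  unfold ell LL
  rw [Real.rpow_def_of_pos h.n_pos, ← Real.exp_nat_mul]
  congr 1
  ring

/-- `(ℓ⁻¹)^n = exp(n L/8)`. -/
lemma Big.ell_inv_pow (h : Big n) : (ell n)⁻¹ ^ n = Real.exp (n * LL n / 8) := by
  rw [inv_pow, h.ell_pow, Real.exp_neg, inv_inv]

lemma exp8_le : Real.exp 8 ≤ 3000 := by
  have h1 : Real.exp 8 = Real.exp 1 ^ 8 := by
    rw [← Real.exp_nat_mul]; norm_num
  rw [h1]
  have h2 := Real.exp_one_lt_d9
  calc Real.exp 1 ^ 8 ≤ (2.7182818286 : ℝ) ^ 8 :=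
        pow_le_pow_left₀ (Real.exp_pos 1).le h2.le 8
    _ ≤ 3000 := by norm_num

lemma exp8_ge : 1 ≤ Real.exp 8 := Real.one_le_exp (by norm_num)

lemma Big.L_le_n (h : Big n) : LL n ≤ n := by
  unfold LL
  exact (Real.log_le_self (by linarith [h.n_pos] : (0:ℝ) ≤ n))

lemma Big.x_ge_L (h : Big n) : LL n ≤ xx n := by
  have h1 := h.L_le
  have h2 := h.L_pos
  nlinarith [show (1 : ℝ) ≤ 10 ^ 40 by norm_num]

lemma Big.L_ge1000 (h : Big n) : (1000 : ℝ) ≤ LL n := by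
  have := h.L_ge
  norm_num at this
  exact this

lemma Big.x_ge_1 (h : Big n) : 1 ≤ xx n := le_trans (by norm_num) h.x_ge

/-- `θ = c₀ n L`. -/
lemma theta_eq (n : ℕ) : theta n = c0 * n * LL n := rfl

lemma Big.theta_pos (h : Big n) : 0 < theta n := by
  unfold theta c0
  have := h.n_pos
  have := h.L_pos
  unfold LL at *
  positivity

lemma Big.thetap_pos (h : Big n) : 0 < theta' n := by
  unfold theta'
  have := h.theta_pos
  positivity

lemma Big.thetap_le (h : Big n) : theta' n ≤ 6000 * c0 * (n * LL n) := by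
  unfold theta'
  rw [theta_eq]
  have h1 : 0 ≤ c0 * n * LL n := by
    have := h.n_pos
    have := h.L_pos
    unfold c0
    positivity
  have h2 := exp8_le
  nlinarith

lemma Big.thetap_ge (h : Big n) : 2 * c0 * (n * LL n) ≤ theta' n := by
  unfold theta'
  rw [theta_eq]
  have h1 : 0 ≤ c0 * n * LL n := by
    have := h.n_pos
    have := h.L_pos
    unfold c0
    positivity
  have h2 := exp8_ge
  nlinarith

lemma Big.Y0_le (h : Big n) : Y0 n ≤ 768000 * c0 * (n * LL n) := by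
  unfold Y0
  have := h.thetap_le
  linarith

lemma Big.Y0_pos (h : Big n) : 0 < Y0 n := by
  unfold Y0
  have := h.thetap_pos
  linarith

/-- `(A+1) Y₀ ≤ n L / 32`. -/
lemma Big.A_Y0_le (h : Big n) : (AA + 1) * Y0 n ≤ n * LL n / 32 := by
  have h1 := h.Y0_le
  have h2 : 0 < n * LL n := mul_pos h.n_pos h.L_pos
  have h3 : AA + 1 ≤ 4 * 10 ^ 7 + 5 := by
    unfold AA kappa
    norm_num
  have h4 : 0 ≤ AA + 1 := by
    unfold AA kappa
    norm_num
  calc (AA + 1) * Y0 n ≤ (4 * 10 ^ 7 + 5) * (768000 * c0 * (n * LL n)) :=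
        mul_le_mul h3 h1 h.Y0_pos.le (by norm_num)
    _ ≤ n * LL n / 32 := by
      unfold c0
      nlinarith

lemma Big.mm_ge_one (h : Big n) : 1 ≤ mm n := by
  unfold mm
  rw [Nat.one_le_iff_ne_zero]
  intro h0
  rw [Nat.ceil_eq_zero] at h0
  have := h.thetap_pos
  have h2 : (0 : ℝ) < 8 * theta' n * 2 ^ n := by positivity
  linarith

lemma Big.mm_le (h : Big n) : (mm n : ℝ) ≤ 2 ^ n * (n : ℝ) ^ 2 := by
  have h1 : (mm n : ℝ) < 8 * theta' n * 2 ^ n + 1 :=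
    Nat.ceil_lt_add_one (by have := h.thetap_pos; positivity)
  have h2 := h.thetap_le
  have hn := h.n_pos
  have hL := h.L_pos
  have hLn := h.L_le_n
  have h3 : 1 ≤ (2 : ℝ) ^ n := one_le_pow₀ (by norm_num)
  have hn2 : (2 : ℝ) ≤ n := by exact_mod_cast h.n_ge
  have h4 : 8 * theta' n + 1 ≤ (n : ℝ) ^ 2 := by
    have h5 : n * LL n ≤ (n : ℝ) ^ 2 := by nlinarith
    have h6 : 8 * theta' n ≤ 8 * (6000 * c0 * (n * LL n)) := by linarith
    have h7 : 8 * (6000 * c0 * (n * LL n)) ≤ (1 / 2) * (n : ℝ) ^ 2 := by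
      unfold c0
      nlinarith
    nlinarith
  calc (mm n : ℝ) ≤ 8 * theta' n * 2 ^ n + 1 * 2 ^ n := by linarith
    _ = 2 ^ n * (8 * theta' n + 1) := by ring
    _ ≤ 2 ^ n * (n : ℝ) ^ 2 := mul_le_mul_of_nonneg_left h4 (by positivity)

lemma Big.JJ_le (h : Big n) : (JJ n : ℝ) ≤ 3 * LL n := by
  have hθ := h.thetap_pos
  have hlogpos : 0 ≤ Real.log (64 * theta' n) := by
    apply Real.log_nonneg
    have h1 := h.thetap_ge
    have hL : (1 : ℝ) ≤ LL n := le_trans (by norm_num) h.L_ge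
    have hn2 := h.n_ge_big
    have h3 : (1 : ℝ) * 10 ^ 100 ≤ n * LL n := by
      rw [one_mul, mul_comm]
      nlinarith
    unfold c0 at h1
    nlinarith
  have h1 : (JJ n : ℝ) < Real.log (64 * theta' n) + 1 := Nat.ceil_lt_add_one hlogpos
  have h2 : Real.log (64 * theta' n) ≤ 2 * LL n := by
    have h3 : 64 * theta' n ≤ Real.exp (2 * LL n) := by
      have h4 : Real.exp (2 * LL n) = (n : ℝ) ^ 2 := by
        rw [two_mul, Real.exp_add, h.exp_L]; ring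
      rw [h4]
      have h5 := h.thetap_le
      have h6 := h.L_le_n
      have hn := h.n_pos
      have hL := h.L_pos
      have h7 : n * LL n ≤ (n : ℝ) ^ 2 := by nlinarith
      unfold c0 at h5
      nlinarith
    calc Real.log (64 * theta' n) ≤ Real.log (Real.exp (2 * LL n)) :=
          Real.log_le_log (by positivity) h3
      _ = 2 * LL n := Real.log_exp _
  have hL := h.L_ge
  have : (1 : ℝ) ≤ LL n := le_trans (by norm_num) hL
  linarith

lemma Big.X_def (h : Big n) :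
    (1 / 4 : ℝ) * (ell n)⁻¹ ^ n / ((mm n : ℝ) ^ 2 + 1) * (((mm n : ℝ) ^ 2 + 1) * ell n ^ n) = 1 / 4 := by
  have h1 : ell n ≠ 0 := by
    rw [h.ell_eq]
    exact inv_ne_zero h.x_pos.ne'
  have h2 : ((mm n : ℝ) ^ 2 + 1) ≠ 0 := by positivity
  have h3 : (ell n)⁻¹ ^ n * ell n ^ n = 1 := by
    rw [← mul_pow, inv_mul_cancel₀ h1, one_pow]
  field_simp
  simpa using h3

/-- `m² + 1 ≤ exp(2n + 4L + 1)`. -/
lemma Big.m2_le (h : Big n) : (mm n : ℝ) ^ 2 + 1 ≤ Real.exp (2 * n + 4 * LL n + 1) := by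
  have h1 := h.mm_le
  have h1' : 1 ≤ (mm n : ℝ) := by exact_mod_cast h.mm_ge_one
  have hn := h.n_pos
  have h2 : (mm n : ℝ) ^ 2 ≤ (2 ^ n * (n : ℝ) ^ 2) ^ 2 := pow_le_pow_left₀ (by linarith) h1 2
  have h3 : (2 ^ n * (n : ℝ) ^ 2) ^ 2 = 4 ^ n * (n : ℝ) ^ 4 := by
    rw [mul_pow, ← pow_mul, mul_comm n 2, pow_mul]
    norm_num
    ring
  have h4 : (4 : ℝ) ^ n ≤ Real.exp (2 * n) := by
    have h5 : Real.exp (2 * n) = Real.exp 2 ^ n := by
      rw [← Real.exp_nat_mul]; congr 1; ring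
    rw [h5]
    apply pow_le_pow_left₀ (by norm_num)
    have := Real.add_one_le_exp (1 : ℝ)
    have h6 : Real.exp 2 = Real.exp 1 * Real.exp 1 := by
      rw [← Real.exp_add]; norm_num
    rw [h6]
    nlinarith
  have h7 : (n : ℝ) ^ 4 = Real.exp (4 * LL n) := by
    have : Real.exp (4 * LL n) = Real.exp (LL n) ^ 4 := by
      rw [← Real.exp_nat_mul]; norm_num
    rw [this, h.exp_L]
  have h8 : Real.exp (2 * n + 4 * LL n + 1) = Real.exp (2 * n) * Real.exp (4 * LL n) * Real.exp 1 := by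
    rw [Real.exp_add, Real.exp_add]
  rw [h8, ← h7]
  have h9 : 2 ≤ Real.exp 1 := by
    have := Real.add_one_le_exp (1 : ℝ)
    linarith
  have h10 : (0 : ℝ) < 4 ^ n * (n : ℝ) ^ 4 := by positivity
  have h11 : 1 ≤ (4 : ℝ) ^ n * (n : ℝ) ^ 4 := by
    have h12 : 1 ≤ (mm n : ℝ) ^ 2 := one_le_pow₀ h1'
    linarith
  calc (mm n : ℝ) ^ 2 + 1 ≤ 4 ^ n * (n : ℝ) ^ 4 + 4 ^ n * (n : ℝ) ^ 4 := by linarith
    _ = 4 ^ n * (n : ℝ) ^ 4 * 2 := by ring
    _ ≤ Real.exp (2 * n) * (n : ℝ) ^ 4 * Real.exp 1 := by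
      apply mul_le_mul _ h9 (by norm_num) (by positivity)
      exact mul_le_mul_of_nonneg_right h4 (by positivity)

/-- The real number whose floor is `M0`. -/
def XM (n : ℕ) : ℝ := (1 / 4 : ℝ) * (ell n)⁻¹ ^ n / ((mm n : ℝ) ^ 2 + 1)

lemma M0_eq (n : ℕ) : M0 n = ⌊XM n⌋₊ := rfl

lemma Big.XM_ge (h : Big n) : Real.exp (n * LL n / 8 - (2 * n + 4 * LL n + 3)) ≤ XM n := by
  unfold XM
  rw [h.ell_inv_pow, le_div_iff₀ (by positivity)]
  have h1 := h.m2_le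
  have h2 : Real.exp (n * LL n / 8 - (2 * n + 4 * LL n + 3)) * Real.exp (2 * n + 4 * LL n + 1) =
      Real.exp (n * LL n / 8) * Real.exp (-2) := by
    rw [← Real.exp_add, ← Real.exp_add]
    congr 1
    ring
  have h3 : Real.exp (-2) ≤ 1 / 4 := by
    have h4 : Real.exp (-2) * Real.exp 2 = 1 := by
      rw [← Real.exp_add]; simp
    have h5 : 4 ≤ Real.exp 2 := by
      have := Real.add_one_le_exp (1 : ℝ)
      have h6 : Real.exp 2 = Real.exp 1 * Real.exp 1 := by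
        rw [← Real.exp_add]; norm_num
      rw [h6]
      nlinarith
    have h7 := Real.exp_pos (-2 : ℝ)
    nlinarith
  calc Real.exp (n * LL n / 8 - (2 * n + 4 * LL n + 3)) * ((mm n : ℝ) ^ 2 + 1)
      ≤ Real.exp (n * LL n / 8 - (2 * n + 4 * LL n + 3)) * Real.exp (2 * n + 4 * LL n + 1) :=
        mul_le_mul_of_nonneg_left h1 (Real.exp_pos _).le
    _ = Real.exp (n * LL n / 8) * Real.exp (-2) := h2
    _ ≤ Real.exp (n * LL n / 8) * (1 / 4) :=
        mul_le_mul_of_nonneg_left h3 (Real.exp_pos _).le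
    _ = 1 / 4 * Real.exp (n * LL n / 8) := by ring

/-- Big exponents: `n L ≥ 1000 n`, and `2n + 4 L + 3 ≤ nL/16` . -/
lemma Big.exponent_gap (h : Big n) : 2 * (n : ℝ) + 4 * LL n + 3 ≤ n * LL n / 16 := by
  have hn := h.n_pos
  have hL := h.L_ge1000
  have hLn := h.L_le_n
  have hn2 := h.n_ge_big
  have h1 : (n : ℝ) * 1000 ≤ n * LL n := mul_le_mul_of_nonneg_left hL hn.le
  have h2 : (3 : ℝ) ≤ n := le_trans (by norm_num) hn2
  nlinarith

lemma Big.XM_ge_two (h : Big n) : 2 ≤ XM n := by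
  have h1 := h.XM_ge
  have h2 := h.exponent_gap
  have hn := h.n_pos
  have hL := h.L_ge1000
  have h3 : (n : ℝ) * 1000 ≤ n * LL n := mul_le_mul_of_nonneg_left hL hn.le
  have hn2 := h.n_ge_big
  have h4 : (1 : ℝ) ≤ n * LL n / 8 - (2 * n + 4 * LL n + 3) := by
    have h5 : (1 : ℝ) ≤ n := le_trans (by norm_num) hn2
    linarith
  have h6 : Real.exp 1 ≤ XM n :=
    (Real.exp_le_exp.mpr h4).trans h1
  have := Real.add_one_le_exp (1 : ℝ)
  linarith

lemma Big.M0_ge_half (h : Big n) : XM n / 2 ≤ (M0 n : ℝ) := by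
  rw [M0_eq]
  have h1 := h.XM_ge_two
  have h2 : XM n < ⌊XM n⌋₊ + 1 := Nat.lt_floor_add_one _
  have h3 : 1 ≤ ⌊XM n⌋₊ := Nat.le_floor (by norm_cast; linarith)
  have h4 : (1 : ℝ) ≤ (⌊XM n⌋₊ : ℝ) := by exact_mod_cast h3
  linarith

lemma Big.M0_pos (h : Big n) : 0 < (M0 n : ℝ) := by
  have h1 := h.M0_ge_half
  have h2 := h.XM_ge_two
  linarith

lemma Big.M0_bound (h : Big n) : (M0 n : ℝ) * ((mm n : ℝ) ^ 2 + 1) * ell n ^ n ≤ 1 / 4 := by
  have h1 : (M0 n : ℝ) ≤ XM n := by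
    rw [M0_eq]
    exact Nat.floor_le (by have := h.XM_ge_two; linarith)
  have h2 : 0 ≤ ((mm n : ℝ) ^ 2 + 1) * ell n ^ n := by
    have : 0 < ell n := by
      rw [h.ell_eq]; exact inv_pos.mpr h.x_pos
    positivity
  calc (M0 n : ℝ) * ((mm n : ℝ) ^ 2 + 1) * ell n ^ n
      = (M0 n : ℝ) * (((mm n : ℝ) ^ 2 + 1) * ell n ^ n) := by ring
    _ ≤ XM n * (((mm n : ℝ) ^ 2 + 1) * ell n ^ n) := mul_le_mul_of_nonneg_right h1 h2
    _ = 1 / 4 := h.X_def

lemma Big.mu_pos (h : Big n) : 0 < mu1 n := by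
  unfold mu1
  have hm : (0 : ℝ) < mm n := by exact_mod_cast h.mm_ge_one
  have hn := h.n_pos
  have hL := h.L_pos
  have := h.M0_pos
  unfold LL at hL
  positivity

/-- The basic upper bound for `μ`. -/
lemma Big.mu_le_raw (h : Big n) :
    mu1 n ≤ 112 * mm n * ((mm n : ℝ) ^ 2 + 1) * (n * LL n) * ell n ^ n := by
  have hM := h.M0_ge_half
  have hX := h.XM_ge_two
  have hm : (0 : ℝ) < mm n := by exact_mod_cast h.mm_ge_one
  have hn := h.n_pos
  have hL := h.L_pos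
  have hell : 0 < ell n := by
    rw [h.ell_eq]; exact inv_pos.mpr h.x_pos
  have h0 : 0 < 14 * (mm n : ℝ) * n * LL n := by positivity
  have h1 : mu1 n ≤ 14 * (mm n : ℝ) * n * LL n / (XM n / 2) := by
    unfold mu1
    exact div_le_div_of_nonneg_left h0.le (by linarith) hM
  have h2 : (14 * (mm n : ℝ) * n * LL n / (XM n / 2)) =
      112 * mm n * ((mm n : ℝ) ^ 2 + 1) * (n * LL n) * ell n ^ n := by
    have h3 : XM n * (((mm n : ℝ) ^ 2 + 1) * ell n ^ n) = 1 / 4 := h.X_def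
    have h4 : XM n ≠ 0 := by linarith
    field_simp
    field_simp at h3
    nlinarith
  linarith

/-- `112 m (m²+1) n L ≤ exp(3n + 8L + 6)` . -/
lemma Big.prefactor_le (h : Big n) :
    112 * mm n * ((mm n : ℝ) ^ 2 + 1) * (n * LL n) ≤ Real.exp (3 * n + 8 * LL n + 8) := by
  have hn := h.n_pos
  have hL := h.L_pos
  have hm0 : (0 : ℝ) ≤ mm n := Nat.cast_nonneg _
  have h1 : (mm n : ℝ) ≤ Real.exp (n + 2 * LL n) := by
    refine h.mm_le.trans ?_
    have h2 : (2 : ℝ) ^ n ≤ Real.exp n := by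
      have h3 : Real.exp n = Real.exp 1 ^ n := by
        rw [← Real.exp_nat_mul]; simp
      rw [h3]
      apply pow_le_pow_left₀ (by norm_num)
      have := Real.add_one_le_exp (1 : ℝ)
      linarith
    have h4 : (n : ℝ) ^ 2 = Real.exp (2 * LL n) := by
      have : Real.exp (2 * LL n) = Real.exp (LL n) ^ 2 := by
        rw [← Real.exp_nat_mul]; norm_num
      rw [this, h.exp_L]
    rw [Real.exp_add, h4]
    exact mul_le_mul_of_nonneg_right h2 (Real.exp_pos _).le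
  have h2 := h.m2_le
  have h3 : (n : ℝ) * LL n ≤ Real.exp (2 * LL n) := by
    have h4 : Real.exp (2 * LL n) = (n : ℝ) * n := by
      rw [two_mul, Real.exp_add, h.exp_L]
    rw [h4]
    exact mul_le_mul_of_nonneg_left h.L_le_n hn.le
  have h5 : (112 : ℝ) ≤ Real.exp 5 := by
    have h6 : Real.exp 5 = Real.exp 1 ^ 5 := by
      rw [← Real.exp_nat_mul]; norm_num
    rw [h6]
    have h7 := Real.exp_one_gt_d9
    calc (112 : ℝ) ≤ (2.7182818283 : ℝ) ^ 5 := by norm_num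
      _ ≤ Real.exp 1 ^ 5 := pow_le_pow_left₀ (by norm_num) h7.le 5
  have h8 : Real.exp (3 * n + 8 * LL n + 6) =
      Real.exp 5 * Real.exp (n + 2 * LL n) * Real.exp (2 * n + 4 * LL n + 1) * Real.exp (2 * LL n) := by
    rw [← Real.exp_add, ← Real.exp_add, ← Real.exp_add]
    congr 1
    ring
  have h9 : 112 * (mm n : ℝ) * ((mm n : ℝ) ^ 2 + 1) * (n * LL n) ≤
      Real.exp (3 * n + 8 * LL n + 6) := by
    rw [h8]
    have hLn : 0 ≤ (n : ℝ) * LL n := by positivity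
    gcongr
  exact h9.trans (Real.exp_le_exp.mpr (by linarith))

/-- (i) `μ ≤ exp(-(A+1)Y₀)`. -/
lemma Big.mu_le (h : Big n) : mu1 n ≤ Real.exp (-((AA + 1) * Y0 n)) := by
  have h1 := h.mu_le_raw
  have h2 := h.prefactor_le
  have h3 := h.A_Y0_le
  have hell : ell n ^ n = Real.exp (-(n * LL n / 8)) := h.ell_pow
  rw [hell] at h1
  have h4 : 112 * (mm n : ℝ) * ((mm n : ℝ) ^ 2 + 1) * (n * LL n) * Real.exp (-(n * LL n / 8)) ≤
      Real.exp (3 * n + 8 * LL n + 8) * Real.exp (-(n * LL n / 8)) :=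
    mul_le_mul_of_nonneg_right h2 (Real.exp_pos _).le
  rw [← Real.exp_add] at h4
  refine h1.trans (h4.trans (Real.exp_le_exp.mpr ?_))
  have hn := h.n_pos
  have hL := h.L_ge1000
  have h5 : (n : ℝ) * 1000 ≤ n * LL n := mul_le_mul_of_nonneg_left hL hn.le
  have h6 := h.L_le_n
  have h7 := h.n_ge_big
  have h8 : (8 : ℝ) ≤ n := le_trans (by norm_num) h7
  linarith

lemma Big.ell_pos (h : Big n) : 0 < ell n := by
  rw [h.ell_eq]; exact inv_pos.mpr h.x_pos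

lemma Big.ell_le (h : Big n) : ell n ≤ 1 / 10 ^ 40 := by
  rw [h.ell_eq, one_div]
  exact inv_anti₀ (by positivity) h.x_ge

lemma Big.eps1_pos (h : Big n) : 0 < eps1 n := by
  unfold eps1
  have := h.n_pos
  positivity

lemma Big.eps1_le (h : Big n) : eps1 n ≤ 1 / 10 ^ 100 := by
  unfold eps1
  have h2 := h.n_ge_big
  apply one_div_le_one_div_of_le (by positivity)
  have h3 : (1 : ℝ) ≤ n := le_trans (by norm_num) h2
  calc (10 : ℝ) ^ 100 ≤ n := h2
    _ ≤ (n : ℝ) ^ 3 := by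
      calc (n : ℝ) = (n : ℝ) ^ 1 := (pow_one _).symm
        _ ≤ (n : ℝ) ^ 3 := pow_le_pow_right₀ h3 (by norm_num)

/-- `δ₁ ≤ 1/64`. -/
lemma Big.delta1_le (h : Big n) : delta1 n ≤ 1 / 64 := by
  unfold delta1
  apply Real.sqrt_le_iff.mpr
  refine ⟨by norm_num, ?_⟩
  have h1 := h.eps1_pos
  have h2 := h.eps1_le
  have h3 := h.ell_pos
  have h4 := h.ell_le
  have h5 : rho n = 1 + eps1 n := rfl
  have h6 : tau n = t1 * rho n := rfl
  have h7 : t1 = 1 - 1 / 10 ^ 7 := by unfold t1 kappa; rfl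
  rw [h6, h5, h7]
  set e := eps1 n
  set l := ell n
  have h8 : ((1 + e) + l / 2) ^ 2 - ((1 - 1 / 10 ^ 7) * (1 + e) - l / 2) ^ 2 =
      (2 + 2 * e - (1 / 10 ^ 7) * (1 + e)) * ((1 / 10 ^ 7) * (1 + e) + l) := by ring
  rw [h8]
  have h9 : 2 + 2 * e - (1 / 10 ^ 7) * (1 + e) ≤ 3 := by
    have : e ≤ 1 / 100 := le_trans h2 (by norm_num)
    nlinarith
  have h10 : 0 ≤ 2 + 2 * e - (1 / 10 ^ 7) * (1 + e) := by
    have : e ≤ 1 / 100 := le_trans h2 (by norm_num)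
    nlinarith
  have h11 : (1 / 10 ^ 7) * (1 + e) + l ≤ 1 / 10 ^ 6 := by
    have : e ≤ 1 / 100 := le_trans h2 (by norm_num)
    have : l ≤ 1 / 10 ^ 10 := le_trans h4 (by norm_num)
    nlinarith
  calc _ ≤ 3 * (1 / 10 ^ 6) := mul_le_mul h9 h11 (by positivity) (by norm_num)
    _ ≤ (1 / 64) ^ 2 := by norm_num

lemma Big.delta1_nonneg (_h : Big n) : 0 ≤ delta1 n := Real.sqrt_nonneg _

lemma Big.r0_le (h : Big n) : (r0 n : ℝ) ≤ 6 * 10 ^ 7 * xx n ^ 4 := by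
  have hx := h.x_pos
  have h1 : 5 * (n : ℝ) * ss n / kappa = 5 * 10 ^ 7 * xx n ^ 4 := by
    have h2 := h.n_ss
    unfold kappa
    rw [mul_assoc, h2]
    field_simp
  have h3 : (r0 n : ℝ) < 5 * (n : ℝ) * ss n / kappa + 1 := by
    apply Nat.ceil_lt_add_one
    rw [h1]
    positivity
  rw [h1] at h3
  have h4 : 1 ≤ xx n ^ 4 := one_le_pow₀ h.x_ge_1
  nlinarith

lemma Big.cmax_le (h : Big n) : cmax n ≤ 2 * 10 ^ 8 * LL n := by
  unfold cmax
  have h1 := h.JJ_le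
  have h2 : AA ≤ 5 * 10 ^ 7 := by
    unfold AA kappa
    norm_num
  have h3 : 0 ≤ AA := by
    unfold AA kappa
    norm_num
  have h4 : (0 : ℝ) ≤ JJ n := Nat.cast_nonneg _
  have hL := h.L_pos
  nlinarith

/-- `R ≤ x⁵`. -/
lemma Big.RR_le (h : Big n) : RR n ≤ xx n ^ 5 := by
  unfold RR
  have h1 := h.r0_le
  have h2 := h.cmax_le
  have h3 := h.L_le
  have hx := h.x_pos
  have hL := h.L_pos
  have h0 : (0 : ℝ) ≤ r0 n := Nat.cast_nonneg _
  have hc : 0 ≤ cmax n := by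
    unfold cmax AA kappa
    have : (0 : ℝ) ≤ JJ n := Nat.cast_nonneg _
    positivity
  calc (r0 n : ℝ) * cmax n ≤ (6 * 10 ^ 7 * xx n ^ 4) * (2 * 10 ^ 8 * LL n) :=
        mul_le_mul h1 h2 hc (by positivity)
    _ = xx n ^ 4 * (12 * 10 ^ 15 * LL n) := by ring
    _ ≤ xx n ^ 4 * xx n := by
      apply mul_le_mul_of_nonneg_left _ (by positivity)
      nlinarith
    _ = xx n ^ 5 := by ring

lemma Big.RR_nonneg (_h : Big n) : 0 ≤ RR n := by
  unfold RR cmax AA kappa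
  have : (0 : ℝ) ≤ JJ n := Nat.cast_nonneg _
  have : (0 : ℝ) ≤ r0 n := Nat.cast_nonneg _
  positivity

/-- `Y₀ ≤ n L ≤ n²`. -/
lemma Big.Y0_le_sq (h : Big n) : Y0 n ≤ (n : ℝ) ^ 2 := by
  have h1 := h.Y0_le
  have hn := h.n_pos
  have hL := h.L_pos
  have h2 : 0 < (n : ℝ) * LL n := by positivity
  have h3 : (n : ℝ) * LL n ≤ (n : ℝ) ^ 2 := by
    have := h.L_le_n
    nlinarith
  unfold c0 at h1
  nlinarith

/-- Pair condition. -/
lemma Big.pair (h : Big n) :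
    Real.exp (RR n) ^ 2 * Y0 n ^ 2 * 2 * Real.exp (-(n * ell n ^ 2 / 16)) ≤ 1 := by
  have hx := h.x_ge_1
  have hx40 := h.x_ge
  have hY := h.Y0_pos
  have h1 : Y0 n ^ 2 ≤ Real.exp (4 * LL n) := by
    have h2 : Real.exp (4 * LL n) = (n : ℝ) ^ 4 := by
      have : Real.exp (4 * LL n) = Real.exp (LL n) ^ 4 := by
        rw [← Real.exp_nat_mul]; norm_num
      rw [this, h.exp_L]
    rw [h2]
    calc Y0 n ^ 2 ≤ ((n : ℝ) ^ 2) ^ 2 := pow_le_pow_left₀ hY.le h.Y0_le_sq 2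
      _ = (n : ℝ) ^ 4 := by ring
  have h3 : (2 : ℝ) ≤ Real.exp 1 := by
    have := Real.add_one_le_exp (1 : ℝ)
    linarith
  have h4 : Real.exp (RR n) ^ 2 = Real.exp (2 * RR n) := by
    rw [← Real.exp_nat_mul]; norm_num
  have h5 : Real.exp (RR n) ^ 2 * Y0 n ^ 2 * 2 * Real.exp (-(n * ell n ^ 2 / 16)) ≤
      Real.exp (2 * RR n) * Real.exp (4 * LL n) * Real.exp 1 * Real.exp (-(n * ell n ^ 2 / 16)) := by
    rw [h4]
    gcongr
  refine h5.trans ?_
  rw [← Real.exp_add, ← Real.exp_add, ← Real.exp_add]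
  apply Real.exp_le_one_iff.mpr
  have h6 : (n : ℝ) * ell n ^ 2 = xx n ^ 6 := h.n_ell2
  rw [h6]
  have h7 := h.RR_le
  have h8 := h.x_ge_L
  have h9 : xx n ≤ xx n ^ 5 := by
    calc xx n = xx n ^ 1 := (pow_one _).symm
      _ ≤ xx n ^ 5 := pow_le_pow_right₀ hx (by norm_num)
  have h10 : 1 ≤ xx n ^ 5 := one_le_pow₀ hx
  have h11 : xx n ^ 6 = xx n * xx n ^ 5 := by ring
  have h12 : (1000 : ℝ) ≤ xx n := le_trans (by norm_num) hx40
  have h13 : 1000 * xx n ^ 5 ≤ xx n * xx n ^ 5 := mul_le_mul_of_nonneg_right h12 (by positivity)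
  linarith

/-- Load condition. -/
lemma Big.load (h : Big n) :
    3 * mu1 n * Real.exp (RR n) ^ 2 * (2 * Y0 n * mm n * (2 * delta1 n / ell n) ^ n) ≤ 1 / 2 := by
  have hx := h.x_ge_1
  have hn := h.n_pos
  have hL := h.L_pos
  have hY := h.Y0_pos
  have hell := h.ell_pos
  have hm1 : (1 : ℝ) ≤ mm n := by exact_mod_cast h.mm_ge_one
  have hm0 : (0 : ℝ) ≤ mm n := by linarith
  have hd := h.delta1_le
  have hd0 := h.delta1_nonneg
  have h1 := h.mu_le_raw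
  have hP : (2 * delta1 n / ell n) ^ n * ell n ^ n = (2 * delta1 n) ^ n := by
    rw [← mul_pow, div_mul_cancel₀ _ hell.ne']
  set E : ℝ := Real.exp (RR n) ^ 2 with hE
  have hEpos : 0 < E := by positivity
  have hPnn : 0 ≤ (2 * delta1 n / ell n) ^ n := by positivity
  have h2 : 3 * mu1 n * E * (2 * Y0 n * mm n * (2 * delta1 n / ell n) ^ n) ≤
      672 * ((mm n : ℝ) ^ 2 * ((mm n : ℝ) ^ 2 + 1)) * (n * LL n) * Y0 n * E * (2 * delta1 n) ^ n := by
    calc 3 * mu1 n * E * (2 * Y0 n * mm n * (2 * delta1 n / ell n) ^ n)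
        ≤ 3 * (112 * mm n * ((mm n : ℝ) ^ 2 + 1) * (n * LL n) * ell n ^ n) * E *
            (2 * Y0 n * mm n * (2 * delta1 n / ell n) ^ n) := by
          gcongr
      _ = 672 * ((mm n : ℝ) ^ 2 * ((mm n : ℝ) ^ 2 + 1)) * (n * LL n) * Y0 n * E *
            ((2 * delta1 n / ell n) ^ n * ell n ^ n) := by ring
      _ = _ := by rw [hP]
  refine h2.trans ?_
  -- bounds
  have h3 : (mm n : ℝ) ^ 2 * ((mm n : ℝ) ^ 2 + 1) ≤ 2 * (16 ^ n * (n : ℝ) ^ 8) := by
    have h4 : (mm n : ℝ) ^ 4 ≤ (2 ^ n * (n : ℝ) ^ 2) ^ 4 := pow_le_pow_left₀ hm0 h.mm_le 4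
    have h5 : (2 ^ n * (n : ℝ) ^ 2) ^ 4 = 16 ^ n * (n : ℝ) ^ 8 := by
      rw [mul_pow, ← pow_mul, mul_comm n 4, pow_mul]
      norm_num
      ring
    have h6 : 1 ≤ (mm n : ℝ) ^ 2 := one_le_pow₀ hm1
    nlinarith
  have h7 : (2 * delta1 n) ^ n ≤ (1 / 32) ^ n :=
    pow_le_pow_left₀ (by positivity) (by linarith) n
  have h8 : (16 : ℝ) ^ n * (1 / 32) ^ n = (1 / 2) ^ n := by
    rw [← mul_pow]; norm_num
  have h9 : ((1 : ℝ) / 2) ^ n ≤ Real.exp (-((n : ℝ) / 2)) := by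
    have h10 : Real.exp (-((n : ℝ) / 2)) = Real.exp (-(1 / 2)) ^ n := by
      rw [← Real.exp_nat_mul]
      congr 1
      ring
    rw [h10]
    apply pow_le_pow_left₀ (by norm_num)
    have h11 := Real.add_one_le_exp (1 / 2 : ℝ)
    have h12 : Real.exp (-(1 / 2 : ℝ)) * Real.exp (1 / 2) = 1 := by
      rw [← Real.exp_add]; simp
    -- `exp(1/2) ≤ 2`
    have h13 : Real.exp (1 / 2 : ℝ) ≤ 2 := by
      have h14 := Real.add_one_le_exp (-(1 / 2 : ℝ))
      have h15 := Real.exp_pos (1 / 2 : ℝ)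
      nlinarith
    have h16 := Real.exp_pos (-(1 / 2) : ℝ)
    nlinarith
  have h17 : (n : ℝ) * LL n ≤ (n : ℝ) ^ 2 := by
    have := h.L_le_n
    nlinarith
  have hY2 := h.Y0_le_sq
  have h18 : (n : ℝ) ^ 8 * (n : ℝ) ^ 2 * (n : ℝ) ^ 2 = Real.exp (12 * LL n) := by
    have : Real.exp (12 * LL n) = Real.exp (LL n) ^ 12 := by
      rw [← Real.exp_nat_mul]; norm_num
    rw [this, h.exp_L]
    ring
  have h19 : (1344 : ℝ) ≤ Real.exp 8 := by
    have h6 : Real.exp 8 = Real.exp 1 ^ 8 := by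
      rw [← Real.exp_nat_mul]; norm_num
    rw [h6]
    have h7 := Real.exp_one_gt_d9
    calc (1344 : ℝ) ≤ (2.7182818283 : ℝ) ^ 8 := by norm_num
      _ ≤ Real.exp 1 ^ 8 := pow_le_pow_left₀ (by norm_num) h7.le 8
  have hnL : 0 ≤ (n : ℝ) * LL n := by positivity
  have h20 : 672 * ((mm n : ℝ) ^ 2 * ((mm n : ℝ) ^ 2 + 1)) * (n * LL n) * Y0 n * E * (2 * delta1 n) ^ n
      ≤ 672 * (2 * (16 ^ n * (n : ℝ) ^ 8)) * ((n : ℝ) ^ 2) * ((n : ℝ) ^ 2) * E * (1 / 32) ^ n := by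
    gcongr
  refine h20.trans ?_
  have h21 : 672 * (2 * (16 ^ n * (n : ℝ) ^ 8)) * ((n : ℝ) ^ 2) * ((n : ℝ) ^ 2) * E * (1 / 32) ^ n =
      1344 * ((n : ℝ) ^ 8 * (n : ℝ) ^ 2 * (n : ℝ) ^ 2) * E * ((16 : ℝ) ^ n * (1 / 32) ^ n) := by ring
  rw [h21, h8, h18, hE]
  have h22 : Real.exp (RR n) ^ 2 = Real.exp (2 * RR n) := by
    rw [← Real.exp_nat_mul]; norm_num
  rw [h22]
  have h23 : 1344 * Real.exp (12 * LL n) * Real.exp (2 * RR n) * (1 / 2) ^ n ≤
      Real.exp 8 * Real.exp (12 * LL n) * Real.exp (2 * RR n) * Real.exp (-((n : ℝ) / 2)) := by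
    gcongr
  refine h23.trans ?_
  rw [← Real.exp_add, ← Real.exp_add, ← Real.exp_add]
  have h24 : 8 + 12 * LL n + 2 * RR n + -((n : ℝ) / 2) ≤ -1 := by
    have h25 := h.RR_le
    have h26 := h.x_ge_L
    have h27 := h.x_pow
    have hx40 := h.x_ge
    have h28 : xx n ≤ xx n ^ 5 := by
      calc xx n = xx n ^ 1 := (pow_one _).symm
        _ ≤ xx n ^ 5 := pow_le_pow_right₀ hx (by norm_num)
    have h29 : 1 ≤ xx n ^ 5 := one_le_pow₀ hx
    have h30 : xx n ^ 5 * 1000 ≤ xx n ^ 5 * xx n ^ 3 := by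
      apply mul_le_mul_of_nonneg_left _ (by positivity)
      have h31 : (1000 : ℝ) ≤ xx n := le_trans (by norm_num) hx40
      have h32 : xx n ≤ xx n ^ 3 := by
        calc xx n = xx n ^ 1 := (pow_one _).symm
          _ ≤ xx n ^ 3 := pow_le_pow_right₀ hx (by norm_num)
      linarith
    have h33 : xx n ^ 5 * xx n ^ 3 = n := by
      rw [← h27]; ring
    linarith
  calc Real.exp (8 + 12 * LL n + 2 * RR n + -((n : ℝ) / 2)) ≤ Real.exp (-1) :=
        Real.exp_le_exp.mpr h24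
    _ ≤ 1 / 2 := by
      have h34 : Real.exp (-1) * Real.exp 1 = 1 := by
        rw [← Real.exp_add]; simp
      have h35 := Real.add_one_le_exp (1 : ℝ)
      have h36 := Real.exp_pos (-1 : ℝ)
      nlinarith

/-- Numeric hypothesis of the union bound. -/
lemma Big.union_big (h : Big n) :
    ((n : ℝ) ^ (5 * n) + 1) ^ (mm n) * Real.exp (-(7 * mm n * n * Real.log n)) <
      Real.exp (-8) / 2 := by
  have hn := h.n_pos
  have hL := h.L_ge1000
  have hm1 : (1 : ℝ) ≤ mm n := by exact_mod_cast h.mm_ge_one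
  have hnL : (1000 : ℝ) * n ≤ n * LL n := by nlinarith
  have hnb := h.n_ge_big
  have hn1 : (1 : ℝ) ≤ n := le_trans (by norm_num) hnb
  have h1 : (n : ℝ) ^ (5 * n) = Real.exp (5 * n * LL n) := by
    have : Real.exp (5 * n * LL n) = Real.exp (LL n) ^ (5 * n) := by
      rw [← Real.exp_nat_mul]
      congr 1
      push_cast
      ring
    rw [this, h.exp_L]
  have h2 : (n : ℝ) ^ (5 * n) + 1 ≤ Real.exp (6 * n * LL n) := by
    rw [h1]
    have h3 : Real.exp (6 * n * LL n) = Real.exp (5 * n * LL n) * Real.exp (n * LL n) := by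
      rw [← Real.exp_add]
      congr 1
      ring
    rw [h3]
    have h4 : (1 : ℝ) ≤ Real.exp (5 * n * LL n) := Real.one_le_exp (by positivity)
    have h5 : (2 : ℝ) ≤ Real.exp (n * LL n) := by
      have := Real.add_one_le_exp (n * LL n)
      nlinarith
    nlinarith
  have h3 : ((n : ℝ) ^ (5 * n) + 1) ^ (mm n) ≤ Real.exp (6 * n * LL n) ^ (mm n) :=
    pow_le_pow_left₀ (by positivity) h2 _
  have h4 : Real.exp (6 * n * LL n) ^ (mm n) = Real.exp (mm n * (6 * n * LL n)) := by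
    rw [← Real.exp_nat_mul]
  rw [h4] at h3
  have h5 : ((n : ℝ) ^ (5 * n) + 1) ^ (mm n) * Real.exp (-(7 * mm n * n * Real.log n)) ≤
      Real.exp (-(n * LL n)) := by
    calc _ ≤ Real.exp (mm n * (6 * n * LL n)) * Real.exp (-(7 * mm n * n * Real.log n)) :=
          mul_le_mul_of_nonneg_right h3 (Real.exp_pos _).le
      _ = Real.exp (-(mm n * (n * LL n))) := by
        rw [← Real.exp_add]
        congr 1
        unfold LL
        ring
      _ ≤ Real.exp (-(n * LL n)) := by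
        apply Real.exp_le_exp.mpr
        have : 0 ≤ (n : ℝ) * LL n := by nlinarith
        nlinarith
  refine lt_of_le_of_lt h5 ?_
  have h6 : Real.exp (-(n * LL n)) ≤ Real.exp (-9) := by
    apply Real.exp_le_exp.mpr
    nlinarith
  have h7 : Real.exp (-9) = Real.exp (-8) * Real.exp (-1) := by
    rw [← Real.exp_add]; norm_num
  have h8 : Real.exp (-1) < 1 / 2 := by
    have h34 : Real.exp (-1) * Real.exp 1 = 1 := by
      rw [← Real.exp_add]; simp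
    have h35 := Real.exp_one_gt_d9
    have h36 := Real.exp_pos (-1 : ℝ)
    nlinarith
  have h9 := Real.exp_pos (-8 : ℝ)
  rw [h7] at h6
  nlinarith

end Vale.Agent.P230
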