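import Vale.Agent.P230.GridDefs

/-! P230 module M4: greedy test sets, packing of caps, the rounding grid. -/

open MeasureTheory Metric Set Filter
open scoped BigOperators Pointwise ENNReal

noncomputable section

namespace Vale.Agent.P230

variable {n : ℕ}

lemma vol_ball (c : EE n) {r : ℝ} (hr : 0 < r) :
    volume (ball c r) = ENNReal.ofReal (r ^ n) * volume (closedBall (0 : EE n) 1) := by
  rcases Nat.eq_zero_or_pos n with rfl | hn
  · have hsub : Subsingleton (EE 0) := by
      constructor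
      intro x y
      ext i
      exact i.elim0
    have h1 : ball c r = univ := by
      ext x
      simp [mem_ball, Subsingleton.elim x c, hr]
    have h2 : closedBall (0 : EE 0) 1 = univ := by
      ext x
      simp [Subsingleton.elim x 0]
    simp [h1, h2]
  · haveI : Nontrivial (EE n) := by
      apply Module.nontrivial_of_finrank_pos (R := ℝ)
      simpa using hn
    rw [Measure.addHaar_ball _ _ hr.le, Measure.addHaar_closedBall_eq_addHaar_ball]
    simp

lemma vol_unit_pos : 0 < volume (closedBall (0 : EE n) 1) :=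
  (measure_ball_pos volume (0 : EE n) one_pos).trans_le (measure_mono ball_subset_closedBall)

lemma vol_unit_ne_top : volume (closedBall (0 : EE n) 1) ≠ ⊤ :=
  (isCompact_closedBall _ _).measure_lt_top.ne

/-- The one step of the greedy choice. -/
lemma exists_point (Gp : Set (EE n)) (hGm : MeasurableSet Gp)
    (hvol : volume (closedBall (0 : EE n) 1) / 2 ≤ volume Gp)
    (C : Finset (EE n)) (L : ℝ) (hL : 0 < L)
    (hC : (C.card : ℝ) * L ^ n ≤ 1 / 4) :
    ∃ y ∈ Gp, ∀ c ∈ C, L ≤ ‖y - c‖ := by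
  classical
  set V := volume (closedBall (0 : EE n) 1) with hV
  have hV0 : 0 < V := vol_unit_pos
  have hVt : V ≠ ⊤ := vol_unit_ne_top
  have hsum : volume (⋃ c ∈ C, ball c L) ≤ ENNReal.ofReal (1 / 4) * V := by
    calc volume (⋃ c ∈ C, ball c L) ≤ ∑ c ∈ C, volume (ball c L) :=
          measure_biUnion_finset_le _ _
      _ = ∑ _c ∈ C, ENNReal.ofReal (L ^ n) * V := by
          refine Finset.sum_congr rfl fun c _ => ?_
          exact vol_ball c hL
      _ = (C.card : ENNReal) * (ENNReal.ofReal (L ^ n) * V) := by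
          rw [Finset.sum_const, nsmul_eq_mul]
      _ = ENNReal.ofReal ((C.card : ℝ) * L ^ n) * V := by
          rw [ENNReal.ofReal_mul (by positivity), ENNReal.ofReal_natCast, mul_assoc]
      _ ≤ ENNReal.ofReal (1 / 4) * V := by
          gcongr
  have hlt : volume (⋃ c ∈ C, ball c L) < volume Gp := by
    refine lt_of_le_of_lt hsum (lt_of_lt_of_le ?_ hvol)
    rw [ENNReal.lt_div_iff_mul_lt (by simp) (by simp), mul_assoc, mul_comm V, ← mul_assoc]
    have h1 : ENNReal.ofReal (1 / 4) * 2 < 1 := by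
      rw [show (2 : ENNReal) = ENNReal.ofReal 2 by simp, ← ENNReal.ofReal_mul (by norm_num)]
      rw [ENNReal.ofReal_lt_one]
      norm_num
    calc ENNReal.ofReal (1 / 4) * 2 * V < 1 * V :=
          (ENNReal.mul_lt_mul_iff_left hV0.ne' hVt).2 h1
      _ = V := one_mul V
  have : ∃ y ∈ Gp, y ∉ ⋃ c ∈ C, ball c L := by
    by_contra hcon
    push Not at hcon
    exact absurd (measure_mono (fun y hy => hcon y hy)) (not_le.2 hlt)
  obtain ⟨y, hyG, hy⟩ := this
  refine ⟨y, hyG, fun c hc => ?_⟩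
  by_contra hlt'
  apply hy
  simp only [mem_iUnion]
  refine ⟨c, hc, ?_⟩
  rw [mem_ball, dist_eq_norm]
  exact not_le.1 hlt'

theorem exists_testset (Gp : Set (EE n)) (hGm : MeasurableSet Gp)
    (hvol : volume (closedBall (0 : EE n) 1) / 2 ≤ volume Gp)
    (A : Finset (EE n)) (m M : ℕ) (hA : A.card ≤ m) (L : ℝ) (hL : 0 < L)
    (hM : (M : ℝ) * ((m : ℝ) ^ 2 + 1) * L ^ n ≤ 1 / 4) :
    ∃ T : Finset (EE n), T.card = M ∧ (T : Set (EE n)) ⊆ Gp ∧
      ∀ x ∈ T, ∀ y ∈ T, x ≠ y → L ≤ ‖x - y‖ ∧ ∀ a ∈ A, ∀ b ∈ A, L ≤ ‖(x - a) - (y - b)‖ := by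
  classical
  have key : ∀ k : ℕ, k ≤ M → ∃ T : Finset (EE n), T.card = k ∧ (T : Set (EE n)) ⊆ Gp ∧
      ∀ x ∈ T, ∀ y ∈ T, x ≠ y → L ≤ ‖x - y‖ ∧ ∀ a ∈ A, ∀ b ∈ A, L ≤ ‖(x - a) - (y - b)‖ := by
    intro k
    induction k with
    | zero => intro _; exact ⟨∅, by simp, by simp, by simp⟩
    | succ k ih =>
      intro hk
      obtain ⟨T, hTc, hTG, hT⟩ := ih (by omega)
      -- forbidden centres
      let C : Finset (EE n) := T ∪ (T.biUnion fun x => (A ×ˢ A).image fun ab => x - ab.1 + ab.2)
      have hCcard : (C.card : ℝ) ≤ (k : ℝ) * ((m : ℝ) ^ 2 + 1) := by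
        have h1 : C.card ≤ T.card + T.card * (A.card * A.card) := by
          refine (Finset.card_union_le _ _).trans (Nat.add_le_add_left ?_ _)
          refine Finset.card_biUnion_le_card_mul _ _ _ fun x _ => ?_
          refine Finset.card_image_le.trans ?_
          rw [Finset.card_product]
        have h2 : (C.card : ℝ) ≤ (T.card : ℝ) + T.card * ((A.card : ℝ) * A.card) := by
          exact_mod_cast h1
        have h3 : (A.card : ℝ) ≤ m := by exact_mod_cast hA
        have h4 : (A.card : ℝ) * A.card ≤ (m : ℝ) ^ 2 := by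
          have : (0 : ℝ) ≤ A.card := by positivity
          nlinarith
        rw [hTc] at h2
        have hk0 : (0 : ℝ) ≤ k := by positivity
        nlinarith
      have hCL : (C.card : ℝ) * L ^ n ≤ 1 / 4 := by
        have hLn : 0 ≤ L ^ n := by positivity
        have hkM : (k : ℝ) ≤ M := by exact_mod_cast (by omega : k ≤ M)
        have hm0 : (0 : ℝ) ≤ (m : ℝ) ^ 2 + 1 := by positivity
        calc (C.card : ℝ) * L ^ n ≤ ((k : ℝ) * ((m : ℝ) ^ 2 + 1)) * L ^ n := by gcongr
          _ ≤ ((M : ℝ) * ((m : ℝ) ^ 2 + 1)) * L ^ n := by gcongr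
          _ ≤ 1 / 4 := hM
      obtain ⟨y, hyG, hy⟩ := exists_point Gp hGm hvol C L hL hCL
      have hyT : y ∉ T := by
        intro hyT
        have := hy y (Finset.mem_union_left _ hyT)
        simp at this
        linarith
      have hfar : ∀ x ∈ T, L ≤ ‖x - y‖ := by
        intro x hx
        rw [norm_sub_rev]
        exact hy x (Finset.mem_union_left _ hx)
      have hfar2 : ∀ x ∈ T, ∀ a ∈ A, ∀ b ∈ A, L ≤ ‖(x - a) - (y - b)‖ := by
        intro x hx a ha b hb
        have hmem : x - a + b ∈ C := by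
          refine Finset.mem_union_right _ (Finset.mem_biUnion.2 ⟨x, hx, ?_⟩)
          exact Finset.mem_image.2 ⟨(a, b), Finset.mem_product.2 ⟨ha, hb⟩, rfl⟩
        have := hy _ hmem
        have he : (x - a) - (y - b) = -(y - (x - a + b)) := by abel
        rw [he, norm_neg]
        exact this
      refine ⟨insert y T, ?_, ?_, ?_⟩
      · rw [Finset.card_insert_of_notMem hyT, hTc]
      · intro z hz
        rw [Finset.mem_coe, Finset.mem_insert] at hz
        rcases hz with rfl | hz
        · exact hyG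
        · exact hTG hz
      · intro x hx z hz hxz
        rw [Finset.mem_insert] at hx hz
        rcases hx with rfl | hx <;> rcases hz with rfl | hz
        · exact absurd rfl hxz
        · refine ⟨?_, fun a ha b hb => ?_⟩
          · rw [norm_sub_rev]; exact hfar z hz
          · have := hfar2 z hz b hb a ha
            rw [norm_sub_rev]
            exact this
        · exact ⟨hfar x hx, fun a ha b hb => hfar2 x hx a ha b hb⟩
        · exact hT x hx z hz hxz
  exact key M le_rfl

theorem packing (_hn : 1 ≤ n) (T : Finset (EE n)) (L : ℝ) (hL : 0 < L)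
    (hsep : ∀ x ∈ T, ∀ y ∈ T, x ≠ y → L ≤ ‖x - y‖) (b u : EE n) (hu : ‖u‖ ≤ 1)
    (r t : ℝ) (ht : L / 2 < t) (hrt : 0 ≤ (r + L / 2) ^ 2 - (t - L / 2) ^ 2) :
    ((T.filter (fun y => ‖y - b‖ ≤ r ∧ t < inner ℝ (y - b) u)).card : ℝ) ≤
      (2 * Real.sqrt ((r + L / 2) ^ 2 - (t - L / 2) ^ 2) / L) ^ n := by
  classical
  set S := T.filter (fun y => ‖y - b‖ ≤ r ∧ t < inner ℝ (y - b) u) with hS
  set δ := Real.sqrt ((r + L / 2) ^ 2 - (t - L / 2) ^ 2) with hδ
  have hδ0 : 0 ≤ δ := Real.sqrt_nonneg _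
  have hδ2 : δ ^ 2 = (r + L / 2) ^ 2 - (t - L / 2) ^ 2 := Real.sq_sqrt hrt
  rcases S.eq_empty_or_nonempty with hemp | hne
  · rw [hemp]
    simp
    positivity
  obtain ⟨y0, hy0⟩ := hne
  have hy0' := (Finset.mem_filter.1 hy0).2
  have hr0 : 0 ≤ r := (norm_nonneg _).trans hy0'.1
  -- u is not zero and the centre
  have hu0 : u ≠ 0 := by
    intro h0
    have h1 := hy0'.2
    rw [h0, inner_zero_right] at h1
    linarith
  have hun : 0 < ‖u‖ := norm_pos_iff.2 hu0
  set τ' := t - L / 2 with hτ'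
  have hτ0 : 0 < τ' := by rw [hτ']; linarith
  let c : EE n := (τ' / ‖u‖) • u
  have hcn : inner ℝ c c = τ' ^ 2 := by
    simp only [c, inner_smul_left, inner_smul_right, real_inner_self_eq_norm_sq]
    simp
    field_simp
  have hinc : (⋃ y ∈ S, ball (y - b) (L / 2)) ⊆ ball c δ := by
    intro w hw
    simp only [mem_iUnion] at hw
    obtain ⟨y, hy, hwy⟩ := hw
    have hy' := (Finset.mem_filter.1 hy).2
    rw [mem_ball, dist_eq_norm] at hwy
    have h1 : ‖w‖ < r + L / 2 := by
      have : ‖w‖ ≤ ‖w - (y - b)‖ + ‖y - b‖ := by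
        have := norm_add_le (w - (y - b)) (y - b)
        simpa using this
      linarith [hy'.1]
    have h2 : τ' < inner ℝ w u := by
      have he : inner ℝ w u = inner ℝ (w - (y - b)) u + inner ℝ (y - b) u := by
        rw [← inner_add_left]; simp
      have h3 : -(L / 2) < inner ℝ (w - (y - b)) u := by
        have := abs_real_inner_le_norm (w - (y - b)) u
        have h4 : ‖w - (y - b)‖ * ‖u‖ < L / 2 := by
          calc ‖w - (y - b)‖ * ‖u‖ ≤ ‖w - (y - b)‖ * 1 := by gcongr
            _ < L / 2 := by simpa using hwy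
        have := (abs_lt.1 (lt_of_le_of_lt this h4)).1
        linarith
      rw [he, hτ']
      linarith [hy'.2]
    have h5 : τ' ^ 2 ≤ inner ℝ w c := by
      have he : inner ℝ w c = (τ' / ‖u‖) * inner ℝ w u := by
        simp only [c, inner_smul_right]
      rw [he]
      have h6 : τ' / ‖u‖ ≥ τ' := by
        rw [ge_iff_le, le_div_iff₀ hun]
        nlinarith
      have h7 : 0 ≤ inner ℝ w u := by linarith
      nlinarith
    rw [mem_ball, dist_eq_norm]
    have h8 : ‖w - c‖ ^ 2 < δ ^ 2 := by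
      have h9 : ‖w - c‖ ^ 2 = ‖w‖ ^ 2 - 2 * inner ℝ w c + inner ℝ c c := by
        rw [@norm_sub_sq_real]
        rw [real_inner_self_eq_norm_sq]
      rw [h9, hcn, hδ2]
      have h10 : ‖w‖ ^ 2 < (r + L / 2) ^ 2 := by
        have := norm_nonneg w
        nlinarith
      nlinarith
    exact lt_of_pow_lt_pow_left₀ 2 hδ0 h8
  have hdisj : (S : Set (EE n)).PairwiseDisjoint fun y => ball (y - b) (L / 2) := by
    intro x hx y hy hxy
    have hx' := (Finset.mem_filter.1 (Finset.mem_coe.1 hx)).1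
    have hy' := (Finset.mem_filter.1 (Finset.mem_coe.1 hy)).1
    have := hsep x hx' y hy' hxy
    refine ball_disjoint_ball ?_
    rw [dist_eq_norm]
    have he : x - b - (y - b) = x - y := by abel
    rw [he]
    linarith
  have hδpos : 0 < δ := by
    have hmem : y0 - b ∈ ⋃ y ∈ S, ball (y - b) (L / 2) := by
      simp only [mem_iUnion]
      exact ⟨y0, hy0, mem_ball_self (by positivity)⟩
    have h1 := hinc hmem
    rw [mem_ball] at h1
    exact lt_of_le_of_lt dist_nonneg h1
  set V := volume (closedBall (0 : EE n) 1) with hV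
  have hV0 : V ≠ 0 := vol_unit_pos.ne'
  have hVt : V ≠ ⊤ := vol_unit_ne_top
  have hm : (S.card : ENNReal) * (ENNReal.ofReal ((L / 2) ^ n) * V) ≤
      ENNReal.ofReal (δ ^ n) * V := by
    calc (S.card : ENNReal) * (ENNReal.ofReal ((L / 2) ^ n) * V)
        = ∑ y ∈ S, volume (ball (y - b) (L / 2)) := by
          rw [Finset.sum_congr rfl fun y _ => vol_ball (y - b) (by positivity : 0 < L / 2),
            Finset.sum_const, nsmul_eq_mul]
      _ = volume (⋃ y ∈ S, ball (y - b) (L / 2)) :=
          (measure_biUnion_finset hdisj fun y _ => measurableSet_ball).symm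
      _ ≤ volume (ball c δ) := measure_mono hinc
      _ = ENNReal.ofReal (δ ^ n) * V := vol_ball c hδpos
  have hm2 : ENNReal.ofReal ((S.card : ℝ) * (L / 2) ^ n) ≤ ENNReal.ofReal (δ ^ n) := by
    rw [ENNReal.ofReal_mul (by positivity), ENNReal.ofReal_natCast]
    rw [← mul_assoc] at hm
    exact (ENNReal.mul_le_mul_iff_left hV0 hVt).1 hm
  have hm3 : (S.card : ℝ) * (L / 2) ^ n ≤ δ ^ n :=
    (ENNReal.ofReal_le_ofReal_iff (by positivity)).1 hm2
  have hL2 : 0 < (L / 2) ^ n := by positivity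
  rw [show 2 * δ / L = δ / (L / 2) by field_simp, div_pow, le_div_iff₀ hL2]
  exact hm3

theorem exists_grid (n : ℕ) (hn : 5 ≤ n) : ∃ Grd : Finset (EE n), IsGrid n Grd := by
  classical
  have hnR : (5 : ℝ) ≤ n := by exact_mod_cast hn
  have hn0 : (0 : ℝ) < n := by linarith
  set η : ℝ := 2 / (n : ℝ) ^ 4 with hη
  have hη0 : 0 < η := by positivity
  let K : ℤ := (n : ℤ) ^ 4
  let g : (Fin n → ℤ) → EE n := fun k => WithLp.toLp 2 fun i => η * (k i : ℝ)
  let Box : Finset (Fin n → ℤ) := Fintype.piFinset fun _ => Finset.Icc (-K) K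
  refine ⟨Box.image g, ?_, ?_⟩
  · have h1 : (Box.image g).card ≤ Box.card := Finset.card_image_le
    have h2 : Box.card = (2 * n ^ 4 + 1) ^ n := by
      simp only [Box, Fintype.card_fin, Fintype.card_piFinset, Int.card_Icc, Finset.prod_const,
        Finset.card_univ]
      congr 1
      have : (K + 1 - -K).toNat = 2 * n ^ 4 + 1 := by
        have : K + 1 - -K = ((2 * n ^ 4 + 1 : ℕ) : ℤ) := by
          simp only [K]; push_cast; ring
        rw [this, Int.toNat_natCast]
      exact this
    have h3 : (2 * n ^ 4 + 1 : ℝ) ≤ (n : ℝ) ^ 5 := by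
      have h4 : (1 : ℝ) ≤ (n : ℝ) ^ 4 := one_le_pow₀ (by linarith)
      have h5 : (n : ℝ) ^ 5 = n * (n : ℝ) ^ 4 := by ring
      rw [h5]
      nlinarith
    calc ((Box.image g).card : ℝ) ≤ (Box.card : ℝ) := by exact_mod_cast h1
      _ = (2 * (n : ℝ) ^ 4 + 1) ^ n := by rw [h2]; push_cast; ring
      _ ≤ ((n : ℝ) ^ 5) ^ n := by gcongr
      _ = (n : ℝ) ^ (5 * n) := by rw [pow_mul]
  · intro a ha
    let k : Fin n → ℤ := fun i => round (a i / η)
    have hcoord : ∀ i, |a i| ≤ 2 := by
      intro i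
      have := PiLp.norm_apply_le a i
      simpa using this.trans ha
    have hround : ∀ i, |a i - η * (k i : ℝ)| ≤ η / 2 := by
      intro i
      have h1 := abs_sub_round (a i / η)
      have h2 : a i - η * (k i : ℝ) = η * (a i / η - (round (a i / η) : ℝ)) := by
        field_simp
        simp [k]
      rw [h2, abs_mul, abs_of_pos hη0]
      nlinarith
    have hk : k ∈ Box := by
      simp only [Box, Fintype.mem_piFinset, Finset.mem_Icc]
      intro i
      have h1 := hround i
      have h2 := hcoord i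
      have h3 : |η * (k i : ℝ)| ≤ 2 + η / 2 := by
        have : η * (k i : ℝ) = a i - (a i - η * (k i : ℝ)) := by ring
        rw [this]
        exact (abs_sub _ _).trans (by linarith)
      have h4 : |(k i : ℝ)| ≤ (n : ℝ) ^ 4 + 1 / 2 := by
        rw [abs_mul, abs_of_pos hη0] at h3
        have hηinv : η * ((n : ℝ) ^ 4 + 1 / 2) = 2 + η / 2 := by
          rw [hη]; field_simp
        have : η * |(k i : ℝ)| ≤ η * ((n : ℝ) ^ 4 + 1 / 2) := by rw [hηinv]; exact h3
        exact le_of_mul_le_mul_left this hη0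
      have h5 : |k i| ≤ K := by
        have h6 : (|k i| : ℝ) < (K : ℝ) + 1 := by
          have : ((|k i| : ℤ) : ℝ) = |(k i : ℝ)| := by push_cast; rfl
          have hKR : (K : ℝ) = (n : ℝ) ^ 4 := by simp [K]
          rw [hKR]
          rw [← Int.cast_abs] at *
          linarith
        have h7 : |k i| < K + 1 := by exact_mod_cast h6
        omega
      exact abs_le.1 h5
    refine ⟨g k, Finset.mem_image_of_mem g hk, ?_⟩
    have hnorm : ‖a - g k‖ ^ 2 ≤ eps1 n ^ 2 := by
      rw [EuclideanSpace.norm_sq_eq]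
      have h1 : ∀ i, ‖(a - g k) i‖ ^ 2 ≤ (η / 2) ^ 2 := by
        intro i
        have h2 : (a - g k) i = a i - η * (k i : ℝ) := by simp [g]
        rw [h2, Real.norm_eq_abs, sq_abs]
        have := hround i
        exact sq_le_sq' (by linarith [(abs_le.1 this).1]) (abs_le.1 this).2
      calc ∑ i, ‖(a - g k) i‖ ^ 2 ≤ ∑ _i : Fin n, (η / 2) ^ 2 := Finset.sum_le_sum fun i _ => h1 i
        _ = (n : ℝ) * (η / 2) ^ 2 := by simp
        _ ≤ eps1 n ^ 2 := by
          have h3 : (η / 2) = 1 / (n : ℝ) ^ 4 := by rw [hη]; field_simp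
          rw [h3, eps1]
          have h4 : (n : ℝ) * (1 / (n : ℝ) ^ 4) ^ 2 = 1 / (n : ℝ) ^ 7 := by
            field_simp
          rw [h4]
          have h5 : (1 / (n : ℝ) ^ 3) ^ 2 = 1 / (n : ℝ) ^ 6 := by
            field_simp
          rw [h5]
          apply one_div_le_one_div_of_le (by positivity)
          have h6 : (n : ℝ) ^ 7 = n * (n : ℝ) ^ 6 := by ring
          rw [h6]
          have h7 : 0 < (n : ℝ) ^ 6 := by positivity
          nlinarith
    have he : 0 ≤ eps1 n := by unfold eps1; positivity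
    exact (pow_le_pow_iff_left₀ (norm_nonneg _) he two_ne_zero).1 hnorm

end Vale.Agent.P230
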