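import Vale.Agent.P230.Engine
import Vale.Agent.P230.GridDefs

/-! P230 M6: expected volume of the random body, union bound over candidates.  The hypothesis
`hfix` of `exists_good_S_core` is what `fixed_bound` provides. -/

open MeasureTheory Metric Set Filter
open scoped BigOperators ENNReal Classical

noncomputable section

namespace Vale.Agent.P230

open Engine

variable {n : ℕ}

lemma ind_of {p : Prop} (h : p) : ind p = 1 := by
  unfold ind
  exact if_pos h

lemma ind_of_not {p : Prop} (h : ¬ p) : ind p = 0 := by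
  unfold ind
  exact if_neg h

lemma ind_congr {p r : Prop} (h : p ↔ r) : ind p = ind r := by
  rw [propext h]

lemma eps1_le (h2 : 2 ≤ n) : eps1 n ≤ 1 / 8 := by
  have h : (2 : ℝ) ≤ n := by exact_mod_cast h2
  unfold eps1
  apply one_div_le_one_div_of_le (by norm_num)
  calc (8 : ℝ) = 2 ^ 3 := by norm_num
    _ ≤ (n : ℝ) ^ 3 := pow_le_pow_left₀ (by norm_num) h 3

lemma eps1_pos (h2 : 2 ≤ n) : 0 < eps1 n := by
  have h : (2 : ℝ) ≤ n := by exact_mod_cast h2
  unfold eps1
  positivity

lemma tau0_eq (n : ℕ) : tau0 n = t1 - kappa * eps1 n := by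
  unfold tau0 tau rho t1
  ring

lemma Psi_tau0_le {D : Finset (EE n)} {q : ℝ} {Psi : ℝ → ℝ} (facts : AtomFacts n D q Psi)
    (h2 : 2 ≤ n) : Psi (tau0 n) ≤ 2 := by
  have hk0 : 0 < kappa := by norm_num [kappa]
  have hk1 : kappa ≤ 1 / 100 := by norm_num [kappa]
  have he := eps1_le h2
  have he0 := eps1_pos h2
  have hnR : (2 : ℝ) ≤ n := by exact_mod_cast h2
  have ht : tau0 n = 1 - kappa - kappa * eps1 n := by
    rw [tau0_eq]; unfold t1; ring
  have hkeps : 0 < kappa * eps1 n := mul_pos hk0 he0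
  have hkeps' : kappa * eps1 n ≤ kappa / 8 := by nlinarith
  have h1 : 1 / 2 ≤ tau0 n := by rw [ht]; linarith
  have hB := facts.psiB (tau0 n) (kappa * eps1 n) h1 hkeps.le (by rw [ht]; linarith)
    (by rw [ht]; unfold tmax; linarith)
  have hsum : tau0 n + kappa * eps1 n = t1 := by rw [tau0_eq]; ring
  rw [hsum, facts.Psi_t1] at hB
  have hex : 2 * n * (kappa * eps1 n) / (1 - tau0 n) ≤ 1 / 2 := by
    have h1t : kappa ≤ 1 - tau0 n := by rw [ht]; linarith
    have h3 : (n : ℝ) * eps1 n ≤ 1 / 4 := by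
      unfold eps1
      have : (n : ℝ) * (1 / (n : ℝ) ^ 3) = 1 / (n : ℝ) ^ 2 := by
        field_simp
      rw [this]
      apply div_le_div₀ (by norm_num) (by norm_num) (by norm_num)
      nlinarith
    have h4 : 2 * n * (kappa * eps1 n) / (1 - tau0 n) ≤ 2 * n * (kappa * eps1 n) / kappa :=
      div_le_div_of_nonneg_left (by positivity) hk0 h1t
    have h5 : 2 * n * (kappa * eps1 n) / kappa = 2 * (n * eps1 n) := by
      field_simp
    rw [h5] at h4
    linarith
  have h6 : Real.exp (2 * n * (kappa * eps1 n) / (1 - tau0 n)) ≤ 2 := by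
    have h7 : Real.exp (2 * n * (kappa * eps1 n) / (1 - tau0 n)) ≤ Real.exp (1 / 2) :=
      Real.exp_le_exp.mpr hex
    have h8 : Real.exp (1 / 2) ≤ 2 := by
      have h9 := Real.add_one_le_exp (-(1 / 2 : ℝ))
      have h10 : Real.exp (-(1 / 2 : ℝ)) * Real.exp (1 / 2) = 1 := by
        rw [← Real.exp_add]; simp
      have h11 := Real.exp_pos (1 / 2 : ℝ)
      nlinarith
    linarith
  have h12 : Psi (tau0 n) = Real.exp (2 * n * (kappa * eps1 n) / (1 - tau0 n)) *
      (Real.exp (-(2 * n * (kappa * eps1 n) / (1 - tau0 n))) * Psi (tau0 n)) := by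
    rw [← mul_assoc, ← Real.exp_add]
    simp
  rw [h12]
  calc _ ≤ Real.exp (2 * n * (kappa * eps1 n) / (1 - tau0 n)) * 1 :=
        mul_le_mul_of_nonneg_left hB (Real.exp_pos _).le
    _ ≤ 2 := by linarith

lemma cap_tau0_bound {D : Finset (EE n)} {q : ℝ} {Psi : ℝ → ℝ} (facts : AtomFacts n D q Psi)
    (h2 : 2 ≤ n) {z : EE n} (hz : ‖z‖ ≤ 1) : q * ((cap D z (tau0 n)).card : ℝ) ≤ 4 := by
  have hk0 : 0 < kappa := by norm_num [kappa]
  have hk1 : kappa ≤ 1 / 100 := by norm_num [kappa]
  have he := eps1_le h2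
  have he0 := eps1_pos h2
  have ht : tau0 n = 1 - kappa - kappa * eps1 n := by
    rw [tau0_eq]; unfold t1; ring
  have hkeps : 0 < kappa * eps1 n := mul_pos hk0 he0
  have hkeps' : kappa * eps1 n ≤ kappa / 8 := by nlinarith
  have h1 : 1 / 2 ≤ tau0 n := by rw [ht]; linarith
  have hq := facts.q_pos
  by_cases hz0 : z = 0
  · have : cap D z (tau0 n) = ∅ := by
      subst hz0
      unfold cap
      apply Finset.filter_eq_empty_iff.mpr
      intro u _
      simp only [inner_zero_left, not_lt]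
      linarith
    rw [this]
    simp
  · have hzpos : 0 < ‖z‖ := norm_pos_iff.mpr hz0
    set e : EE n := ‖z‖⁻¹ • z with hedef
    have hen : ‖e‖ = 1 := by
      rw [hedef, norm_smul, norm_inv, norm_norm, inv_mul_cancel₀ hzpos.ne']
    have he0' : e ≠ 0 := by
      intro h
      rw [h, norm_zero] at hen
      norm_num at hen
    have hsub : cap D z (tau0 n) ⊆ cap D e (tau0 n) := by
      intro u hu
      unfold cap at hu ⊢
      rw [Finset.mem_filter] at hu ⊢
      refine ⟨hu.1, ?_⟩
      rw [hedef, real_inner_smul_left]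
      have h3 : 1 ≤ ‖z‖⁻¹ := (one_le_inv₀ hzpos).mpr hz
      have h4 : 0 < inner ℝ z u := by linarith [hu.2]
      nlinarith [hu.2]
    have hU := facts.upper e (tau0 n) he0' (by rw [hen, div_one]; exact h1)
      (by rw [hen, div_one, ht]; unfold tmax; linarith)
    rw [hen, div_one] at hU
    have hcard : ((cap D z (tau0 n)).card : ℝ) ≤ ((cap D e (tau0 n)).card : ℝ) := by
      exact_mod_cast Finset.card_le_card hsub
    have hP := Psi_tau0_le facts h2
    nlinarith

lemma one_sub_ge_exp {x : ℝ} (hx0 : 0 ≤ x) (hx1 : x ≤ 1 / 2) : Real.exp (-(2 * x)) ≤ 1 - x := by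
  have h2 := Real.add_one_le_exp (2 * x)
  have h3 : Real.exp (-(2 * x)) * Real.exp (2 * x) = 1 := by
    rw [← Real.exp_add]; simp
  have h4 : 0 < Real.exp (-(2 * x)) := Real.exp_pos _
  have h5 : 1 ≤ (1 - x) * Real.exp (2 * x) := by
    have : (1 - x) * (2 * x + 1) ≤ (1 - x) * Real.exp (2 * x) :=
      mul_le_mul_of_nonneg_left (by linarith) (by linarith)
    nlinarith
  have h6 : Real.exp (-(2 * x)) * 1 ≤ Real.exp (-(2 * x)) * ((1 - x) * Real.exp (2 * x)) :=
    mul_le_mul_of_nonneg_left h5 h4.le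
  nlinarith

lemma mem_KK_iff {D S : Finset (EE n)} (hS : S ⊆ D) {z : EE n} (hz : ‖z‖ ≤ 1) :
    z ∈ KK n S ↔ Disjoint S (cap D z (tau0 n)) := by
  constructor
  · rintro ⟨_, h⟩
    rw [Finset.disjoint_left]
    intro u huS huC
    have h1 := (Finset.mem_filter.mp huC).2
    linarith [h u huS]
  · intro h
    refine ⟨hz, fun u hu => ?_⟩
    by_contra hcon
    have h1 : u ∈ cap D z (tau0 n) := by
      unfold cap
      rw [Finset.mem_filter]
      exact ⟨hS hu, not_le.mp hcon⟩
    exact (Finset.disjoint_left.mp h) hu h1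

/-- Every point of the ball survives with probability at least `e^-8`. -/
lemma prob_mem_KK {D : Finset (EE n)} {q : ℝ} {Psi : ℝ → ℝ} (facts : AtomFacts n D q Psi)
    (h2 : 2 ≤ n) {z : EE n} (hz : ‖z‖ ≤ 1) :
    Real.exp (-8) ≤ Ex D q (fun S => ind (z ∈ KK n S)) := by
  have hq0 := facts.q_pos
  have hq1 := facts.q_le
  have h1 : Ex D q (fun S => ind (z ∈ KK n S)) =
      Ex D q (fun S => ind (Disjoint S (cap D z (tau0 n)))) := by
    apply Ex_congr
    intro S hS
    exact ind_congr (mem_KK_iff hS hz)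
  rw [h1, Ex_disjoint]
  have hc := cap_tau0_bound facts h2 hz
  have key : ∀ c : ℕ, (c : ℝ) ≤ ((cap D z (tau0 n)).card : ℝ) → Real.exp (-8) ≤ (1 - q) ^ c := by
    intro c hc3
    have hc4 : q * (c : ℝ) ≤ 4 := (mul_le_mul_of_nonneg_left hc3 hq0.le).trans hc
    have h4 : Real.exp (-(2 * q)) ^ c ≤ (1 - q) ^ c :=
      pow_le_pow_left₀ (Real.exp_pos _).le (one_sub_ge_exp hq0.le hq1) c
    have h5 : Real.exp (-(2 * q)) ^ c = Real.exp (-(2 * (q * c))) := by
      rw [← Real.exp_nat_mul]
      congr 1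
      ring
    rw [h5] at h4
    refine le_trans ?_ h4
    apply Real.exp_le_exp.mpr
    linarith
  apply key
  refine Nat.cast_le.mpr (Finset.card_le_card ?_)
  intro u hu
  simp only [Finset.mem_inter] at hu
  exact hu.2

lemma measurableSet_KK (n : ℕ) (S : Finset (EE n)) : MeasurableSet (KK n S) := by
  have h : KK n S = closedBall 0 1 ∩ ⋂ u ∈ S, {z : EE n | inner ℝ z u ≤ tau0 n} := by
    ext z
    simp [KK]
  rw [h]
  refine measurableSet_closedBall.inter ?_
  refine Finset.measurableSet_biInter _ fun u _ => ?_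
  exact measurableSet_le (by fun_prop) (by fun_prop)

lemma KK_subset (n : ℕ) (S : Finset (EE n)) : KK n S ⊆ closedBall 0 1 := by
  intro z hz
  simpa using hz.1

/-- Expected volume of the random body. -/
lemma expected_vol {D : Finset (EE n)} {q : ℝ} {Psi : ℝ → ℝ} (facts : AtomFacts n D q Psi)
    (h2 : 2 ≤ n) :
    ENNReal.ofReal (Real.exp (-8)) * volume (closedBall (0 : EE n) 1) ≤
      ∑ S ∈ D.powerset, ENNReal.ofReal (wt D q S) * volume (KK n S) := by
  have hq0 := facts.q_pos
  have hq1 : q ≤ 1 := by linarith [facts.q_le]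
  have hmeas : ∀ S : Finset (EE n), Measurable ((KK n S).indicator (1 : EE n → ℝ≥0∞)) := fun S =>
    measurable_one.indicator (measurableSet_KK n S)
  calc ENNReal.ofReal (Real.exp (-8)) * volume (closedBall (0 : EE n) 1)
      = ∫⁻ _ in closedBall (0 : EE n) 1, ENNReal.ofReal (Real.exp (-8)) := by
        rw [setLIntegral_const]
    _ ≤ ∫⁻ z in closedBall (0 : EE n) 1,
          ∑ S ∈ D.powerset, ENNReal.ofReal (wt D q S) * (KK n S).indicator 1 z := by
        apply setLIntegral_mono' measurableSet_closedBall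
        intro z hz
        have hz' : ‖z‖ ≤ 1 := by simpa using hz
        have hP := prob_mem_KK facts h2 hz'
        have hsum : ∑ S ∈ D.powerset, ENNReal.ofReal (wt D q S) * (KK n S).indicator 1 z =
            ENNReal.ofReal (Ex D q (fun S => ind (z ∈ KK n S))) := by
          unfold Ex
          rw [ENNReal.ofReal_sum_of_nonneg]
          · apply Finset.sum_congr rfl
            intro S _
            rw [ENNReal.ofReal_mul (wt_nonneg hq0.le hq1 D S)]
            congr 1
            show (KK n S).indicator 1 z = ENNReal.ofReal (ind (z ∈ KK n S))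
            by_cases h : z ∈ KK n S
            · rw [ind_of h]; simp [h]
            · rw [ind_of_not h]; simp [h]
          · intro S _
            exact mul_nonneg (wt_nonneg hq0.le hq1 D S) (ind_nonneg _)
        rw [hsum]
        exact ENNReal.ofReal_le_ofReal hP
    _ = ∑ S ∈ D.powerset, ∫⁻ z in closedBall (0 : EE n) 1,
          ENNReal.ofReal (wt D q S) * (KK n S).indicator 1 z := by
        rw [lintegral_finsetSum]
        intro S _
        exact (hmeas S).const_mul _
    _ = ∑ S ∈ D.powerset, ENNReal.ofReal (wt D q S) * volume (KK n S) := by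
        apply Finset.sum_congr rfl
        intro S _
        rw [lintegral_const_mul _ (hmeas S), lintegral_indicator_one (measurableSet_KK n S),
          Measure.restrict_apply (measurableSet_KK n S),
          inter_eq_left.mpr (KK_subset n S)]

/-- At most `(N+1)^m` subsets of size at most `m`. -/
lemma card_small_subsets {α : Type*} (G : Finset α) (m : ℕ) :
    (G.powerset.filter (fun A => A.card ≤ m)).card ≤ (G.card + 1) ^ m := by
  have hsub : G.powerset.filter (fun A => A.card ≤ m) ⊆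
      (Finset.range (m + 1)).biUnion (fun k => Finset.powersetCard k G) := by
    intro A hA
    rw [Finset.mem_filter, Finset.mem_powerset] at hA
    rw [Finset.mem_biUnion]
    exact ⟨A.card, Finset.mem_range.mpr (by omega), Finset.mem_powersetCard.mpr ⟨hA.1, rfl⟩⟩
  calc (G.powerset.filter (fun A => A.card ≤ m)).card
      ≤ ((Finset.range (m + 1)).biUnion (fun k => Finset.powersetCard k G)).card :=
        Finset.card_le_card hsub
    _ ≤ ∑ k ∈ Finset.range (m + 1), (Finset.powersetCard k G).card := Finset.card_biUnion_le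
    _ ≤ ∑ k ∈ Finset.range (m + 1), G.card ^ k * 1 ^ (m - k) * m.choose k := by
        apply Finset.sum_le_sum
        intro k hk
        rw [Finset.card_powersetCard, one_pow, mul_one]
        have h1 : G.card.choose k ≤ G.card ^ k := Nat.choose_le_pow G.card k
        have h2 : 1 ≤ m.choose k := Nat.choose_pos (by
          have := Finset.mem_range.mp hk; omega)
        nlinarith [Nat.zero_le (G.card ^ k)]
    _ = (G.card + 1) ^ m := (add_pow _ _ _).symm

/-- The union bound: the random set gives a large body with a hole for every good candidate. -/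
theorem exists_good_S_core {D : Finset (EE n)} {q : ℝ} {Psi : ℝ → ℝ}
    (facts : AtomFacts n D q Psi) (h2 : 2 ≤ n) (Grd : Finset (EE n)) (hGrd : IsGrid n Grd)
    (hbig : ((n : ℝ) ^ (5 * n) + 1) ^ (mm n) * Real.exp (-(7 * mm n * n * Real.log n)) <
      Real.exp (-8) / 2)
    (hfix : ∀ A : Finset (EE n), A.card ≤ mm n →
      volume (closedBall (0 : EE n) 1) / 2 ≤ volume (GG n A) →
      ∃ T : Finset (EE n), (T : Set (EE n)) ⊆ closedBall 0 1 ∧
        Ex D q (fun S => ind (∀ x ∈ T, ∃ a ∈ A, x - a ∈ KP n S)) ≤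
          Real.exp (-(7 * mm n * n * Real.log n))) :
    ∃ S ⊆ D, ENNReal.ofReal (Real.exp (-8) / 2) * volume (closedBall (0 : EE n) 1) ≤
        volume (KK n S) ∧
      ∀ A ⊆ Grd, A.card ≤ mm n → volume (closedBall (0 : EE n) 1) / 2 ≤ volume (GG n A) →
        ∃ x ∈ closedBall (0 : EE n) 1, ∀ a ∈ A, x - a ∉ KP n S := by
  have hq0 := facts.q_pos
  have hq1 : q ≤ 1 := by linarith [facts.q_le]
  set vB : ℝ≥0∞ := volume (closedBall (0 : EE n) 1) with hvB
  have hvBfin : vB ≠ ⊤ := measure_closedBall_lt_top.ne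
  have hvBpos : vB ≠ 0 := (measure_closedBall_pos volume (0 : EE n) one_pos).ne'
  set v : ℝ := vB.toReal with hv
  have hvpos : 0 < v := ENNReal.toReal_pos hvBpos hvBfin
  set W : Finset (EE n) → ℝ := fun S => (volume (KK n S)).toReal with hW
  have hWle : ∀ S, W S ≤ v := fun S =>
    ENNReal.toReal_mono hvBfin (measure_mono (KK_subset n S))
  have hKKfin : ∀ S, volume (KK n S) ≠ ⊤ := fun S =>
    ((measure_mono (KK_subset n S)).trans_lt measure_closedBall_lt_top).ne
  -- expected volume, in reals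
  have hE : Real.exp (-8) * v ≤ Ex D q W := by
    have h := expected_vol facts h2
    have hfin : (∑ S ∈ D.powerset, ENNReal.ofReal (wt D q S) * volume (KK n S)) ≠ ⊤ := by
      apply ENNReal.sum_ne_top.mpr
      intro S _
      exact ENNReal.mul_ne_top ENNReal.ofReal_ne_top (hKKfin S)
    have h' := ENNReal.toReal_mono hfin h
    rw [ENNReal.toReal_mul, ENNReal.toReal_ofReal (Real.exp_pos _).le,
      ENNReal.toReal_sum (fun S _ => ENNReal.mul_ne_top ENNReal.ofReal_ne_top (hKKfin S))] at h'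
    refine h'.trans (le_of_eq ?_)
    unfold Ex
    apply Finset.sum_congr rfl
    intro S _
    rw [ENNReal.toReal_mul, ENNReal.toReal_ofReal (wt_nonneg hq0.le hq1 D S)]
  -- candidates and their test sets
  have hT : ∀ A : Finset (EE n), ∃ T : Finset (EE n),
      (A.card ≤ mm n → vB / 2 ≤ volume (GG n A) →
        (T : Set (EE n)) ⊆ closedBall 0 1 ∧
        Ex D q (fun S => ind (∀ x ∈ T, ∃ a ∈ A, x - a ∈ KP n S)) ≤
          Real.exp (-(7 * mm n * n * Real.log n))) := by
    intro A
    by_cases h : A.card ≤ mm n ∧ vB / 2 ≤ volume (GG n A)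
    · obtain ⟨T, h1, h3⟩ := hfix A h.1 h.2
      exact ⟨T, fun _ _ => ⟨h1, h3⟩⟩
    · exact ⟨∅, fun h1 h3 => absurd ⟨h1, h3⟩ h⟩
  choose T hT using hT
  set Cand : Finset (Finset (EE n)) :=
    Grd.powerset.filter (fun A => A.card ≤ mm n ∧ vB / 2 ≤ volume (GG n A)) with hCand
  set Bad : Finset (EE n) → Prop :=
    fun S => ∃ A ∈ Cand, ∀ x ∈ T A, ∃ a ∈ A, x - a ∈ KP n S with hBad
  have hcard : (Cand.card : ℝ) ≤ ((n : ℝ) ^ (5 * n) + 1) ^ (mm n) := by
    have h1 : Cand.card ≤ (Grd.powerset.filter (fun A => A.card ≤ mm n)).card := by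
      apply Finset.card_le_card
      intro A hA
      rw [hCand, Finset.mem_filter] at hA
      exact Finset.mem_filter.mpr ⟨hA.1, hA.2.1⟩
    have h3 := h1.trans (card_small_subsets Grd (mm n))
    have h4 : (Cand.card : ℝ) ≤ ((Grd.card : ℝ) + 1) ^ (mm n) := by exact_mod_cast h3
    refine h4.trans (pow_le_pow_left₀ (by positivity) ?_ _)
    linarith [hGrd.card_le]
  have hPbad : Ex D q (fun S => ind (Bad S)) < Real.exp (-8) / 2 := by
    have h1 : Ex D q (fun S => ind (Bad S)) ≤
        Ex D q (fun S => ∑ A ∈ Cand, ind (∀ x ∈ T A, ∃ a ∈ A, x - a ∈ KP n S)) := by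
      apply Ex_mono hq0.le hq1
      intro S _
      by_cases hb : Bad S
      · obtain ⟨A, hA, hA'⟩ := hb
        have h3 : ind (∀ x ∈ T A, ∃ a ∈ A, x - a ∈ KP n S) = 1 := ind_of hA'
        have h4 : ind (Bad S) ≤ 1 := ind_le_one _
        have h5 : ind (∀ x ∈ T A, ∃ a ∈ A, x - a ∈ KP n S) ≤
            ∑ A ∈ Cand, ind (∀ x ∈ T A, ∃ a ∈ A, x - a ∈ KP n S) :=
          Finset.single_le_sum
            (f := fun A => ind (∀ x ∈ T A, ∃ a ∈ A, x - a ∈ KP n S))
            (fun _ _ => ind_nonneg _) hA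
        linarith
      · have h3 : ind (Bad S) = 0 := ind_of_not hb
        rw [h3]
        exact Finset.sum_nonneg fun _ _ => ind_nonneg _
    rw [Ex_sum] at h1
    have h2' : ∑ A ∈ Cand, Ex D q (fun S => ind (∀ x ∈ T A, ∃ a ∈ A, x - a ∈ KP n S)) ≤
        ∑ _A ∈ Cand, Real.exp (-(7 * mm n * n * Real.log n)) := by
      apply Finset.sum_le_sum
      intro A hA
      rw [hCand, Finset.mem_filter] at hA
      exact (hT A hA.2.1 hA.2.2).2
    rw [Finset.sum_const, nsmul_eq_mul] at h2'
    have h3 : (Cand.card : ℝ) * Real.exp (-(7 * mm n * n * Real.log n)) ≤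
        ((n : ℝ) ^ (5 * n) + 1) ^ (mm n) * Real.exp (-(7 * mm n * n * Real.log n)) :=
      mul_le_mul_of_nonneg_right hcard (Real.exp_pos _).le
    linarith
  -- averaging
  have hex : ∃ S ⊆ D, ¬ Bad S ∧ Real.exp (-8) / 2 * v ≤ W S := by
    by_contra hcon
    push Not at hcon
    have hpt : ∀ S ⊆ D, W S ≤ Real.exp (-8) / 2 * v + v * ind (Bad S) := by
      intro S hS
      by_cases hb : Bad S
      · have : ind (Bad S) = 1 := ind_of hb
        rw [this]
        have := hWle S
        have h5 : 0 ≤ Real.exp (-8) / 2 * v := by positivity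
        linarith
      · have : ind (Bad S) = 0 := ind_of_not hb
        rw [this]
        have := hcon S hS hb
        linarith
    have h1 := Ex_mono hq0.le hq1 hpt
    rw [Ex_add, Ex_const, Ex_mul_left] at h1
    have h3 : v * Ex D q (fun S => ind (Bad S)) < v * (Real.exp (-8) / 2) :=
      mul_lt_mul_of_pos_left hPbad hvpos
    nlinarith
  obtain ⟨S, hSD, hnb, hSW⟩ := hex
  refine ⟨S, hSD, ?_, ?_⟩
  · have h1 : ENNReal.ofReal (Real.exp (-8) / 2) * vB ≠ ⊤ :=
      ENNReal.mul_ne_top ENNReal.ofReal_ne_top hvBfin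
    rw [← ENNReal.toReal_le_toReal h1 (hKKfin S), ENNReal.toReal_mul,
      ENNReal.toReal_ofReal (by positivity)]
    exact hSW
  · intro A hA hcardA hgood
    have hAC : A ∈ Cand := by
      rw [hCand, Finset.mem_filter]
      exact ⟨Finset.mem_powerset.mpr hA, hcardA, hgood⟩
    have h1 : ¬ ∀ x ∈ T A, ∃ a ∈ A, x - a ∈ KP n S := fun h => hnb ⟨A, hAC, h⟩
    push Not at h1
    obtain ⟨x, hx, hx'⟩ := h1
    exact ⟨x, (hT A hcardA hgood).1 hx, hx'⟩

end Vale.Agent.P230
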