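import Vale.Agent.P230.Atoms
import Vale.Agent.P230.TestSet
import Vale.Agent.P230.UnionCore
import Vale.Agent.P230.Local
import Vale.Agent.P230.ParamsBasic

/-! P230: final assembly, given the fixed-candidate bound. -/

open MeasureTheory Metric Set Filter
open scoped BigOperators ENNReal Pointwise

noncomputable section

namespace Vale.Agent.P230

open Engine

lemma Big.ge_nine {n : ℕ} (h : Big n) : 9 ≤ n := by
  have h1 := h.n_ge_big
  have h2 : (9 : ℝ) ≤ n := le_trans (by norm_num) h1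
  exact_mod_cast h2

lemma Big.tau0_pos {n : ℕ} (h : Big n) : 0 < tau0 n := by
  rw [tau0_eq]
  have h1 := h.eps1_le
  have h2 := h.eps1_pos
  unfold t1 kappa
  have : eps1 n ≤ 1 := le_trans h1 (by norm_num)
  nlinarith

/-- If the candidates' bound holds in dimension `n`, then `Θ_T(n) ≥ θ`. -/
theorem main_bound_of_fixed {n : ℕ} (hB : Big n)
    (hfix : ∀ {D : Finset (EE n)} {q : ℝ} {Psi : ℝ → ℝ}, AtomFacts n D q Psi →
      ∀ A : Finset (EE n), A.card ≤ mm n →
        volume (closedBall (0 : EE n) 1) / 2 ≤ volume (GG n A) →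
        ∃ T : Finset (EE n), (T : Set (EE n)) ⊆ closedBall 0 1 ∧
          Ex D q (fun S => ind (∀ x ∈ T, ∃ a ∈ A, x - a ∈ KP n S)) ≤
            Real.exp (-(7 * mm n * n * Real.log n))) :
    ∃ K : Set (EE n), IsBody K ∧ ENNReal.ofReal (theta n) ≤ thetaT K := by
  have h9 := hB.ge_nine
  obtain ⟨D, q, Psi, facts⟩ := exists_atoms n (by omega)
  obtain ⟨Grd, hGrd⟩ := exists_grid n (by omega)
  obtain ⟨S, hSD, hvol, hhole⟩ := exists_good_S_core facts hB.n_ge Grd hGrd hB.union_big
    (fun A hA hg => hfix facts A hA hg)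
  have hSn : ∀ u ∈ S, ‖u‖ ≤ 1 := fun u hu => facts.norm_le u (hSD hu)
  have hbody : IsBody (KK n S) := KK_isBody (by omega) hB.tau0_pos S hSn
  have h1 : ENNReal.ofReal (theta n) ≤ thetaT (KK n S) := by
    unfold thetaT
    refine le_iInf fun X => le_iInf fun hX => le_iInf fun hcov => ?_
    exact no_cover (localNum_of_ge h9) S hSn Grd hGrd hvol hhole X hX hcov
  exact ⟨KK n S, hbody, h1⟩

/-- A body with large `θ_T` makes `Θ_T` large. -/
lemma le_bigThetaT_of_body {n : ℕ} {K : Set (EE n)} (hK : IsBody K) {a : ENNReal}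
    (h : a ≤ thetaT K) : a ≤ bigThetaT n :=
  h.trans (le_iSup₂ (f := fun (K : Set (EE n)) (_ : IsBody K) => thetaT K) K hK)

end Vale.Agent.P230
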