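import Vale.Agent.P230.ItemsReal

/-! P230 M3: the items of a finite set of points (see notes/P230_blueprint.md, section 5). -/

open MeasureTheory Metric Set Filter
open scoped BigOperators Pointwise ENNReal Classical

noncomputable section

namespace Vale.Agent.P230

open Engine ItemsReal

/-- The numerical hypotheses of the item construction; they hold for all large `n`. -/
structure ItemsNum (n : ℕ) : Prop where
  two_le : 2 ≤ n
  s_small : ss n ≤ 1 / 10 ^ 10
  eps_small : eps1 n ≤ ss n / 100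
  JJ_pos : 1 ≤ JJ n
  JJ_small : (JJ n : ℝ) ≤ n * ss n / 100
  ns_large : 1 ≤ n * ss n
  mass : 16 * Y0 n * Real.exp (-(n * ss n / 60)) ≤ Real.exp (-(4 * JJ n / kappa))

variable {n : ℕ}

section Num

variable (h : ItemsNum n)
include h

theorem ItemsNum.n_pos : (0 : ℝ) < n := by
  have := h.two_le
  have h2 : (2 : ℝ) ≤ n := by exact_mod_cast this
  linarith

theorem ItemsNum.ell_pos : 0 < ell n := Real.rpow_pos_of_pos h.n_pos _

theorem ItemsNum.s_pos : 0 < ss n := by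
  have := h.ell_pos
  unfold ss
  positivity

theorem ItemsNum.S_pos : 0 < SS n := by
  have := h.ell_pos
  unfold SS
  positivity

theorem ItemsNum.eps_pos : 0 < eps1 n := by
  have := h.n_pos
  unfold eps1
  positivity

theorem ItemsNum.rho_ge : 1 ≤ rho n := by
  have := h.eps_pos
  unfold rho
  linarith

theorem ItemsNum.rho_le : rho n ≤ 1 + ss n / 100 := by
  have := h.eps_small
  unfold rho
  linarith

theorem ItemsNum.eta_nonneg : 0 ≤ (JJ n : ℝ) / n := by
  have := h.n_pos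
  positivity

theorem ItemsNum.eta_le : (JJ n : ℝ) / n ≤ ss n / 100 := by
  have h1 := h.n_pos
  rw [div_le_iff₀ h1]
  have := h.JJ_small
  linarith

theorem ItemsNum.Y0_nonneg : 0 ≤ Y0 n := by
  have h1 : (1 : ℝ) ≤ n := by
    have := h.n_pos
    have h2 : (2 : ℝ) ≤ n := by exact_mod_cast h.two_le
    linarith
  have h2 : 0 ≤ Real.log n := Real.log_nonneg h1
  unfold Y0 theta' theta c0
  positivity

end Num

theorem SS_sq (n : ℕ) : SS n ^ 2 = ss n := by
  unfold SS ss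
  ring

theorem t1_eq : t1 = 9999999 / 10000000 := by
  unfold t1 kappa
  norm_num

theorem tmax_eq : tmax = 19999999 / 20000000 := by
  unfold tmax kappa
  norm_num

theorem kappa_eq : kappa = 1 / 10000000 := by
  unfold kappa
  norm_num

/-- A point of the range of the norms. -/
def InR (n : ℕ) (z : EE n) : Prop := rj n (JJ n) < ‖z‖ ∧ ‖z‖ ≤ rho n

theorem InR.lo {z : EE n} (hz : InR n z) : rho n * (1 - (JJ n : ℝ) / n) < ‖z‖ := hz.1

section Geometry

variable {D : Finset (EE n)} {q : ℝ} {Psi : ℝ → ℝ}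

theorem cap_upper (facts : AtomFacts n D q Psi) {w : EE n} {T t' : ℝ} (h1 : 1 / 2 ≤ t')
    (h2 : t' ≤ tmax) (hT0 : 0 ≤ T) (hT : t' * ‖w‖ ≤ T) :
    q * ((cap D w T).card : ℝ) ≤ 2 * Psi t' := by
  by_cases hw : w = 0
  · have e : cap D w T = ∅ := by
      unfold cap
      rw [Finset.filter_eq_empty_iff]
      intro u _
      rw [hw, inner_zero_left]
      exact not_lt.2 hT0
    rw [e]
    have := facts.Psi_pos t' h1 h2
    simp
    linarith
  · have hw0 : 0 < ‖w‖ := norm_pos_iff.2 hw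
    have hsub : cap D w T ⊆ cap D w (t' * ‖w‖) := by
      intro u hu
      unfold cap at hu ⊢
      rw [Finset.mem_filter] at hu ⊢
      exact ⟨hu.1, lt_of_le_of_lt hT hu.2⟩
    have e : t' * ‖w‖ / ‖w‖ = t' := by
      field_simp
    have h3 := facts.upper w (t' * ‖w‖) hw (by rw [e]; exact h1) (by rw [e]; exact h2)
    rw [e] at h3
    refine le_trans ?_ h3
    apply mul_le_mul_of_nonneg_left _ facts.q_pos.le
    exact_mod_cast Finset.card_le_card hsub

theorem cap_rel (facts : AtomFacts n D q Psi) {w : EE n} {T t d : ℝ} (ht : 1 / 2 ≤ t) (hd : 0 ≤ d)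
    (htd : t + d ≤ tmax) (hT0 : 0 ≤ T) (hT : (t + d) * ‖w‖ ≤ T) :
    q * ((cap D w T).card : ℝ) ≤ 2 * (Real.exp (-(n * t * d)) * Psi t) := by
  have h1 := cap_upper facts (by linarith) htd hT0 hT
  have h2 := facts.psiA t d ht hd htd
  linarith

/-- A mass bound relative to the mass `M` of a cap at ratio `t`. -/
theorem cap_rel_M (facts : AtomFacts n D q Psi) {w : EE n} {T t a e1 M : ℝ} (ht : 1 / 2 ≤ t)
    (ha : 0 ≤ a) (htd : t + t * a ≤ tmax) (hT0 : 0 ≤ T) (hT : t * (1 + a) * ‖w‖ ≤ T)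
    (hexp : Real.exp (-(n * t * (t * a))) ≤ e1) (hM : (1 / 2) * Psi t ≤ M) :
    q * ((cap D w T).card : ℝ) ≤ 4 * (e1 * M) := by
  have h1 := cap_rel facts (d := t * a) (w := w) (T := T) ht (by positivity) htd hT0
    (by
      have e : (t + t * a) * ‖w‖ = t * (1 + a) * ‖w‖ := by ring
      rw [e]
      exact hT)
  have hP : 0 < Psi t := facts.Psi_pos t ht (by nlinarith)
  have h2 : Real.exp (-(n * t * (t * a))) * Psi t ≤ e1 * (2 * M) := by
    apply mul_le_mul hexp (by linarith) hP.le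
    exact (Real.exp_pos _).le.trans hexp
  linarith

end Geometry

/-! ### Finite combinatorics -/

section Comb

theorem prod_image_ge {ι α : Type*} [DecidableEq α] (I : Finset ι) (g : ι → α) (h : α → ℝ)
    (h0 : ∀ C, 0 ≤ h C) (h1 : ∀ C, h C ≤ 1) :
    ∏ i ∈ I, h (g i) ≤ ∏ C ∈ I.image g, h C := by
  induction I using Finset.induction_on with
  | empty => simp
  | insert a I ha ih =>
    rw [Finset.prod_insert ha, Finset.image_insert]
    by_cases hm : g a ∈ I.image g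
    · rw [Finset.insert_eq_of_mem hm]
      have h3 : 0 ≤ ∏ i ∈ I, h (g i) := Finset.prod_nonneg fun i _ => h0 _
      nlinarith [h1 (g a), h0 (g a)]
    · rw [Finset.prod_insert hm]
      exact mul_le_mul_of_nonneg_left ih (h0 _)

theorem prod_union_ge {α : Type*} [DecidableEq α] (A B : Finset α) (h : α → ℝ) (h0 : ∀ C, 0 ≤ h C) (h1 : ∀ C, h C ≤ 1) :
    (∏ C ∈ A, h C) * ∏ C ∈ B, h C ≤ ∏ C ∈ A ∪ B, h C := by
  rw [← Finset.prod_union_inter]
  have h2 : ∏ C ∈ A ∩ B, h C ≤ 1 := Finset.prod_le_one (fun C _ => h0 C) (fun C _ => h1 C)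
  have h3 : 0 ≤ ∏ C ∈ A ∪ B, h C := Finset.prod_nonneg fun C _ => h0 C
  exact mul_le_of_le_one_right h3 h2

theorem exists_sep {E : Type*} [SeminormedAddCommGroup E] (Cr : Finset E) (S : ℝ) :
    ∃ C0 ⊆ Cr, (∀ c ∈ C0, ∀ c' ∈ C0, c ≠ c' → S ≤ ‖c - c'‖) ∧
      ∀ b ∈ Cr, b ∉ C0 → ∃ c ∈ C0, ‖b - c‖ < S := by
  obtain ⟨C0, hC0, hmax⟩ := Finset.exists_max_image
    (Cr.powerset.filter fun A => ∀ c ∈ A, ∀ c' ∈ A, c ≠ c' → S ≤ ‖c - c'‖) Finset.card
    ⟨∅, by simp⟩
  rw [Finset.mem_filter, Finset.mem_powerset] at hC0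
  refine ⟨C0, hC0.1, hC0.2, fun b hb hbn => ?_⟩
  by_contra hcon
  push Not at hcon
  have hins : insert b C0 ∈ Cr.powerset.filter fun A => ∀ c ∈ A, ∀ c' ∈ A, c ≠ c' → S ≤ ‖c - c'‖ := by
    rw [Finset.mem_filter, Finset.mem_powerset]
    refine ⟨Finset.insert_subset hb hC0.1, fun c hc c' hc' hne => ?_⟩
    rw [Finset.mem_insert] at hc hc'
    rcases hc with rfl | hc
    · rcases hc' with rfl | hc'
      · exact absurd rfl hne
      · exact hcon c' hc'
    · rcases hc' with rfl | hc'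
      · rw [norm_sub_rev]
        exact hcon c hc
      · exact hC0.2 c hc c' hc' hne
  have h1 := hmax _ hins
  rw [Finset.card_insert_of_notMem hbn] at h1
  omega

theorem card_mul_le {E : Type*} [SeminormedAddCommGroup E] (P C0 : Finset E) (S r : ℝ) (R : ℕ)
    (hr : 2 * r ≤ S) (hsep : ∀ c ∈ C0, ∀ c' ∈ C0, c ≠ c' → S ≤ ‖c - c'‖)
    (hcr : ∀ c ∈ C0, R ≤ (P.filter fun z => ‖c - z‖ < r).card) : C0.card * R ≤ P.card := by
  have hdis : ∀ x ∈ C0, ∀ y ∈ C0, x ≠ y →
      Disjoint (P.filter fun z => ‖x - z‖ < r) (P.filter fun z => ‖y - z‖ < r) := by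
    intro x hx y hy hne
    rw [Finset.disjoint_left]
    intro z hz hz'
    rw [Finset.mem_filter] at hz hz'
    have h1 := hsep x hx y hy hne
    have h2 : ‖x - y‖ ≤ ‖x - z‖ + ‖y - z‖ := by
      have e : x - y = (x - z) - (y - z) := by abel
      rw [e]
      exact norm_sub_le _ _
    linarith [hz.2, hz'.2]
  have h1 := Finset.card_biUnion hdis
  have h2 : C0.biUnion (fun c => P.filter fun z => ‖c - z‖ < r) ⊆ P := by
    intro z hz
    rw [Finset.mem_biUnion] at hz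
    obtain ⟨c, _, hz⟩ := hz
    exact (Finset.mem_filter.1 hz).1
  have h3 := Finset.card_le_card h2
  have h4 : C0.card • R ≤ ∑ c ∈ C0, (P.filter fun z => ‖c - z‖ < r).card :=
    Finset.card_nsmul_le_sum _ _ _ hcr
  rw [smul_eq_mul] at h4
  omega

theorem sum_le_card_mul {ι : Type*} (I : Finset ι) (f : ι → ℝ) (B : ℝ) (h : ∀ i ∈ I, f i ≤ B) :
    ∑ i ∈ I, f i ≤ (I.card : ℝ) * B := by
  have := Finset.sum_le_card_nsmul I f B h
  rwa [nsmul_eq_mul] at this

end Comb

/-! ### The depth of a point -/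

/-- The number of the levels that contain a point. -/
def cnt (n : ℕ) (z : EE n) : ℕ := ((Finset.range (JJ n)).filter fun j => ‖z‖ ≤ rj n j).card

theorem rj_anti (hn : (0 : ℝ) < n) (hρ : 0 ≤ rho n) {i j : ℕ} (hij : i ≤ j) : rj n j ≤ rj n i := by
  unfold rj
  apply mul_le_mul_of_nonneg_left _ hρ
  have : (i : ℝ) ≤ j := by exact_mod_cast hij
  have h2 : (i : ℝ) / n ≤ (j : ℝ) / n := div_le_div_of_nonneg_right this hn.le
  linarith

theorem cnt_pos (h : ItemsNum n) {z : EE n} (hz : InR n z) : 1 ≤ cnt n z := by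
  unfold cnt
  apply Finset.card_pos.2
  refine ⟨0, ?_⟩
  rw [Finset.mem_filter, Finset.mem_range]
  refine ⟨by have := h.JJ_pos; omega, ?_⟩
  have : rj n 0 = rho n := by
    unfold rj
    simp
  rw [this]
  exact hz.2

theorem cnt_le (z : EE n) : cnt n z ≤ JJ n := by
  unfold cnt
  calc _ ≤ (Finset.range (JJ n)).card := Finset.card_filter_le _ _
    _ = JJ n := Finset.card_range _

theorem cnt_lt (h : ItemsNum n) {z : EE n} (hz : InR n z) : rj n (cnt n z) < ‖z‖ := by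
  by_contra hc
  push Not at hc
  have hle := cnt_le (n := n) z
  rcases Nat.lt_or_ge (cnt n z) (JJ n) with hk | hk
  · have hsub : Finset.range (cnt n z + 1) ⊆ (Finset.range (JJ n)).filter fun j => ‖z‖ ≤ rj n j := by
      intro j hj
      rw [Finset.mem_range] at hj
      rw [Finset.mem_filter, Finset.mem_range]
      refine ⟨by omega, hc.trans ?_⟩
      exact rj_anti h.n_pos (by have := h.rho_ge; linarith) (by omega)
    have h2 := Finset.card_le_card hsub
    rw [Finset.card_range] at h2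
    have h3 : ((Finset.range (JJ n)).filter fun j => ‖z‖ ≤ rj n j).card = cnt n z := rfl
    omega
  · have : cnt n z = JJ n := by omega
    rw [this] at hc
    exact absurd hz.1 (not_lt.2 hc)

theorem sum_cnt (P : Finset (EE n)) :
    ∑ b ∈ P, (cnt n b : ℝ)
      = ∑ j ∈ Finset.range (JJ n), ((P.filter fun z => ‖z‖ ≤ rj n j).card : ℝ) := by
  unfold cnt
  simp only [Finset.card_filter]
  push_cast
  rw [Finset.sum_comm]

/-! ### Elementary identities of the Hilbert space -/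

section Hilbert

theorem norm_refl_sq (c b : EE n) : ‖(2 : ℝ) • c - b‖ ^ 2 = 2 * ‖c‖ ^ 2 + 2 * ‖c - b‖ ^ 2 - ‖b‖ ^ 2 := by
  have h := parallelogram_law_with_norm ℝ c (c - b)
  have e1 : c + (c - b) = (2 : ℝ) • c - b := by
    rw [two_smul]
    abel
  have e2 : c - (c - b) = b := by abel
  rw [e1, e2] at h
  nlinarith

theorem norm_mid_sq (a b : EE n) :
    ‖(1 / 2 : ℝ) • (a + b)‖ ^ 2 = (‖a‖ ^ 2 + ‖b‖ ^ 2) / 2 - ‖a - b‖ ^ 2 / 4 := by
  have h := parallelogram_law_with_norm ℝ a b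
  rw [norm_smul, mul_pow]
  have e : ‖(1 / 2 : ℝ)‖ ^ 2 = 1 / 4 := by
    rw [Real.norm_eq_abs, sq_abs]
    norm_num
  rw [e]
  nlinarith

theorem inner_refl (c b u : EE n) :
    inner ℝ ((2 : ℝ) • c - b) u = 2 * inner ℝ c u - inner ℝ b u := by
  rw [inner_sub_left, real_inner_smul_left]

theorem inner_mid (a b u : EE n) :
    inner ℝ ((1 / 2 : ℝ) • (a + b)) u = (inner ℝ a u + inner ℝ b u) / 2 := by
  rw [real_inner_smul_left, inner_add_left]
  ring

end Hilbert

/-! ### Numerics of the points -/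

/-- The exponentially small factor. -/
def e1 (n : ℕ) : ℝ := Real.exp (-(n * ss n / 60))

theorem e1_pos (n : ℕ) : 0 < e1 n := Real.exp_pos _

theorem Tg_eq (n : ℕ) : Tg n = t1 * rho n + 2 * ss n := rfl

theorem exp_neg_le_eighth {x : ℝ} (hx : 3 ≤ x) : Real.exp (-x) ≤ 1 / 8 := by
  have h1 : Real.exp (-x) ≤ Real.exp (-3) := Real.exp_le_exp.2 (by linarith)
  refine h1.trans ?_
  rw [Real.exp_neg]
  have h2 : (2 : ℝ) ≤ Real.exp 1 := by linarith [Real.add_one_le_exp (1 : ℝ)]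
  have h3 : Real.exp 3 = Real.exp 1 ^ 3 := by
    rw [← Real.exp_nat_mul]
    norm_num
  have h4 : (8 : ℝ) ≤ Real.exp 3 := by
    rw [h3]
    calc (8 : ℝ) = 2 ^ 3 := by norm_num
      _ ≤ _ := pow_le_pow_left₀ (by norm_num) h2 3
  rw [inv_le_comm₀ (Real.exp_pos _) (by norm_num)]
  norm_num
  linarith

section Points

variable (h : ItemsNum n)
include h

theorem InR.norm_pos {z : EE n} (hz : InR n z) : 0 < ‖z‖ := by
  refine lt_trans ?_ hz.1
  have h1 := h.rho_ge
  have h2 := h.eta_le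
  have h3 := h.s_small
  unfold rj
  apply mul_pos (by linarith)
  norm_num at h3
  linarith

theorem InR.ne_zero {z : EE n} (hz : InR n z) : z ≠ 0 := norm_pos_iff.1 (InR.norm_pos h hz)

theorem rho_sq_le : rho n ^ 2 ≤ 3 / 2 := by
  have h1 := h.rho_ge
  have h2 := h.rho_le
  have h3 := h.s_small
  norm_num at h3
  nlinarith

theorem tc_bounds {c : EE n} (hc : InR n c) :
    t1 ≤ Tg n / ‖c‖ ∧ Tg n / ‖c‖ ≤ t1 + (12 / 5) * ss n := by
  rw [Tg_eq]
  exact Tg_ratio h.s_pos h.s_small h.rho_ge h.rho_le h.eta_nonneg h.eta_le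
    (by rw [t1_eq]; norm_num) (by rw [t1_eq]; norm_num) hc.1 hc.2

theorem norm_sq_lo {c : EE n} (hc : InR n c) : (rho n * (1 - (JJ n : ℝ) / n)) ^ 2 ≤ ‖c‖ ^ 2 := by
  have h1 := h.rho_ge
  have h2 := h.eta_le
  have h3 := h.s_small
  norm_num at h3
  have h4 : 0 ≤ rho n * (1 - (JJ n : ℝ) / n) := by
    apply mul_nonneg (by linarith)
    linarith
  exact pow_le_pow_left₀ h4 hc.1.le 2

theorem norm_sq_hi {c : EE n} (hc : InR n c) : ‖c‖ ^ 2 ≤ rho n ^ 2 :=
  pow_le_pow_left₀ (norm_nonneg _) hc.2 2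

theorem delta_le' : rho n ^ 2 - (rho n * (1 - (JJ n : ℝ) / n)) ^ 2 ≤ ss n / 10 :=
  delta_le h.s_pos h.s_small h.rho_ge h.rho_le h.eta_nonneg h.eta_le

theorem exp_le_e1 {x : ℝ} (hx : 1 / 60 ≤ x) : Real.exp (-(n * ss n * x)) ≤ e1 n := by
  unfold e1
  apply Real.exp_le_exp.2
  have h1 : 0 < (n : ℝ) * ss n := mul_pos h.n_pos h.s_pos
  nlinarith

end Points

section Mass

variable {D : Finset (EE n)} {q : ℝ} {Psi : ℝ → ℝ}

theorem psi_lower (facts : AtomFacts n D q Psi) {d : ℝ} (hd0 : 0 ≤ d) (hd : d ≤ kappa / 4) :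
    Real.exp (-(2 * n * d / kappa)) ≤ Psi (t1 + d) := by
  have hk := kappa_eq
  have ht := t1_eq
  have htm := tmax_eq
  have h := facts.psiB t1 d (by rw [ht]; norm_num) hd0
    (by
      have e : 1 - t1 = kappa := by unfold t1; ring
      rw [e]
      have : 0 < kappa := by rw [hk]; norm_num
      linarith)
    (by rw [hk] at hd; rw [ht, htm]; linarith)
  have e : 1 - t1 = kappa := by unfold t1; ring
  rw [e, facts.Psi_t1, mul_one] at h
  exact h

/-- The set `Miss`. -/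
theorem miss_mass (facts : AtomFacts n D q Psi) (h : ItemsNum n) {c b : EE n} (hc : InR n c)
    (hb : InR n b) (hcb : ‖b - c‖ ^ 2 ≤ ss n) :
    q * ((cap D ((2 : ℝ) • c - b) (Tg n + 2 * ss n)).card : ℝ)
      ≤ 4 * (e1 n * (q * ((cap D c (Tg n)).card : ℝ))) := by
  have hs0 := h.s_pos
  have hs1 := h.s_small
  have ⟨h1, h2⟩ := tc_bounds h hc
  have hN0 := InR.norm_pos h hc
  have hW : ‖(2 : ℝ) • c - b‖ ^ 2
      ≤ ‖c‖ ^ 2 + (rho n ^ 2 - (rho n * (1 - (JJ n : ℝ) / n)) ^ 2) + 2 * ss n := by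
    rw [norm_refl_sq]
    have h3 : ‖c - b‖ ^ 2 ≤ ss n := by rwa [norm_sub_rev]
    have h4 := norm_sq_lo h hb
    have h5 := norm_sq_hi h hc
    linarith
  have hm := miss_norm hs0 hs1 h.rho_ge h.rho_le h.eta_nonneg h.eta_le
    (t := t1) (by rw [t1_eq]; norm_num) (by rw [t1_eq]; norm_num) hc.1 hc.2 (norm_nonneg _) hW
  rw [← Tg_eq] at hm
  obtain ⟨t, htdef⟩ : ∃ t, t = Tg n / ‖c‖ := ⟨_, rfl⟩
  rw [← htdef] at h1 h2 hm
  have ht1 := t1_eq
  have htm := tmax_eq
  rw [ht1] at h1 h2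
  norm_num at hs1
  have ht12 : 1 / 2 ≤ t := by linarith
  have htmax : t ≤ tmax := by rw [htm]; linarith
  have hTg0 : 0 ≤ Tg n := by
    have := h.rho_ge
    rw [Tg_eq, ht1]
    positivity
  refine cap_rel_M facts (t := t) (a := ss n / 3) ht12 (by positivity) ?_ (by linarith) hm ?_ ?_
  · rw [htm]
    have : t * (ss n / 3) ≤ 1 * (ss n / 3) :=
      mul_le_mul_of_nonneg_right (by linarith) (by positivity)
    linarith
  · have e : -((n : ℝ) * t * (t * (ss n / 3))) = -(n * ss n * (t * t / 3)) := by ring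
    rw [e]
    apply exp_le_e1 h
    nlinarith
  · rw [htdef] at ht12 htmax ⊢
    exact facts.lower c (Tg n) (InR.ne_zero h hc) ht12 htmax

/-- Two clusters. -/
theorem two_mass (facts : AtomFacts n D q Psi) (h : ItemsNum n) {c c' : EE n} (hc : InR n c)
    (hc' : InR n c') (hcc : SS n ≤ ‖c - c'‖) :
    q * ((cap D ((1 / 2 : ℝ) • (c + c')) (Tg n)).card : ℝ)
      ≤ 4 * (e1 n * (q * ((cap D c (Tg n)).card : ℝ))) := by
  have hs0 := h.s_pos
  have hs1 := h.s_small
  have hS0 := h.S_pos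
  have ⟨h1, h2⟩ := tc_bounds h hc
  have hN0 := InR.norm_pos h hc
  have hW : ‖(1 / 2 : ℝ) • (c + c')‖ ^ 2 ≤ ‖c‖ ^ 2 - ss n / 5 := by
    rw [norm_mid_sq]
    have h3 : ss n ≤ ‖c - c'‖ ^ 2 := by
      rw [← SS_sq]
      exact pow_le_pow_left₀ hS0.le hcc 2
    have h4 := norm_sq_lo h hc
    have h5 := norm_sq_hi h hc'
    have h6 := delta_le' h
    linarith
  have hTg0 : 0 ≤ Tg n := by
    have := h.rho_ge
    rw [Tg_eq, t1_eq]
    positivity
  have hC1 : ‖c‖ ^ 2 ≤ 3 / 2 := (norm_sq_hi h hc).trans (rho_sq_le h)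
  have hm := cc_norm hs0 hs1 hTg0 hN0 hC1 (norm_nonneg _) hW
  obtain ⟨t, htdef⟩ : ∃ t, t = Tg n / ‖c‖ := ⟨_, rfl⟩
  rw [← htdef] at h1 h2 hm
  have ht1 := t1_eq
  have htm := tmax_eq
  rw [ht1] at h1 h2
  norm_num at hs1
  have ht12 : 1 / 2 ≤ t := by linarith
  have htmax : t ≤ tmax := by rw [htm]; linarith
  refine cap_rel_M facts (t := t) (a := ss n / 20) ht12 (by positivity) ?_ hTg0 hm ?_ ?_
  · rw [htm]
    have : t * (ss n / 20) ≤ 1 * (ss n / 20) :=
      mul_le_mul_of_nonneg_right (by linarith) (by positivity)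
    linarith
  · have e : -((n : ℝ) * t * (t * (ss n / 20))) = -(n * ss n * (t * t / 20)) := by ring
    rw [e]
    apply exp_le_e1 h
    nlinarith
  · rw [htdef] at ht12 htmax ⊢
    exact facts.lower c (Tg n) (InR.ne_zero h hc) ht12 htmax

/-- The lower bound of a cluster cap. -/
theorem cap_lower_cl (facts : AtomFacts n D q Psi) (h : ItemsNum n) {c : EE n} (hc : InR n c) :
    (1 / 2) * Real.exp (-((24 / 5) * (n * ss n) / kappa)) ≤ q * ((cap D c (Tg n)).card : ℝ) := by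
  have hs0 := h.s_pos
  have hs1 := h.s_small
  have ⟨h1, h2⟩ := tc_bounds h hc
  obtain ⟨t, htdef⟩ : ∃ t, t = Tg n / ‖c‖ := ⟨_, rfl⟩
  rw [← htdef] at h1 h2
  have hk := kappa_eq
  have ht1 := t1_eq
  have htm := tmax_eq
  norm_num at hs1
  have hk0 : 0 < kappa := by rw [hk]; norm_num
  have hd0 : 0 ≤ t - t1 := by linarith
  have hd1 : t - t1 ≤ (12 / 5) * ss n := by linarith
  have hp := psi_lower facts hd0 (by rw [hk]; norm_num; linarith)
  have e : t1 + (t - t1) = t := by ring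
  rw [e] at hp
  have h3 : Real.exp (-((24 / 5) * (n * ss n) / kappa)) ≤ Real.exp (-(2 * n * (t - t1) / kappa)) := by
    apply Real.exp_le_exp.2
    rw [neg_le_neg_iff]
    apply div_le_div_of_nonneg_right _ hk0.le
    have hn := h.n_pos
    nlinarith
  have ht12 : 1 / 2 ≤ t := by rw [ht1] at h1; linarith
  have htmax : t ≤ tmax := by rw [htm]; rw [ht1] at h2; linarith
  have h4 := facts.lower c (Tg n) (InR.ne_zero h hc) (by rw [← htdef]; exact ht12)
    (by rw [← htdef]; exact htmax)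
  rw [← htdef] at h4
  linarith

/-- Two far singles. -/
theorem far_mass (facts : AtomFacts n D q Psi) (h : ItemsNum n) {b b' : EE n} (hb : InR n b)
    (hb' : InR n b') (hbb : rho0 n ≤ ‖b - b'‖) :
    q * ((cap D ((1 / 2 : ℝ) • (b + b')) (tau n)).card : ℝ) ≤ 2 * e1 n := by
  have hs0 := h.s_pos
  have hs1 := h.s_small
  have hS0 := h.S_pos
  have hW : ‖(1 / 2 : ℝ) • (b + b')‖ ^ 2 ≤ rho n ^ 2 - ss n / 16 := by
    rw [norm_mid_sq]
    have h3 : ss n / 4 ≤ ‖b - b'‖ ^ 2 := by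
      have h4 : (SS n / 2) ^ 2 ≤ ‖b - b'‖ ^ 2 :=
        pow_le_pow_left₀ (by positivity : 0 ≤ SS n / 2) hbb 2
      have e : (SS n / 2) ^ 2 = ss n / 4 := by
        rw [← SS_sq]
        ring
      linarith
    have h4 := norm_sq_hi h hb
    have h5 := norm_sq_hi h hb'
    linarith
  have ht0 : 0 ≤ t1 := by rw [t1_eq]; norm_num
  have hm := far_norm hs0 hs1 ht0 h.rho_ge (rho_sq_le h) (norm_nonneg _) hW
  have ht1 := t1_eq
  have htm := tmax_eq
  have htau : 0 ≤ tau n := by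
    have := h.rho_ge
    unfold tau
    positivity
  norm_num at hs1
  have hc := cap_rel facts (w := (1 / 2 : ℝ) • (b + b')) (T := tau n) (t := t1) (d := t1 * (ss n / 50))
    (by rw [ht1]; norm_num) (mul_nonneg ht0 (by positivity))
    (by rw [ht1, htm]; nlinarith) htau hm
  rw [facts.Psi_t1, mul_one] at hc
  have h3 : Real.exp (-((n : ℝ) * t1 * (t1 * (ss n / 50)))) ≤ e1 n := by
    have e : -((n : ℝ) * t1 * (t1 * (ss n / 50))) = -(n * ss n * (t1 * t1 / 50)) := by ring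
    rw [e]
    apply exp_le_e1 h
    rw [ht1]
    norm_num
  linarith

/-- A cluster cap seen from the base level. -/
theorem cl_base_mass (facts : AtomFacts n D q Psi) (h : ItemsNum n) {c : EE n} (hc : InR n c) :
    q * ((cap D c (Tg n)).card : ℝ) ≤ 2 * e1 n := by
  have hs0 := h.s_pos
  have hs1 := h.s_small
  have hr := h.rho_ge
  have hr1 := h.rho_le
  have ht1 := t1_eq
  have htm := tmax_eq
  have hTg0 : 0 ≤ Tg n := by
    rw [Tg_eq, ht1]
    positivity
  norm_num at hs1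
  have h1 : (t1 + ss n) * ‖c‖ ≤ Tg n := by
    rw [Tg_eq]
    have h2 : (t1 + ss n) * ‖c‖ ≤ (t1 + ss n) * rho n :=
      mul_le_mul_of_nonneg_left hc.2 (by rw [ht1]; positivity)
    have h3 : ss n * rho n ≤ ss n * 2 := mul_le_mul_of_nonneg_left (by linarith) hs0.le
    nlinarith
  have hc' := cap_rel facts (w := c) (T := Tg n) (t := t1) (d := ss n)
    (by rw [ht1]; norm_num) hs0.le (by rw [ht1, htm]; linarith) hTg0 h1
  rw [facts.Psi_t1, mul_one] at hc'
  have h3 : Real.exp (-((n : ℝ) * t1 * ss n)) ≤ e1 n := by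
    have e : -((n : ℝ) * t1 * ss n) = -(n * ss n * t1) := by ring
    rw [e]
    apply exp_le_e1 h
    rw [ht1]
    norm_num
  linarith

/-- The lower bound of a single cap. -/
theorem cap_lower_sg (facts : AtomFacts n D q Psi) (h : ItemsNum n) {b : EE n} (hb : InR n b) :
    (1 / 2) * Real.exp (-(4 * (cnt n b : ℝ) / kappa)) ≤ q * ((cap D b (tau n)).card : ℝ) := by
  have hs0 := h.s_pos
  have hs1 := h.s_small
  have hn := h.n_pos
  have hk1 : (cnt n b : ℝ) ≤ JJ n := by exact_mod_cast cnt_le b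
  have hx0 : 0 ≤ (cnt n b : ℝ) / n := by positivity
  have hx1 : (cnt n b : ℝ) / n ≤ ss n / 100 := by
    have := h.eta_le
    have h2 : (cnt n b : ℝ) / n ≤ (JJ n : ℝ) / n := div_le_div_of_nonneg_right hk1 hn.le
    linarith
  have ht1 := t1_eq
  have htm := tmax_eq
  have hk := kappa_eq
  norm_num at hs1
  have hk0 : 0 < kappa := by rw [hk]; norm_num
  have ⟨h1, h2⟩ := tau_ratio (ρ := rho n) (N := ‖b‖) (x := (cnt n b : ℝ) / n) (t := t1) h.rho_ge hx0
    (by linarith) (by rw [ht1]; norm_num) (by rw [ht1]; norm_num) (cnt_lt h hb) hb.2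
  have e0 : t1 * rho n / ‖b‖ = tau n / ‖b‖ := rfl
  rw [e0] at h1 h2
  obtain ⟨t, htdef⟩ : ∃ t, t = tau n / ‖b‖ := ⟨_, rfl⟩
  rw [← htdef] at h1 h2
  have hd0 : 0 ≤ t - t1 := by linarith
  have hd1 : t - t1 ≤ 2 * ((cnt n b : ℝ) / n) := by linarith
  have hp := psi_lower facts hd0 (by rw [hk]; norm_num; linarith)
  have e : t1 + (t - t1) = t := by ring
  rw [e] at hp
  have h3 : Real.exp (-(4 * (cnt n b : ℝ) / kappa)) ≤ Real.exp (-(2 * n * (t - t1) / kappa)) := by
    apply Real.exp_le_exp.2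
    rw [neg_le_neg_iff]
    apply div_le_div_of_nonneg_right _ hk0.le
    have h5 : (n : ℝ) * (t - t1) ≤ n * (2 * ((cnt n b : ℝ) / n)) :=
      mul_le_mul_of_nonneg_left hd1 hn.le
    have e2 : (n : ℝ) * (2 * ((cnt n b : ℝ) / n)) = 2 * (cnt n b : ℝ) := by
      field_simp
    linarith
  have ht12 : 1 / 2 ≤ t := by rw [ht1] at h1; linarith
  have htmax : t ≤ tmax := by rw [htm]; rw [ht1] at h2; linarith
  have h4 := facts.lower b (tau n) (InR.ne_zero h hb) (by rw [← htdef]; exact ht12)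
    (by rw [← htdef]; exact htmax)
  rw [← htdef] at h4
  linarith

end Mass

/-! ### The items -/

section ItemsDef

/-- The item of a cluster. -/
def Ecl (D P C0 : Finset (EE n)) (c : EE n) : Finset (EE n) :=
  (cap D c (Tg n)).filter fun u =>
    (∀ c' ∈ C0, c' ≠ c → ¬ Tg n < inner ℝ c' u) ∧ ∀ b ∈ P, ‖b - c‖ ^ 2 ≤ ss n → tau n < inner ℝ b u

/-- The item of a single point. -/
def Csg (D C0 P' : Finset (EE n)) (b : EE n) : Finset (EE n) :=
  (cap D b (tau n)).filter fun u =>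
    (∀ c ∈ C0, ¬ Tg n < inner ℝ c u) ∧ ∀ b' ∈ P', rho0 n ≤ ‖b - b'‖ → ¬ tau n < inner ℝ b' u

variable {D : Finset (EE n)} {q : ℝ} {Psi : ℝ → ℝ}

theorem piC_nonneg {α : Type*} (hq0 : 0 < q) (hq : q ≤ 1 / 2) (C : Finset α) : 0 ≤ piC q C := by
  unfold piC
  have : (1 - q) ^ C.card ≤ 1 := pow_le_one₀ (by linarith) (by linarith)
  linarith

theorem piC_le_one {α : Type*} (hq0 : 0 < q) (hq : q ≤ 1 / 2) (C : Finset α) : piC q C ≤ 1 := by
  unfold piC
  have : 0 ≤ (1 - q) ^ C.card := pow_nonneg (by linarith) _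
  linarith

theorem piC_ge {α : Type*} {y : ℝ} {C : Finset α} (hq0 : 0 < q) (hq : q ≤ 1 / 2) (hy0 : 0 ≤ y)
    (hy1 : y ≤ 1) (hy : y ≤ q * (C.card : ℝ)) : y / 2 ≤ piC q C := by
  unfold piC
  have h1 : (1 - q) ^ C.card ≤ Real.exp (-(q * (C.card : ℝ))) := by
    have h2 := Real.one_sub_le_exp_neg q
    calc (1 - q) ^ C.card ≤ (Real.exp (-q)) ^ C.card := pow_le_pow_left₀ (by linarith) h2 _
      _ = Real.exp (-(q * (C.card : ℝ))) := by
        rw [← Real.exp_nat_mul]
        congr 1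
        ring
  have h2 := one_sub_exp_ge hy0 hy1 hy
  linarith

theorem ecl_mass (facts : AtomFacts n D q Psi) (h : ItemsNum n) {P C0 : Finset (EE n)}
    (hPR : ∀ z ∈ P, InR n z) (hC0 : C0 ⊆ P) (hsep : ∀ c ∈ C0, ∀ c' ∈ C0, c ≠ c' → SS n ≤ ‖c - c'‖)
    (hPY : (P.card : ℝ) ≤ Y0 n) {c : EE n} (hc : c ∈ C0) :
    q * ((cap D c (Tg n)).card : ℝ) / 2 ≤ q * ((Ecl D P C0 c).card : ℝ) := by
  have hs0 := h.s_pos
  have hsub : cap D c (Tg n) ⊆ (Ecl D P C0 c ∪
      ((C0.erase c).biUnion fun c' => cap D ((1 / 2 : ℝ) • (c + c')) (Tg n))) ∪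
      ((P.filter fun b => ‖b - c‖ ^ 2 ≤ ss n).biUnion fun b =>
        cap D ((2 : ℝ) • c - b) (Tg n + 2 * ss n)) := by
    intro u hu
    have hu' := hu
    unfold cap at hu'
    rw [Finset.mem_filter] at hu'
    by_cases h1 : ∃ c' ∈ C0, c' ≠ c ∧ Tg n < inner ℝ c' u
    · obtain ⟨c', hc', hne, hlt⟩ := h1
      apply Finset.mem_union_left
      apply Finset.mem_union_right
      rw [Finset.mem_biUnion]
      refine ⟨c', Finset.mem_erase.2 ⟨hne, hc'⟩, ?_⟩
      unfold cap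
      rw [Finset.mem_filter]
      refine ⟨hu'.1, ?_⟩
      rw [inner_mid]
      linarith [hu'.2]
    by_cases h2 : ∃ b ∈ P, ‖b - c‖ ^ 2 ≤ ss n ∧ inner ℝ b u ≤ tau n
    · obtain ⟨b, hb, hbc, hle⟩ := h2
      apply Finset.mem_union_right
      rw [Finset.mem_biUnion]
      refine ⟨b, Finset.mem_filter.2 ⟨hb, hbc⟩, ?_⟩
      unfold cap
      rw [Finset.mem_filter]
      refine ⟨hu'.1, ?_⟩
      rw [inner_refl]
      have : Tg n = tau n + 2 * ss n := rfl
      linarith [hu'.2]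
    · apply Finset.mem_union_left
      apply Finset.mem_union_left
      unfold Ecl
      rw [Finset.mem_filter]
      refine ⟨hu, ?_, ?_⟩
      · intro c' hc' hne hlt
        exact h1 ⟨c', hc', hne, hlt⟩
      · intro b hb hbc
        by_contra hcon
        exact h2 ⟨b, hb, hbc, not_lt.1 hcon⟩
  have hcard := Finset.card_le_card hsub
  have h3 : ((cap D c (Tg n)).card : ℝ) ≤ ((Ecl D P C0 c).card : ℝ) +
      ∑ c' ∈ C0.erase c, ((cap D ((1 / 2 : ℝ) • (c + c')) (Tg n)).card : ℝ) +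
      ∑ b ∈ P.filter (fun b => ‖b - c‖ ^ 2 ≤ ss n),
        ((cap D ((2 : ℝ) • c - b) (Tg n + 2 * ss n)).card : ℝ) := by
    have h4 := (hcard.trans (Finset.card_union_le _ _)).trans
      (Nat.add_le_add_right (Finset.card_union_le _ _) _)
    have h5 := Finset.card_biUnion_le (s := C0.erase c)
      (t := fun c' => cap D ((1 / 2 : ℝ) • (c + c')) (Tg n))
    have h6 := Finset.card_biUnion_le (s := P.filter fun b => ‖b - c‖ ^ 2 ≤ ss n)
      (t := fun b => cap D ((2 : ℝ) • c - b) (Tg n + 2 * ss n))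
    have h7 : (cap D c (Tg n)).card ≤ (Ecl D P C0 c).card +
        ∑ c' ∈ C0.erase c, (cap D ((1 / 2 : ℝ) • (c + c')) (Tg n)).card +
        ∑ b ∈ P.filter (fun b => ‖b - c‖ ^ 2 ≤ ss n),
          (cap D ((2 : ℝ) • c - b) (Tg n + 2 * ss n)).card := by omega
    exact_mod_cast h7
  obtain ⟨M, hMdef⟩ : ∃ M, M = q * ((cap D c (Tg n)).card : ℝ) := ⟨_, rfl⟩
  have hq0 := facts.q_pos
  have hM0 : 0 ≤ M := by rw [hMdef]; positivity
  have hcR := hPR c (hC0 hc)
  have h8 : ∑ c' ∈ C0.erase c, q * ((cap D ((1 / 2 : ℝ) • (c + c')) (Tg n)).card : ℝ)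
      ≤ ((C0.erase c).card : ℝ) * (4 * (e1 n * M)) := by
    apply sum_le_card_mul
    intro c' hc'
    rw [Finset.mem_erase] at hc'
    rw [hMdef]
    exact two_mass facts h hcR (hPR c' (hC0 hc'.2)) (hsep c hc c' hc'.2 (Ne.symm hc'.1))
  have h9 : ∑ b ∈ P.filter (fun b => ‖b - c‖ ^ 2 ≤ ss n),
      q * ((cap D ((2 : ℝ) • c - b) (Tg n + 2 * ss n)).card : ℝ)
      ≤ ((P.filter fun b => ‖b - c‖ ^ 2 ≤ ss n).card : ℝ) * (4 * (e1 n * M)) := by
    apply sum_le_card_mul
    intro b hb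
    rw [Finset.mem_filter] at hb
    rw [hMdef]
    exact miss_mass facts h hcR (hPR b hb.1) hb.2
  have h10 : ((C0.erase c).card : ℝ) ≤ Y0 n := by
    have h11 : (C0.erase c).card ≤ P.card :=
      (Finset.card_le_card (Finset.erase_subset _ _)).trans (Finset.card_le_card hC0)
    have h12 : ((C0.erase c).card : ℝ) ≤ P.card := by exact_mod_cast h11
    linarith
  have h11 : ((P.filter fun b => ‖b - c‖ ^ 2 ≤ ss n).card : ℝ) ≤ Y0 n := by
    have h12 : ((P.filter fun b => ‖b - c‖ ^ 2 ≤ ss n).card : ℝ) ≤ P.card := by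
      exact_mod_cast Finset.card_filter_le _ _
    linarith
  have he := e1_pos n
  have h12 : 0 ≤ 4 * (e1 n * M) := by positivity
  have h13 := mul_le_mul_of_nonneg_right h10 h12
  have h14 := mul_le_mul_of_nonneg_right h11 h12
  have h15 : 16 * Y0 n * e1 n ≤ 1 := by
    refine h.mass.trans ?_
    apply Real.exp_le_one_iff.2
    have hk : 0 < kappa := by rw [kappa_eq]; norm_num
    have : 0 ≤ 4 * (JJ n : ℝ) / kappa := by positivity
    linarith
  have h16 : 16 * Y0 n * e1 n * M ≤ 1 * M := mul_le_mul_of_nonneg_right h15 hM0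
  have h17 := mul_le_mul_of_nonneg_left h3 hq0.le
  rw [mul_add, mul_add, Finset.mul_sum, Finset.mul_sum, ← hMdef] at h17
  rw [← hMdef]
  nlinarith

theorem csg_mass (facts : AtomFacts n D q Psi) (h : ItemsNum n) {P C0 P' : Finset (EE n)}
    (hPR : ∀ z ∈ P, InR n z) (hC0 : C0 ⊆ P) (hP' : P' ⊆ P)
    (hPY : (P.card : ℝ) ≤ Y0 n) {b : EE n} (hb : b ∈ P') :
    q * ((cap D b (tau n)).card : ℝ) ≤ q * ((Csg D C0 P' b).card : ℝ) + 4 * Y0 n * e1 n := by
  have hs0 := h.s_pos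
  have hsub : cap D b (tau n) ⊆ (Csg D C0 P' b ∪
      (C0.biUnion fun c => cap D c (Tg n))) ∪
      ((P'.filter fun b' => rho0 n ≤ ‖b - b'‖).biUnion fun b' =>
        cap D ((1 / 2 : ℝ) • (b + b')) (tau n)) := by
    intro u hu
    have hu' := hu
    unfold cap at hu'
    rw [Finset.mem_filter] at hu'
    by_cases h1 : ∃ c ∈ C0, Tg n < inner ℝ c u
    · obtain ⟨c, hc, hlt⟩ := h1
      apply Finset.mem_union_left
      apply Finset.mem_union_right
      rw [Finset.mem_biUnion]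
      refine ⟨c, hc, ?_⟩
      unfold cap
      rw [Finset.mem_filter]
      exact ⟨hu'.1, hlt⟩
    by_cases h2 : ∃ b' ∈ P', rho0 n ≤ ‖b - b'‖ ∧ tau n < inner ℝ b' u
    · obtain ⟨b', hb', hbb, hlt⟩ := h2
      apply Finset.mem_union_right
      rw [Finset.mem_biUnion]
      refine ⟨b', Finset.mem_filter.2 ⟨hb', hbb⟩, ?_⟩
      unfold cap
      rw [Finset.mem_filter]
      refine ⟨hu'.1, ?_⟩
      rw [inner_mid]
      linarith [hu'.2]
    · apply Finset.mem_union_left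
      apply Finset.mem_union_left
      unfold Csg
      rw [Finset.mem_filter]
      refine ⟨hu, ?_, ?_⟩
      · intro c hc hlt
        exact h1 ⟨c, hc, hlt⟩
      · intro b' hb' hbb hlt
        exact h2 ⟨b', hb', hbb, hlt⟩
  have hcard := Finset.card_le_card hsub
  have h3 : ((cap D b (tau n)).card : ℝ) ≤ ((Csg D C0 P' b).card : ℝ) +
      ∑ c ∈ C0, ((cap D c (Tg n)).card : ℝ) +
      ∑ b' ∈ P'.filter (fun b' => rho0 n ≤ ‖b - b'‖),
        ((cap D ((1 / 2 : ℝ) • (b + b')) (tau n)).card : ℝ) := by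
    have h4 := (hcard.trans (Finset.card_union_le _ _)).trans
      (Nat.add_le_add_right (Finset.card_union_le _ _) _)
    have h5 := Finset.card_biUnion_le (s := C0) (t := fun c => cap D c (Tg n))
    have h6 := Finset.card_biUnion_le (s := P'.filter fun b' => rho0 n ≤ ‖b - b'‖)
      (t := fun b' => cap D ((1 / 2 : ℝ) • (b + b')) (tau n))
    have h7 : (cap D b (tau n)).card ≤ (Csg D C0 P' b).card +
        ∑ c ∈ C0, (cap D c (Tg n)).card +
        ∑ b' ∈ P'.filter (fun b' => rho0 n ≤ ‖b - b'‖),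
          (cap D ((1 / 2 : ℝ) • (b + b')) (tau n)).card := by omega
    exact_mod_cast h7
  have hq0 := facts.q_pos
  have hbR := hPR b (hP' hb)
  have h8 : ∑ c ∈ C0, q * ((cap D c (Tg n)).card : ℝ) ≤ (C0.card : ℝ) * (2 * e1 n) := by
    apply sum_le_card_mul
    intro c hc
    exact cl_base_mass facts h (hPR c (hC0 hc))
  have h9 : ∑ b' ∈ P'.filter (fun b' => rho0 n ≤ ‖b - b'‖),
      q * ((cap D ((1 / 2 : ℝ) • (b + b')) (tau n)).card : ℝ)
      ≤ ((P'.filter fun b' => rho0 n ≤ ‖b - b'‖).card : ℝ) * (2 * e1 n) := by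
    apply sum_le_card_mul
    intro b' hb'
    rw [Finset.mem_filter] at hb'
    exact far_mass facts h hbR (hPR b' (hP' hb'.1)) hb'.2
  have h10 : (C0.card : ℝ) ≤ Y0 n := by
    have h12 : (C0.card : ℝ) ≤ P.card := by exact_mod_cast Finset.card_le_card hC0
    linarith
  have h11 : ((P'.filter fun b' => rho0 n ≤ ‖b - b'‖).card : ℝ) ≤ Y0 n := by
    have h12 : ((P'.filter fun b' => rho0 n ≤ ‖b - b'‖).card : ℝ) ≤ P.card := by
      exact_mod_cast (Finset.card_filter_le _ _).trans (Finset.card_le_card hP')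
    linarith
  have he := e1_pos n
  have h12 : 0 ≤ 2 * e1 n := by positivity
  have h13 := mul_le_mul_of_nonneg_right h10 h12
  have h14 := mul_le_mul_of_nonneg_right h11 h12
  have h17 := mul_le_mul_of_nonneg_left h3 hq0.le
  rw [mul_add, mul_add, Finset.mul_sum, Finset.mul_sum] at h17
  nlinarith

theorem ecl_pi (facts : AtomFacts n D q Psi) (h : ItemsNum n) {P C0 : Finset (EE n)}
    (hPR : ∀ z ∈ P, InR n z) (hC0 : C0 ⊆ P) (hsep : ∀ c ∈ C0, ∀ c' ∈ C0, c ≠ c' → SS n ≤ ‖c - c'‖)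
    (hPY : (P.card : ℝ) ≤ Y0 n) {c : EE n} (hc : c ∈ C0) :
    Real.exp (-(r0 n : ℝ)) ≤ piC q (Ecl D P C0 c) := by
  have h1 := ecl_mass facts h hPR hC0 hsep hPY hc
  have h2 := cap_lower_cl facts h (hPR c (hC0 hc))
  have hns := h.ns_large
  have hk := kappa_eq
  have hk0 : 0 < kappa := by rw [hk]; norm_num
  obtain ⟨x, hxdef⟩ : ∃ x, x = (n : ℝ) * ss n / kappa := ⟨_, rfl⟩
  have hx : (10000000 : ℝ) ≤ x := by
    rw [hxdef, hk]
    norm_num
    linarith
  have e1' : (24 / 5) * ((n : ℝ) * ss n) / kappa = (24 / 5) * x := by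
    rw [hxdef]
    ring
  rw [e1'] at h2
  have h3 := piC_ge (C := Ecl D P C0 c) (y := (1 / 4) * Real.exp (-((24 / 5) * x))) facts.q_pos
    facts.q_le (by positivity)
    (by
      have : Real.exp (-((24 / 5) * x)) ≤ 1 := Real.exp_le_one_iff.2 (by linarith)
      linarith)
    (by linarith)
  refine le_trans ?_ h3
  have h4 : 5 * x ≤ r0 n := by
    have e : 5 * (n : ℝ) * ss n / kappa = 5 * x := by
      rw [hxdef]
      ring
    unfold r0
    rw [← e]
    exact Nat.le_ceil _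
  have h5 : Real.exp (-(r0 n : ℝ)) ≤ Real.exp (-((24 / 5) * x)) * Real.exp (-(x / 5)) := by
    rw [← Real.exp_add]
    apply Real.exp_le_exp.2
    linarith
  have h6 := exp_neg_le_eighth (x := x / 5) (by linarith)
  have h7 : Real.exp (-((24 / 5) * x)) * Real.exp (-(x / 5)) ≤ Real.exp (-((24 / 5) * x)) * (1 / 8) :=
    mul_le_mul_of_nonneg_left h6 (Real.exp_pos _).le
  linarith

theorem csg_pi (facts : AtomFacts n D q Psi) (h : ItemsNum n) {P C0 P' : Finset (EE n)}
    (hPR : ∀ z ∈ P, InR n z) (hC0 : C0 ⊆ P) (hP' : P' ⊆ P)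
    (hPY : (P.card : ℝ) ≤ Y0 n) {b : EE n} (hb : b ∈ P') :
    Real.exp (-(AA * (cnt n b : ℝ))) ≤ piC q (Csg D C0 P' b) := by
  have h1 := csg_mass facts h hPR hC0 hP' hPY hb
  have hbR := hPR b (hP' hb)
  have h2 := cap_lower_sg facts h hbR
  have hk := kappa_eq
  have hk0 : 0 < kappa := by rw [hk]; norm_num
  have hk1 : (cnt n b : ℝ) ≤ JJ n := by exact_mod_cast cnt_le b
  have hk2 : (1 : ℝ) ≤ cnt n b := by exact_mod_cast cnt_pos h hbR
  have h3 : 16 * Y0 n * e1 n ≤ Real.exp (-(4 * (cnt n b : ℝ) / kappa)) := by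
    refine h.mass.trans ?_
    apply Real.exp_le_exp.2
    rw [neg_le_neg_iff]
    apply div_le_div_of_nonneg_right _ hk0.le
    linarith
  obtain ⟨y, hydef⟩ : ∃ y, y = Real.exp (-(4 * (cnt n b : ℝ) / kappa)) := ⟨_, rfl⟩
  rw [← hydef] at h2 h3
  have hy0 : 0 < y := by rw [hydef]; exact Real.exp_pos _
  have hy1 : y ≤ 1 := by
    rw [hydef]
    apply Real.exp_le_one_iff.2
    have : 0 ≤ 4 * (cnt n b : ℝ) / kappa := by positivity
    linarith
  have h4 := piC_ge (C := Csg D C0 P' b) (y := y / 4) facts.q_pos facts.q_le (by positivity)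
    (by linarith) (by linarith)
  refine le_trans ?_ h4
  have h5 : Real.exp (-(AA * (cnt n b : ℝ))) = y * Real.exp (-(4 * (cnt n b : ℝ))) := by
    rw [hydef, ← Real.exp_add]
    congr 1
    unfold AA
    ring
  rw [h5]
  have h6 := exp_neg_le_eighth (x := 4 * (cnt n b : ℝ)) (by linarith)
  have h7 := mul_le_mul_of_nonneg_left h6 hy0.le
  linarith

theorem Ecl_sub {D P C0 : Finset (EE n)} {c u : EE n} (hu : u ∈ Ecl D P C0 c) :
    u ∈ D ∧ Tg n < inner ℝ c u := by
  unfold Ecl cap at hu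
  rw [Finset.mem_filter, Finset.mem_filter] at hu
  exact hu.1

theorem Csg_sub {D C0 P' : Finset (EE n)} {b u : EE n} (hu : u ∈ Csg D C0 P' b) :
    u ∈ D ∧ tau n < inner ℝ b u := by
  unfold Csg cap at hu
  rw [Finset.mem_filter, Finset.mem_filter] at hu
  exact hu.1

theorem inv_le_exp {p x : ℝ} (h : Real.exp (-x) ≤ p) : p⁻¹ ≤ Real.exp x := by
  have h1 := inv_anti₀ (Real.exp_pos _) h
  rwa [Real.exp_neg, inv_inv] at h1

theorem prod_le_pow_of_le {α : Type*} (X : Finset α) (f : α → ℝ) (B : ℝ) (m : ℕ) (hB : 1 ≤ B)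
    (h0 : ∀ C ∈ X, 0 ≤ f C) (h1 : ∀ C ∈ X, f C ≤ B) (hm : X.card ≤ m) : ∏ C ∈ X, f C ≤ B ^ m := by
  calc ∏ C ∈ X, f C ≤ ∏ _C ∈ X, B := Finset.prod_le_prod h0 h1
    _ = B ^ X.card := Finset.prod_const _
    _ ≤ B ^ m := pow_le_pow_right₀ hB hm

theorem AA_ge : 1 ≤ AA := by
  unfold AA
  rw [kappa_eq]
  norm_num

end ItemsDef

/-- **The items.**  See section 5 of the blueprint. -/
theorem exists_items {n : ℕ} {D : Finset (EE n)} {q : ℝ} {Psi : ℝ → ℝ}
    (facts : AtomFacts n D q Psi) (hnum : ItemsNum n) (P : Finset (EE n))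
    (hP : ∀ z ∈ P, rj n (JJ n) < ‖z‖ ∧ ‖z‖ ≤ rho n)
    (hF : ∑ j ∈ Finset.range (JJ n), ((P.filter (fun z => ‖z‖ ≤ rj n j)).card : ℝ) ≤ Y0 n) :
    ∃ F : Finset (Finset (EE n)),
      (∀ z ∈ P, ∃ C ∈ F, ∀ u ∈ C, tau n < inner ℝ z u) ∧
      (∀ C ∈ F, C ⊆ D ∧ ∀ u ∈ C, ∃ z ∈ P, tau n < inner ℝ z u) ∧
      Real.exp (-((AA + 1) * Y0 n)) ≤ ∏ C ∈ F, piC q C ∧
      (∀ u ∈ D, ∏ C ∈ F.filter (fun C => u ∈ C), (piC q C)⁻¹ ≤ Real.exp (RR n)) := by
  have hPR : ∀ z ∈ P, InR n z := hP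
  have hs0 := hnum.s_pos
  have hq0 := facts.q_pos
  have hq1 := facts.q_le
  have hPY : (P.card : ℝ) ≤ Y0 n := by
    have h0 : 0 ∈ Finset.range (JJ n) := Finset.mem_range.2 (by have := hnum.JJ_pos; omega)
    have h1 := Finset.single_le_sum (f := fun j => ((P.filter (fun z => ‖z‖ ≤ rj n j)).card : ℝ))
      (fun j _ => by positivity) h0
    have h2 : P.filter (fun z => ‖z‖ ≤ rj n 0) = P := by
      rw [Finset.filter_eq_self]
      intro z hz
      have : rj n 0 = rho n := by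
        unfold rj
        simp
      rw [this]
      exact (hP z hz).2
    simp only [h2] at h1
    linarith
  obtain ⟨C0, hC0Cr, hsep, hmax⟩ := exists_sep
    (P.filter fun z => r0 n ≤ (P.filter fun z' => ‖z - z'‖ < rho0 n).card) (SS n)
  have hC0 : C0 ⊆ P := hC0Cr.trans (Finset.filter_subset _ _)
  obtain ⟨P', hP'def⟩ : ∃ P', P' = P.filter fun b => ∀ c ∈ C0, ss n < ‖b - c‖ ^ 2 := ⟨_, rfl⟩
  have hP' : P' ⊆ P := by
    rw [hP'def]
    exact Finset.filter_subset _ _
  have hnc : ∀ b ∈ P', (P.filter fun z' => ‖b - z'‖ < rho0 n).card < r0 n := by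
    intro b hb
    by_contra hcon
    have hcon' := not_lt.1 hcon
    rw [hP'def, Finset.mem_filter] at hb
    by_cases hbC : b ∈ C0
    · have := hb.2 b hbC
      rw [sub_self, norm_zero] at this
      norm_num at this
      linarith
    · obtain ⟨c, hc, hlt⟩ := hmax b (Finset.mem_filter.2 ⟨hb.1, hcon'⟩) hbC
      have h2 := hb.2 c hc
      have h3 : ‖b - c‖ ^ 2 < SS n ^ 2 := pow_lt_pow_left₀ hlt (norm_nonneg _) (by norm_num)
      rw [SS_sq] at h3
      linarith
  have hE := fun {c : EE n} (hc : c ∈ C0) =>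
    ecl_pi (D := D) facts hnum hPR hC0 hsep hPY hc
  have hS := fun {b : EE n} (hb : b ∈ P') =>
    csg_pi (D := D) facts hnum hPR hC0 hP' hPY hb
  have hAA := AA_ge
  refine ⟨C0.image (Ecl D P C0) ∪ P'.image (Csg D C0 P'), ?_, ?_, ?_, ?_⟩
  · intro z hz
    by_cases hcl : ∃ c ∈ C0, ‖z - c‖ ^ 2 ≤ ss n
    · obtain ⟨c, hc, hzc⟩ := hcl
      refine ⟨Ecl D P C0 c, Finset.mem_union_left _ (Finset.mem_image_of_mem _ hc), ?_⟩
      intro u hu
      unfold Ecl at hu
      rw [Finset.mem_filter] at hu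
      exact hu.2.2 z hz hzc
    · have hz' : z ∈ P' := by
        rw [hP'def]
        refine Finset.mem_filter.2 ⟨hz, fun c hc => ?_⟩
        by_contra hcon
        exact hcl ⟨c, hc, not_lt.1 hcon⟩
      refine ⟨Csg D C0 P' z, Finset.mem_union_right _ (Finset.mem_image_of_mem _ hz'), ?_⟩
      intro u hu
      exact (Csg_sub hu).2
  · intro C hC
    rw [Finset.mem_union, Finset.mem_image, Finset.mem_image] at hC
    rcases hC with ⟨c, hc, rfl⟩ | ⟨b, hb, rfl⟩
    · refine ⟨fun u hu => (Ecl_sub hu).1, fun u hu => ⟨c, hC0 hc, ?_⟩⟩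
      have h1 := (Ecl_sub hu).2
      have h2 : Tg n = tau n + 2 * ss n := rfl
      linarith
    · exact ⟨fun u hu => (Csg_sub hu).1, fun u hu => ⟨b, hP' hb, (Csg_sub hu).2⟩⟩
  · have h0 : ∀ C : Finset (EE n), 0 ≤ piC q C := piC_nonneg hq0 hq1
    have h1 : ∀ C : Finset (EE n), piC q C ≤ 1 := piC_le_one hq0 hq1
    have h2 := prod_union_ge (C0.image (Ecl D P C0)) (P'.image (Csg D C0 P')) (piC q) h0 h1
    have h3 := prod_image_ge C0 (Ecl D P C0) (piC q) h0 h1
    have h4 := prod_image_ge P' (Csg D C0 P') (piC q) h0 h1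
    have h5 : Real.exp (-(r0 n : ℝ)) ^ C0.card ≤ ∏ c ∈ C0, piC q (Ecl D P C0 c) := by
      rw [← Finset.prod_const]
      exact Finset.prod_le_prod (fun _ _ => (Real.exp_pos _).le) fun c hc => hE hc
    have h6 : ∏ b ∈ P', Real.exp (-(AA * (cnt n b : ℝ))) ≤ ∏ b ∈ P', piC q (Csg D C0 P' b) :=
      Finset.prod_le_prod (fun _ _ => (Real.exp_pos _).le) fun b hb => hS hb
    rw [← Real.exp_sum] at h6
    rw [← Real.exp_nat_mul] at h5
    have h7 : (C0.card : ℝ) * (r0 n : ℝ) ≤ Y0 n := by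
      have h8 := card_mul_le P C0 (SS n) (rho0 n) (r0 n) (by unfold rho0; linarith) hsep
        (fun c hc => (Finset.mem_filter.1 (hC0Cr hc)).2)
      have h9 : (C0.card : ℝ) * (r0 n : ℝ) ≤ P.card := by exact_mod_cast h8
      linarith
    have h8 : ∑ b ∈ P', (cnt n b : ℝ) ≤ Y0 n := by
      have h9 : ∑ b ∈ P', (cnt n b : ℝ) ≤ ∑ b ∈ P, (cnt n b : ℝ) :=
        Finset.sum_le_sum_of_subset_of_nonneg hP' fun _ _ _ => by positivity
      rw [sum_cnt P] at h9
      linarith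
    have h9 : Real.exp (-((AA + 1) * Y0 n))
        ≤ Real.exp (C0.card * -(r0 n : ℝ)) * Real.exp (∑ b ∈ P', -(AA * (cnt n b : ℝ))) := by
      rw [← Real.exp_add]
      apply Real.exp_le_exp.2
      have e : ∑ b ∈ P', -(AA * (cnt n b : ℝ)) = -(AA * ∑ b ∈ P', (cnt n b : ℝ)) := by
        rw [Finset.sum_neg_distrib, Finset.mul_sum]
      rw [e]
      have h10 := mul_le_mul_of_nonneg_left h8 (by linarith : (0 : ℝ) ≤ AA)
      nlinarith
    calc Real.exp (-((AA + 1) * Y0 n))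
        ≤ Real.exp (C0.card * -(r0 n : ℝ)) * Real.exp (∑ b ∈ P', -(AA * (cnt n b : ℝ))) := h9
      _ ≤ (∏ c ∈ C0, piC q (Ecl D P C0 c)) * ∏ b ∈ P', piC q (Csg D C0 P' b) :=
        mul_le_mul h5 h6 (Real.exp_pos _).le (Finset.prod_nonneg fun _ _ => h0 _)
      _ ≤ (∏ C ∈ C0.image (Ecl D P C0), piC q C) * ∏ C ∈ P'.image (Csg D C0 P'), piC q C :=
        mul_le_mul h3 h4 (Finset.prod_nonneg fun _ _ => h0 _) (Finset.prod_nonneg fun _ _ => h0 _)
      _ ≤ _ := h2
  · intro u _hu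
    have hcmax : 1 ≤ cmax n := by
      unfold cmax
      have : (1 : ℝ) ≤ JJ n := by exact_mod_cast hnum.JJ_pos
      nlinarith
    have hr0 : (0 : ℝ) ≤ r0 n := by positivity
    have hpos : ∀ C ∈ (C0.image (Ecl D P C0) ∪ P'.image (Csg D C0 P')).filter (fun C => u ∈ C),
        0 ≤ (piC q C)⁻¹ := fun C _ => inv_nonneg.2 (piC_nonneg hq0 hq1 C)
    by_cases hcl : ∃ c ∈ C0, u ∈ Ecl D P C0 c
    · obtain ⟨c, hc, huc⟩ := hcl
      have hX : (C0.image (Ecl D P C0) ∪ P'.image (Csg D C0 P')).filter (fun C => u ∈ C)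
          ⊆ {Ecl D P C0 c} := by
        intro C hC
        rw [Finset.mem_filter, Finset.mem_union, Finset.mem_image, Finset.mem_image] at hC
        rcases hC with ⟨⟨c', hc', rfl⟩ | ⟨b, hb, rfl⟩, huC⟩
        · by_cases hne : c' = c
          · rw [hne]
            exact Finset.mem_singleton_self _
          · exfalso
            have h1 := Ecl_sub huC
            unfold Ecl at huc
            rw [Finset.mem_filter] at huc
            exact huc.2.1 c' hc' hne h1.2
        · exfalso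
          unfold Csg at huC
          rw [Finset.mem_filter] at huC
          exact huC.2.1 c hc (Ecl_sub huc).2
      have h2 : ∀ C ∈ (C0.image (Ecl D P C0) ∪ P'.image (Csg D C0 P')).filter (fun C => u ∈ C),
          (piC q C)⁻¹ ≤ Real.exp (r0 n : ℝ) := by
        intro C hC
        have h3 := hX hC
        rw [Finset.mem_singleton] at h3
        rw [h3]
        exact inv_le_exp (hE hc)
      have h3 := prod_le_pow_of_le _ (fun C => (piC q C)⁻¹) (Real.exp (r0 n : ℝ)) 1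
        (Real.one_le_exp hr0) hpos h2 (by simpa using Finset.card_le_card hX)
      rw [pow_one] at h3
      refine h3.trans (Real.exp_le_exp.2 ?_)
      unfold RR
      nlinarith
    · have hsub : (C0.image (Ecl D P C0) ∪ P'.image (Csg D C0 P')).filter (fun C => u ∈ C)
          ⊆ (P'.filter fun b => u ∈ Csg D C0 P' b).image (Csg D C0 P') := by
        intro C hC
        rw [Finset.mem_filter, Finset.mem_union, Finset.mem_image, Finset.mem_image] at hC
        rcases hC with ⟨⟨c', hc', rfl⟩ | ⟨b, hb, rfl⟩, huC⟩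
        · exact absurd ⟨c', hc', huC⟩ hcl
        · exact Finset.mem_image_of_mem _ (Finset.mem_filter.2 ⟨hb, huC⟩)
      have hcard : (P'.filter fun b => u ∈ Csg D C0 P' b).card ≤ r0 n := by
        rcases (P'.filter fun b => u ∈ Csg D C0 P' b).eq_empty_or_nonempty with he | ⟨b0, hb0⟩
        · rw [he]
          simp
        · rw [Finset.mem_filter] at hb0
          have hsub2 : (P'.filter fun b => u ∈ Csg D C0 P' b)
              ⊆ P.filter (fun z' => ‖b0 - z'‖ < rho0 n) := by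
            intro b hb
            rw [Finset.mem_filter] at hb ⊢
            refine ⟨hP' hb.1, ?_⟩
            by_contra hcon
            have h4 := hb0.2
            unfold Csg at h4
            rw [Finset.mem_filter] at h4
            exact h4.2.2 b hb.1 (not_lt.1 hcon) (Csg_sub hb.2).2
          exact (Finset.card_le_card hsub2).trans (hnc b0 hb0.1).le
      have hXcard : ((C0.image (Ecl D P C0) ∪ P'.image (Csg D C0 P')).filter
          (fun C => u ∈ C)).card ≤ r0 n :=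
        (Finset.card_le_card hsub).trans (Finset.card_image_le.trans hcard)
      have h2 : ∀ C ∈ (C0.image (Ecl D P C0) ∪ P'.image (Csg D C0 P')).filter (fun C => u ∈ C),
          (piC q C)⁻¹ ≤ Real.exp (cmax n) := by
        intro C hC
        have h3 := hsub hC
        rw [Finset.mem_image] at h3
        obtain ⟨b, hb, rfl⟩ := h3
        rw [Finset.mem_filter] at hb
        refine (inv_le_exp (hS hb.1)).trans (Real.exp_le_exp.2 ?_)
        unfold cmax
        have h4 : (cnt n b : ℝ) ≤ JJ n := by exact_mod_cast cnt_le b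
        exact mul_le_mul_of_nonneg_left h4 (by linarith)
      have h3 := prod_le_pow_of_le _ (fun C => (piC q C)⁻¹) (Real.exp (cmax n)) (r0 n)
        (Real.one_le_exp (by linarith)) hpos h2 hXcard
      refine h3.trans (le_of_eq ?_)
      rw [← Real.exp_nat_mul]
      rfl

end Vale.Agent.P230
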