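import Vale.Agent.P230.Engine
import Vale.Agent.P230.Items
import Vale.Agent.P230.TestSet

/-! P230: bound for a fixed candidate set `A` (blueprint section 6). -/

open MeasureTheory Metric Set Filter
open scoped BigOperators Pointwise ENNReal Classical

noncomputable section

namespace Vale.Agent.P230

open Engine

/-- Numeric hypotheses for `fixed_bound`. -/
structure FixedNum (n : ℕ) : Prop where
  items : ItemsNum n
  one_le_n : 1 ≤ n
  JJ_pos : 1 ≤ JJ n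
  M0_pos : 0 < M0 n
  mm_pos : 0 < mm n
  log_pos : 0 < Real.log n
  n_pos : (0:ℝ) < n
  Y0_nonneg : 0 ≤ Y0 n
  ell_pos : 0 < ell n
  ell_sq_le : ell n ^ 2 ≤ kappa
  rho_sq_le : rho n ^ 2 ≤ 15 / 8
  rho_pos : 0 < rho n
  tau_pos : 0 < tau n
  RR_nonneg : 0 ≤ RR n
  mu1_le : mu1 n ≤ Real.exp (-((AA + 1) * Y0 n))
  exp_pair : Real.exp (RR n) ^ 2 * ((Y0 n) ^ 2 * (2 * Real.exp (-(n * ell n ^ 2 / 16)))) ≤ 1
  exp_load : 3 * mu1 n * Real.exp (RR n) ^ 2 *
    (2 * Y0 n * ((mm n : ℝ) * (2 * delta1 n / ell n) ^ n)) ≤ 1 / 2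
  M0_le : (M0 n : ℝ) * ((mm n : ℝ) ^ 2 + 1) * ell n ^ n ≤ 1 / 4
  pack_t : ell n / 2 < tau n
  pack_r : 0 ≤ (rho n + ell n / 2) ^ 2 - (tau n - ell n / 2) ^ 2
  tau_div : tau n / rj n (JJ n) ≤ tmax
  rjJ_pos : 0 < rj n (JJ n)

lemma fx_t1_eq : t1 = 1 - kappa := rfl
lemma fx_kappa_pos : 0 < kappa := by unfold kappa; norm_num
lemma fx_kappa_le : kappa ≤ 1 / 10 ^ 7 := by unfold kappa; norm_num
lemma fx_t1_ge : (99 / 100 : ℝ) ≤ t1 := by unfold t1 kappa; norm_num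
lemma fx_t1_lt_one : t1 < 1 := by unfold t1 kappa; norm_num
lemma fx_t1_le_tmax : t1 ≤ tmax := by unfold t1 tmax kappa; norm_num
lemma fx_tau_div_rho {n : ℕ} (h : 0 < rho n) : tau n / rho n = t1 := by
  unfold tau; field_simp

/-- `q * |cap z τ| ≤ 2` for points seen from a test point. -/
lemma fx_cap_tau_le {n : ℕ} {D : Finset (EE n)} {q : ℝ} {Psi : ℝ → ℝ}
    (facts : AtomFacts n D q Psi) (hnum : FixedNum n) (z : EE n)
    (hz1 : rj n (JJ n) < ‖z‖) (hz2 : ‖z‖ ≤ rho n) :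
    q * ((cap D z (tau n)).card : ℝ) ≤ 2 := by
  have hzpos : 0 < ‖z‖ := lt_trans hnum.rjJ_pos hz1
  have hz0 : z ≠ 0 := norm_pos_iff.mp hzpos
  have ht1 : t1 ≤ tau n / ‖z‖ := by
    rw [le_div_iff₀ hzpos]
    unfold tau
    have := fx_t1_ge
    nlinarith
  have ht2 : tau n / ‖z‖ ≤ tmax := by
    refine le_trans ?_ hnum.tau_div
    exact div_le_div_of_nonneg_left hnum.tau_pos.le hnum.rjJ_pos hz1.le
  have h1 := facts.upper z (tau n) hz0 (by linarith [fx_t1_ge]) ht2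
  have hd : tau n / ‖z‖ = t1 + (tau n / ‖z‖ - t1) := by ring
  have h2 := facts.psiA t1 (tau n / ‖z‖ - t1) (by linarith [fx_t1_ge]) (by linarith) (by linarith)
  rw [← hd, facts.Psi_t1, mul_one] at h2
  have h3 : Real.exp (-(n * t1 * (tau n / ‖z‖ - t1))) ≤ 1 := by
    rw [Real.exp_le_one_iff]
    have : 0 ≤ (n : ℝ) * t1 * (tau n / ‖z‖ - t1) :=
      mul_nonneg (mul_nonneg (Nat.cast_nonneg _) (by linarith [fx_t1_ge])) (by linarith)
    linarith
  linarith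

/-- Overlap of two caps at separated points. -/
lemma fx_cap_overlap_le {n : ℕ} {D : Finset (EE n)} {q : ℝ} {Psi : ℝ → ℝ}
    (facts : AtomFacts n D q Psi) (hnum : FixedNum n) (z z' : EE n)
    (hz : ‖z‖ ≤ rho n) (hz' : ‖z'‖ ≤ rho n) (hsep : ell n ≤ ‖z - z'‖) :
    q * ((cap D z (tau n) ∩ cap D z' (tau n)).card : ℝ) ≤ 2 * Real.exp (-(n * ell n ^ 2 / 16)) := by
  set ℓ := ell n with hℓ
  have hℓ0 : 0 < ℓ := hnum.ell_pos
  set w : EE n := (1 / 2 : ℝ) • (z + z') with hw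
  have hq0 := facts.q_pos.le
  -- parallelogram
  have hwsq : ‖w‖ ^ 2 ≤ rho n ^ 2 - ℓ ^ 2 / 4 := by
    have hpar : ‖z + z'‖ ^ 2 + ‖z - z'‖ ^ 2 = 2 * (‖z‖ ^ 2 + ‖z'‖ ^ 2) := by
      have := parallelogram_law_with_norm ℝ z z'
      nlinarith
    have h1 : ‖w‖ = (1 / 2) * ‖z + z'‖ := by
      rw [hw, norm_smul]; norm_num
    have h2 : ‖z - z'‖ ^ 2 ≥ ℓ ^ 2 := by
      apply pow_le_pow_left₀ hℓ0.le hsep
    have h3 : ‖z‖ ^ 2 ≤ rho n ^ 2 := pow_le_pow_left₀ (norm_nonneg _) hz 2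
    have h4 : ‖z'‖ ^ 2 ≤ rho n ^ 2 := pow_le_pow_left₀ (norm_nonneg _) hz' 2
    rw [h1]
    nlinarith
  by_cases hw0 : w = 0
  · have : cap D z (tau n) ∩ cap D z' (tau n) = ∅ := by
      apply Finset.eq_empty_of_forall_notMem
      intro u hu
      simp only [cap, Finset.mem_inter, Finset.mem_filter] at hu
      obtain ⟨⟨_, h1⟩, ⟨_, h2⟩⟩ := hu
      have h3 : inner ℝ w u = (1 / 2 : ℝ) * (inner ℝ z u + inner ℝ z' u) := by
        rw [hw, inner_smul_left, inner_add_left]; simp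
      rw [hw0, inner_zero_left] at h3
      have h4 := hnum.tau_pos
      linarith
    rw [this]
    simp only [Finset.card_empty, Nat.cast_zero, mul_zero]
    positivity
  · have hwpos : 0 < ‖w‖ := norm_pos_iff.mpr hw0
    set a := ℓ ^ 2 / 15 with ha
    set t' := t1 * (1 + a) with ht'
    have ha0 : 0 ≤ a := by positivity
    have hκ := hnum.ell_sq_le
    have hκ' := fx_kappa_le
    have hκ0 := fx_kappa_pos
    have ha_small : a ≤ kappa / 15 := by rw [ha]; linarith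
    have ht'max : t' ≤ tmax := by
      rw [ht']
      have ht1le : t1 ≤ 1 := fx_t1_lt_one.le
      have : t1 * (1 + a) ≤ t1 + a := by nlinarith
      unfold tmax
      unfold t1 at this ⊢
      linarith
    have ht'ge : t1 ≤ t' := by
      rw [ht']
      have := fx_t1_ge
      nlinarith
    -- cap inclusion
    have hrho := hnum.rho_pos
    have hT' : t' * ‖w‖ ≤ tau n := by
      -- (t' |w|)^2 ≤ tau^2
      have h1 : (t' * ‖w‖) ^ 2 ≤ (tau n) ^ 2 := by
        have h2 : t' ^ 2 * ‖w‖ ^ 2 ≤ t' ^ 2 * (rho n ^ 2 - ℓ ^ 2 / 4) :=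
          mul_le_mul_of_nonneg_left hwsq (sq_nonneg _)
        have h3 : t' ^ 2 * (rho n ^ 2 - ℓ ^ 2 / 4) ≤ t1 ^ 2 * rho n ^ 2 := by
          have h4 : (1 + a) ^ 2 * (rho n ^ 2 - ℓ ^ 2 / 4) ≤ rho n ^ 2 := by
            have hrs := hnum.rho_sq_le
            have hℓ2 : ℓ ^ 2 = 15 * a := by rw [ha]; ring
            rw [hℓ2]
            have ha1 : a ≤ 1 := by linarith
            nlinarith [mul_nonneg ha0 ha0, mul_nonneg ha0 (sq_nonneg (rho n))]
          rw [ht']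
          have : (t1 * (1 + a)) ^ 2 * (rho n ^ 2 - ℓ ^ 2 / 4) =
              t1 ^ 2 * ((1 + a) ^ 2 * (rho n ^ 2 - ℓ ^ 2 / 4)) := by ring
          rw [this]
          exact mul_le_mul_of_nonneg_left h4 (sq_nonneg _)
        have : (t' * ‖w‖) ^ 2 = t' ^ 2 * ‖w‖ ^ 2 := by ring
        rw [this]
        have h5 : tau n ^ 2 = t1 ^ 2 * rho n ^ 2 := by unfold tau; ring
        rw [h5]
        linarith
      exact abs_le_of_sq_le_sq' h1 hnum.tau_pos.le |>.2
    have hsub : cap D z (tau n) ∩ cap D z' (tau n) ⊆ cap D w (t' * ‖w‖) := by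
      intro u hu
      simp only [cap, Finset.mem_inter, Finset.mem_filter] at hu ⊢
      refine ⟨hu.1.1, ?_⟩
      have : inner ℝ w u = (1 / 2 : ℝ) * (inner ℝ z u + inner ℝ z' u) := by
        rw [hw, inner_smul_left, inner_add_left]; simp
      rw [this]
      linarith [hu.1.2, hu.2.2]
    have hcard : ((cap D z (tau n) ∩ cap D z' (tau n)).card : ℝ) ≤ ((cap D w (t' * ‖w‖)).card : ℝ) := by
      exact_mod_cast Finset.card_le_card hsub
    have hdiv : t' * ‖w‖ / ‖w‖ = t' := by field_simp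
    have h1 := facts.upper w (t' * ‖w‖) hw0 (by rw [hdiv]; linarith [fx_t1_ge]) (by rw [hdiv]; exact ht'max)
    rw [hdiv] at h1
    have hd : t' = t1 + (t' - t1) := by ring
    have h2 := facts.psiA t1 (t' - t1) (by linarith [fx_t1_ge]) (by linarith) (by linarith)
    rw [← hd, facts.Psi_t1, mul_one] at h2
    have h3 : Real.exp (-(n * t1 * (t' - t1))) ≤ Real.exp (-(n * ℓ ^ 2 / 16)) := by
      apply Real.exp_le_exp.mpr
      have hn : (0:ℝ) ≤ n := Nat.cast_nonneg _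
      have : ℓ ^ 2 / 16 ≤ t1 * (t' - t1) := by
        rw [ht']
        have h5 : t1 ≥ 99 / 100 := fx_t1_ge
        have : t1 * (t1 * (1 + a) - t1) = t1 ^ 2 * a := by ring
        rw [this]
        have hℓ2 : ℓ ^ 2 = 15 * a := by rw [ha]; ring
        rw [hℓ2]
        have h6 : t1 ^ 2 ≥ 15 / 16 := by nlinarith
        have h7 : t1 ^ 2 * a ≥ (15 / 16) * a := mul_le_mul_of_nonneg_right h6 ha0
        linarith
      have := mul_le_mul_of_nonneg_left this hn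
      nlinarith
    calc q * ((cap D z (tau n) ∩ cap D z' (tau n)).card : ℝ)
        ≤ q * ((cap D w (t' * ‖w‖)).card : ℝ) := mul_le_mul_of_nonneg_left hcard hq0
      _ ≤ 2 * Psi t' := h1
      _ ≤ 2 * Real.exp (-(n * ℓ ^ 2 / 16)) := by linarith

/-! ### measurability of the good set -/

lemma fx_GG_measurable (n : ℕ) (A : Finset (EE n)) : MeasurableSet (GG n A) := by
  have hcard : ∀ r : ℝ, Measurable (fun x : EE n => ((A.filter (fun a => ‖x - a‖ ≤ r)).card : ℝ)) := by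
    intro r
    have : (fun x : EE n => ((A.filter (fun a => ‖x - a‖ ≤ r)).card : ℝ)) =
        fun x => ∑ a ∈ A, (if ‖x - a‖ ≤ r then (1 : ℝ) else 0) := by
      funext x
      rw [Finset.card_filter]
      push_cast
      rfl
    rw [this]
    refine Finset.measurable_sum _ ?_
    intro a _
    refine Measurable.ite ?_ measurable_const measurable_const
    exact measurableSet_le (continuous_norm.comp (continuous_id.sub continuous_const)).measurable
      measurable_const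
  have h1 : MeasurableSet {x : EE n | ‖x‖ ≤ 1} :=
    measurableSet_le continuous_norm.measurable measurable_const
  have h2 : MeasurableSet {x : EE n | ∑ j ∈ Finset.range (JJ n),
      ((A.filter (fun a => ‖x - a‖ ≤ rj n j)).card : ℝ) ≤ Y0 n} := by
    refine measurableSet_le ?_ measurable_const
    exact Finset.measurable_sum _ (fun j _ => hcard _)
  have h3 : MeasurableSet {x : EE n | ∀ a ∈ A, rj n (JJ n) < ‖x - a‖} := by
    have : {x : EE n | ∀ a ∈ A, rj n (JJ n) < ‖x - a‖} =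
        ⋂ a ∈ A, {x : EE n | rj n (JJ n) < ‖x - a‖} := by
      ext x; simp
    rw [this]
    refine Finset.measurableSet_biInter _ ?_
    intro a _
    exact measurableSet_lt measurable_const
      (continuous_norm.comp (continuous_id.sub continuous_const)).measurable
  have : GG n A = {x : EE n | ‖x‖ ≤ 1} ∩ ({x : EE n | ∑ j ∈ Finset.range (JJ n),
      ((A.filter (fun a => ‖x - a‖ ≤ rj n j)).card : ℝ) ≤ Y0 n} ∩
      {x : EE n | ∀ a ∈ A, rj n (JJ n) < ‖x - a‖}) := by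
    ext x; simp [GG]
  rw [this]
  exact h1.inter (h2.inter h3)

/-- The points seen from a test point. -/
def seen (n : ℕ) (A : Finset (EE n)) (x : EE n) : Finset (EE n) :=
  (A.filter (fun a => ‖x - a‖ ≤ rho n)).image (fun a => x - a)

lemma fx_mem_seen {n : ℕ} {A : Finset (EE n)} {x z : EE n} :
    z ∈ seen n A x ↔ ∃ a ∈ A, ‖x - a‖ ≤ rho n ∧ x - a = z := by
  simp only [seen, Finset.mem_image, Finset.mem_filter]
  constructor
  · rintro ⟨a, ⟨h1, h2⟩, h3⟩; exact ⟨a, h1, h2, h3⟩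
  · rintro ⟨a, h1, h2, h3⟩; exact ⟨a, ⟨h1, h2⟩, h3⟩

lemma fx_rj_zero {n : ℕ} : rj n 0 = rho n := by simp [rj]

lemma fx_seen_filter_card {n : ℕ} (A : Finset (EE n)) (x : EE n) (r : ℝ) :
    (((seen n A x).filter (fun z => ‖z‖ ≤ r)).card : ℝ) ≤
      ((A.filter (fun a => ‖x - a‖ ≤ r)).card : ℝ) := by
  have hsub : (seen n A x).filter (fun z => ‖z‖ ≤ r) ⊆
      (A.filter (fun a => ‖x - a‖ ≤ r)).image (fun a => x - a) := by
    intro z hz
    simp only [Finset.mem_filter] at hz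
    obtain ⟨a, ha, _, rfl⟩ := fx_mem_seen.mp hz.1
    exact Finset.mem_image.mpr ⟨a, Finset.mem_filter.mpr ⟨ha, hz.2⟩, rfl⟩
  exact_mod_cast (Finset.card_le_card hsub).trans Finset.card_image_le

lemma fx_seen_card_le {n : ℕ} (hnum : FixedNum n) (A : Finset (EE n)) (x : EE n)
    (hx : x ∈ GG n A) : ((seen n A x).card : ℝ) ≤ Y0 n := by
  have h0 : ((seen n A x).card : ℝ) ≤ ((A.filter (fun a => ‖x - a‖ ≤ rj n 0)).card : ℝ) := by
    rw [fx_rj_zero]
    exact_mod_cast Finset.card_image_le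
  have h1 : ((A.filter (fun a => ‖x - a‖ ≤ rj n 0)).card : ℝ) ≤
      ∑ j ∈ Finset.range (JJ n), ((A.filter (fun a => ‖x - a‖ ≤ rj n j)).card : ℝ) :=
    Finset.single_le_sum (f := fun j => ((A.filter (fun a => ‖x - a‖ ≤ rj n j)).card : ℝ))
      (fun j _ => Nat.cast_nonneg _) (Finset.mem_range.mpr hnum.JJ_pos)
  exact h0.trans (h1.trans hx.2.1)

lemma fx_exp_bound_pow {μ : ℝ} (h2 : μ ≤ 2) (M : ℕ) :
    (1 - μ / 2) ^ M ≤ Real.exp (-(M * (μ / 2))) := by
  have h : 1 - μ / 2 ≤ Real.exp (-(μ / 2)) := by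
    have := Real.add_one_le_exp (-(μ / 2))
    linarith
  calc (1 - μ / 2) ^ M ≤ Real.exp (-(μ / 2)) ^ M :=
        pow_le_pow_left₀ (by linarith) h M
    _ = Real.exp (-(M * (μ / 2))) := by
        rw [← Real.exp_nat_mul]
        congr 1
        ring

/-- q-mass of the union of a family whose atoms are all seen. -/
lemma fx_un_mass_le {n : ℕ} {D : Finset (EE n)} {q : ℝ} {Psi : ℝ → ℝ}
    (facts : AtomFacts n D q Psi) (hnum : FixedNum n) (P : Finset (EE n))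
    (hP : ∀ z ∈ P, rj n (JJ n) < ‖z‖ ∧ ‖z‖ ≤ rho n) (U : Finset (EE n))
    (hU : ∀ u ∈ U, u ∈ D ∧ ∃ z ∈ P, tau n < inner ℝ z u) :
    q * (U.card : ℝ) ≤ 2 * (P.card : ℝ) := by
  have hsub : U ⊆ P.biUnion (fun z => cap D z (tau n)) := by
    intro u hu
    obtain ⟨h1, z, hz, h2⟩ := hU u hu
    exact Finset.mem_biUnion.mpr ⟨z, hz, Finset.mem_filter.mpr ⟨h1, h2⟩⟩
  have hcard : (U.card : ℝ) ≤ ∑ z ∈ P, ((cap D z (tau n)).card : ℝ) := by
    exact_mod_cast (Finset.card_le_card hsub).trans Finset.card_biUnion_le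
  calc q * (U.card : ℝ) ≤ q * ∑ z ∈ P, ((cap D z (tau n)).card : ℝ) :=
        mul_le_mul_of_nonneg_left hcard facts.q_pos.le
    _ = ∑ z ∈ P, q * ((cap D z (tau n)).card : ℝ) := Finset.mul_sum _ _ _
    _ ≤ ∑ _z ∈ P, (2 : ℝ) := Finset.sum_le_sum
        (fun z hz => fx_cap_tau_le facts hnum z (hP z hz).1 (hP z hz).2)
    _ = 2 * (P.card : ℝ) := by
        rw [Finset.sum_const, nsmul_eq_mul]; ring

/-- Overlap of two unions of seen atoms. -/
lemma fx_pair_mass_le {n : ℕ} {D : Finset (EE n)} {q : ℝ} {Psi : ℝ → ℝ}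
    (facts : AtomFacts n D q Psi) (hnum : FixedNum n) (P P' U V : Finset (EE n))
    (hU : ∀ u ∈ U, u ∈ D ∧ ∃ z ∈ P, tau n < inner ℝ z u)
    (hV : ∀ u ∈ V, u ∈ D ∧ ∃ z ∈ P', tau n < inner ℝ z u)
    (hcross : ∀ z ∈ P, ∀ z' ∈ P', ‖z‖ ≤ rho n ∧ ‖z'‖ ≤ rho n ∧ ell n ≤ ‖z - z'‖)
    (hPc : (P.card : ℝ) ≤ Y0 n) (hPc' : (P'.card : ℝ) ≤ Y0 n) :
    q * ((U ∩ V).card : ℝ) ≤ (Y0 n) ^ 2 * (2 * Real.exp (-(n * ell n ^ 2 / 16))) := by
  have hq0 := facts.q_pos.le
  have hsub : U ∩ V ⊆ P.biUnion (fun z =>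
      P'.biUnion (fun z' => cap D z (tau n) ∩ cap D z' (tau n))) := by
    intro u hu
    obtain ⟨hux, huy⟩ := Finset.mem_inter.mp hu
    obtain ⟨hD, z, hz, h1⟩ := hU u hux
    obtain ⟨_, z', hz', h2⟩ := hV u huy
    refine Finset.mem_biUnion.mpr ⟨z, hz, Finset.mem_biUnion.mpr ⟨z', hz', ?_⟩⟩
    exact Finset.mem_inter.mpr ⟨Finset.mem_filter.mpr ⟨hD, h1⟩, Finset.mem_filter.mpr ⟨hD, h2⟩⟩
  have hcard : ((U ∩ V).card : ℝ) ≤
      ∑ z ∈ P, ∑ z' ∈ P', ((cap D z (tau n) ∩ cap D z' (tau n)).card : ℝ) := by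
    have h1 := Finset.card_le_card hsub
    have h2 : (P.biUnion (fun z =>
      P'.biUnion (fun z' => cap D z (tau n) ∩ cap D z' (tau n)))).card ≤
        ∑ z ∈ P, ∑ z' ∈ P', (cap D z (tau n) ∩ cap D z' (tau n)).card :=
      Finset.card_biUnion_le.trans (Finset.sum_le_sum (fun z _ => Finset.card_biUnion_le))
    exact_mod_cast h1.trans h2
  have hE : 0 ≤ 2 * Real.exp (-(n * ell n ^ 2 / 16)) := by positivity
  have hY := hnum.Y0_nonneg
  calc q * ((U ∩ V).card : ℝ)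
      ≤ q * ∑ z ∈ P, ∑ z' ∈ P', ((cap D z (tau n) ∩ cap D z' (tau n)).card : ℝ) :=
        mul_le_mul_of_nonneg_left hcard hq0
    _ = ∑ z ∈ P, ∑ z' ∈ P', q * ((cap D z (tau n) ∩ cap D z' (tau n)).card : ℝ) := by
        rw [Finset.mul_sum]
        refine Finset.sum_congr rfl (fun z _ => ?_)
        rw [Finset.mul_sum]
    _ ≤ ∑ _z ∈ P, ∑ _z' ∈ P', (2 * Real.exp (-(n * ell n ^ 2 / 16))) := by
        refine Finset.sum_le_sum (fun z hz => Finset.sum_le_sum (fun z' hz' => ?_))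
        obtain ⟨h1, h2, h3⟩ := hcross z hz z' hz'
        exact fx_cap_overlap_le facts hnum _ _ h1 h2 h3
    _ = (P.card : ℝ) * ((P'.card : ℝ) * (2 * Real.exp (-(n * ell n ^ 2 / 16)))) := by
        simp only [Finset.sum_const, nsmul_eq_mul]
    _ ≤ Y0 n * (Y0 n * (2 * Real.exp (-(n * ell n ^ 2 / 16)))) := by
        have h3 : (P'.card : ℝ) * (2 * Real.exp (-(n * ell n ^ 2 / 16))) ≤
            Y0 n * (2 * Real.exp (-(n * ell n ^ 2 / 16))) :=
          mul_le_mul_of_nonneg_right hPc' hE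
        exact mul_le_mul hPc h3 (by positivity) hY
    _ = (Y0 n) ^ 2 * (2 * Real.exp (-(n * ell n ^ 2 / 16))) := by ring

/-- Multiplicity of an atom among the test points. -/
lemma fx_mult_le {n : ℕ} (hnum : FixedNum n) (A T : Finset (EE n)) (hA : A.card ≤ mm n)
    (hsep : ∀ x ∈ T, ∀ y ∈ T, x ≠ y → ell n ≤ ‖x - y‖)
    (W : EE n → Finset (EE n)) (u : EE n) (hu : ‖u‖ ≤ 1)
    (hW : ∀ y ∈ T, u ∈ W y → ∃ z ∈ seen n A y, tau n < inner ℝ z u) :
    ((T.filter (fun y => u ∈ W y)).card : ℝ) ≤ (mm n : ℝ) * (2 * delta1 n / ell n) ^ n := by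
  have hsub : T.filter (fun y => u ∈ W y) ⊆ A.biUnion (fun b =>
      T.filter (fun y => ‖y - b‖ ≤ rho n ∧ tau n < inner ℝ (y - b) u)) := by
    intro y hy
    obtain ⟨hyT, hy2⟩ := Finset.mem_filter.mp hy
    obtain ⟨z, hz, h1⟩ := hW y hyT hy2
    obtain ⟨b, hb, h2, rfl⟩ := fx_mem_seen.mp hz
    exact Finset.mem_biUnion.mpr ⟨b, hb, Finset.mem_filter.mpr ⟨hyT, h2, h1⟩⟩
  have hc1 : ((T.filter (fun y => u ∈ W y)).card : ℝ) ≤
      ∑ b ∈ A, ((T.filter (fun y => ‖y - b‖ ≤ rho n ∧ tau n < inner ℝ (y - b) u)).card : ℝ) := by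
    exact_mod_cast (Finset.card_le_card hsub).trans Finset.card_biUnion_le
  have hc2 : ∀ b ∈ A, ((T.filter (fun y => ‖y - b‖ ≤ rho n ∧ tau n < inner ℝ (y - b) u)).card : ℝ) ≤
      (2 * delta1 n / ell n) ^ n := by
    intro b _
    exact packing hnum.one_le_n T (ell n) hnum.ell_pos hsep b u hu (rho n) (tau n)
      hnum.pack_t hnum.pack_r
  have hdpos : 0 ≤ (2 * delta1 n / ell n) ^ n := by
    have : 0 ≤ delta1 n := Real.sqrt_nonneg _
    have := hnum.ell_pos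
    positivity
  calc ((T.filter (fun y => u ∈ W y)).card : ℝ)
      ≤ ∑ b ∈ A, ((T.filter (fun y => ‖y - b‖ ≤ rho n ∧ tau n < inner ℝ (y - b) u)).card : ℝ) := hc1
    _ ≤ ∑ _b ∈ A, (2 * delta1 n / ell n) ^ n := Finset.sum_le_sum hc2
    _ = (A.card : ℝ) * (2 * delta1 n / ell n) ^ n := by
        rw [Finset.sum_const, nsmul_eq_mul]
    _ ≤ (mm n : ℝ) * (2 * delta1 n / ell n) ^ n :=
        mul_le_mul_of_nonneg_right (by exact_mod_cast hA) hdpos

/-- Summing overlaps over test points. -/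
lemma fx_load_le {n : ℕ} {q : ℝ} (hq0 : 0 ≤ q) (T : Finset (EE n)) (x : EE n)
    (U : Finset (EE n)) (W : EE n → Finset (EE n)) (B Y : ℝ) (hB0 : 0 ≤ B)
    (hU : q * (U.card : ℝ) ≤ Y)
    (hB : ∀ u ∈ U, ((T.filter (fun y => u ∈ W y)).card : ℝ) ≤ B) :
    ∑ y ∈ T.erase x, (q * ((U ∩ W y).card : ℝ)) ≤ Y * B := by
  have hswap : ∑ y ∈ T.erase x, ((U ∩ W y).card : ℝ) ≤
      ∑ u ∈ U, ((T.filter (fun y => u ∈ W y)).card : ℝ) := by
    have h1 : ∀ y ∈ T.erase x, ((U ∩ W y).card : ℝ) =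
        ∑ u ∈ U, (if u ∈ W y then (1 : ℝ) else 0) := by
      intro y _
      rw [← Finset.filter_mem_eq_inter, Finset.card_filter]
      push_cast
      rfl
    rw [Finset.sum_congr rfl h1, Finset.sum_comm]
    refine Finset.sum_le_sum (fun u _ => ?_)
    have h2 : ∑ y ∈ T.erase x, (if u ∈ W y then (1 : ℝ) else 0) ≤
        ∑ y ∈ T, (if u ∈ W y then (1 : ℝ) else 0) :=
      Finset.sum_le_sum_of_subset_of_nonneg (Finset.erase_subset _ _)
        (fun y _ _ => by split_ifs <;> norm_num)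
    refine h2.trans (le_of_eq ?_)
    rw [Finset.card_filter]
    push_cast
    rfl
  calc ∑ y ∈ T.erase x, (q * ((U ∩ W y).card : ℝ))
      = q * ∑ y ∈ T.erase x, ((U ∩ W y).card : ℝ) := (Finset.mul_sum _ _ _).symm
    _ ≤ q * ∑ u ∈ U, ((T.filter (fun y => u ∈ W y)).card : ℝ) :=
        mul_le_mul_of_nonneg_left hswap hq0
    _ ≤ q * ∑ _u ∈ U, B :=
        mul_le_mul_of_nonneg_left (Finset.sum_le_sum hB) hq0
    _ = q * (U.card : ℝ) * B := by
        rw [Finset.sum_const, nsmul_eq_mul]; ring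
    _ ≤ Y * B := mul_le_mul_of_nonneg_right hU hB0

lemma fx_mu1_pos {n : ℕ} (hnum : FixedNum n) : 0 < mu1 n := by
  have hn0 := hnum.n_pos
  have hM0 : (0 : ℝ) < M0 n := by exact_mod_cast hnum.M0_pos
  have hmm : (0 : ℝ) < mm n := by exact_mod_cast hnum.mm_pos
  have hlog := hnum.log_pos
  unfold mu1
  positivity

lemma fx_mu1_le_one {n : ℕ} (hnum : FixedNum n) : mu1 n ≤ 1 := by
  have hAA : 0 < AA := by
    unfold AA
    have := fx_kappa_pos
    positivity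
  refine hnum.mu1_le.trans ?_
  rw [Real.exp_le_one_iff]
  have : 0 ≤ (AA + 1) * Y0 n := mul_nonneg (by linarith) hnum.Y0_nonneg
  linarith

lemma fx_final_exp {n : ℕ} (hnum : FixedNum n) :
    (1 - mu1 n / 2) ^ (M0 n) ≤ Real.exp (-(7 * mm n * n * Real.log n)) := by
  have hM0 : (0 : ℝ) < M0 n := by exact_mod_cast hnum.M0_pos
  have := fx_mu1_le_one hnum
  refine (fx_exp_bound_pow (by linarith) (M0 n)).trans (le_of_eq ?_)
  congr 2
  unfold mu1
  field_simp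
  ring

lemma fx_HAll_exists {α : Type*} {F : Finset (Finset α)} {S C : Finset α} (h : HAll F S) (hC : C ∈ F) :
    ∃ u, u ∈ S ∧ u ∈ C := by
  obtain ⟨u, hu⟩ := h C hC
  exact ⟨u, (Finset.mem_inter.mp hu).1, (Finset.mem_inter.mp hu).2⟩

/-- Holes: if no item family is hit then ... (pointwise comparison). -/
lemma fx_hole_of_hit {n : ℕ} (A T : Finset (EE n)) (F : EE n → Finset (Finset (EE n))) (S : Finset (EE n))
    (hF1 : ∀ y ∈ T, ∀ z ∈ seen n A y, ∃ C ∈ F y, ∀ u ∈ C, tau n < inner ℝ z u)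
    (h : ∀ x ∈ T, ∃ a ∈ A, x - a ∈ KP n S) : ∀ y ∈ T, ¬ HAll (F y) S := by
  intro y hy hall
  obtain ⟨a, ha, hK⟩ := h y hy
  have hz : y - a ∈ seen n A y := fx_mem_seen.mpr ⟨a, ha, hK.1, rfl⟩
  obtain ⟨C, hC, hCu⟩ := hF1 y hy _ hz
  obtain ⟨u, hu1, hu2⟩ := fx_HAll_exists hall hC
  have h1 := hCu u hu2
  have h2 := hK.2 u hu1
  linarith

lemma fx_mem_Un_iff {α : Type*} {F : Finset (Finset α)} {u : α} : u ∈ Un F ↔ ∃ C ∈ F, u ∈ C := by
  unfold Un
  simp [Finset.mem_biUnion]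

/-- Atoms of the union of an item family. -/
lemma fx_mem_Un_props {n : ℕ} {D P : Finset (EE n)} (F : Finset (Finset (EE n)))
    (hF2 : ∀ C ∈ F, C ⊆ D ∧ ∀ u ∈ C, ∃ z ∈ P, tau n < inner ℝ z u) :
    ∀ u ∈ Un F, u ∈ D ∧ ∃ z ∈ P, tau n < inner ℝ z u := by
  intro u hu
  obtain ⟨C, hC, huC⟩ := fx_mem_Un_iff.mp hu
  have h := hF2 C hC
  exact ⟨h.1 huC, h.2 u huC⟩

/-- The items for one test point. -/
lemma fx_items_at {n : ℕ} {D : Finset (EE n)} {q : ℝ} {Psi : ℝ → ℝ}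
    (facts : AtomFacts n D q Psi) (hnum : FixedNum n) (A : Finset (EE n)) (x : EE n)
    (hx : x ∈ GG n A) :
    ∃ F : Finset (Finset (EE n)),
      (∀ z ∈ seen n A x, ∃ C ∈ F, ∀ u ∈ C, tau n < inner ℝ z u) ∧
      (∀ C ∈ F, C ⊆ D ∧ ∀ u ∈ C, ∃ z ∈ seen n A x, tau n < inner ℝ z u) ∧
      Real.exp (-((AA + 1) * Y0 n)) ≤ ∏ C ∈ F, piC q C ∧
      (∀ u ∈ D, ∏ C ∈ F.filter (fun C => u ∈ C), (piC q C)⁻¹ ≤ Real.exp (RR n)) := by
  refine exists_items facts hnum.items (seen n A x) ?_ ?_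
  · intro z hz
    obtain ⟨a, ha, h1, rfl⟩ := fx_mem_seen.mp hz
    exact ⟨hx.2.2 a ha, h1⟩
  · refine le_trans (Finset.sum_le_sum (fun j _ => fx_seen_filter_card A x (rj n j))) ?_
    exact hx.2.1

lemma fx_filter_irrel {α : Type*} (s : Finset α) (p : α → Prop) (i1 i2 : DecidablePred p) :
    @Finset.filter α p i1 s = @Finset.filter α p i2 s := by
  have : i1 = i2 := Subsingleton.elim _ _
  rw [this]

lemma fx_inter_irrel {α : Type*} (U V : Finset α) (i1 i2 : DecidableEq α) :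
    @Inter.inter _ (@Finset.instInter α i1) U V = @Inter.inter _ (@Finset.instInter α i2) U V := by
  have : i1 = i2 := Subsingleton.elim _ _
  rw [this]

lemma fx_erase_irrel {α : Type*} (T : Finset α) (x : α) (i1 i2 : DecidableEq α) :
    @Finset.erase α i1 T x = @Finset.erase α i2 T x := by
  have : i1 = i2 := Subsingleton.elim _ _
  rw [this]

theorem fixed_bound {n : ℕ} {D : Finset (EE n)} {q : ℝ} {Psi : ℝ → ℝ}
    (facts : AtomFacts n D q Psi) (hnum : FixedNum n)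
    (A : Finset (EE n)) (hA : A.card ≤ mm n)
    (hgood : volume (closedBall (0 : EE n) 1) / 2 ≤ volume (GG n A)) :
    ∃ T : Finset (EE n), (T : Set (EE n)) ⊆ closedBall 0 1 ∧
      Ex D q (fun S => ind (∀ x ∈ T, ∃ a ∈ A, x - a ∈ KP n S)) ≤
        Real.exp (-(7 * mm n * n * Real.log n)) := by
  obtain ⟨T, hTcard, hTsub, hTsep⟩ := exists_testset (GG n A) (fx_GG_measurable n A) hgood A
    (mm n) (M0 n) hA (ell n) hnum.ell_pos hnum.M0_le
  have hTG : ∀ x ∈ T, x ∈ GG n A := fun x hx => hTsub (by exact_mod_cast hx)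
  have hex := fun x (hx : x ∈ T) => fx_items_at facts hnum A x (hTG x hx)
  choose! F hF1 hF2 hF3 hF4 using hex
  have hq0 : 0 ≤ q := facts.q_pos.le
  have hq1 : q ≤ 1 := by have := facts.q_le; linarith
  have hUn : ∀ x ∈ T, ∀ u ∈ Un (F x), u ∈ D ∧ ∃ z ∈ seen n A x, tau n < inner ℝ z u :=
    fun x hx => fx_mem_Un_props (F x) (hF2 x hx)
  have hcardP : ∀ x ∈ T, ((seen n A x).card : ℝ) ≤ Y0 n :=
    fun x hx => fx_seen_card_le hnum A x (hTG x hx)
  have hrange : ∀ x ∈ T, ∀ z ∈ seen n A x, rj n (JJ n) < ‖z‖ ∧ ‖z‖ ≤ rho n := by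
    intro x hx z hz
    obtain ⟨a, ha, h1, rfl⟩ := fx_mem_seen.mp hz
    exact ⟨(hTG x hx).2.2 a ha, h1⟩
  have hpairmass : ∀ x ∈ T, ∀ y ∈ T, x ≠ y →
      q * ((Un (F x) ∩ Un (F y)).card : ℝ) ≤
        (Y0 n) ^ 2 * (2 * Real.exp (-(n * ell n ^ 2 / 16))) := by
    intro x hx y hy hxy
    refine fx_pair_mass_le facts hnum (seen n A x) (seen n A y) _ _ (hUn x hx) (hUn y hy) ?_
      (hcardP x hx) (hcardP y hy)
    intro z hz z' hz'
    obtain ⟨a, ha, h1, rfl⟩ := fx_mem_seen.mp hz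
    obtain ⟨b, hb, h2, rfl⟩ := fx_mem_seen.mp hz'
    exact ⟨h1, h2, (hTsep x hx y hy hxy).2 a ha b hb⟩
  have hloadmass : ∀ x ∈ T, ∑ y ∈ T.erase x, (q * ((Un (F x) ∩ Un (F y)).card : ℝ)) ≤
      2 * Y0 n * ((mm n : ℝ) * (2 * delta1 n / ell n) ^ n) := by
    intro x hx
    have hdpos : 0 ≤ (mm n : ℝ) * (2 * delta1 n / ell n) ^ n := by
      have : 0 ≤ delta1 n := Real.sqrt_nonneg _
      have := hnum.ell_pos
      positivity
    refine fx_load_le hq0 T x (Un (F x)) (fun y => Un (F y)) _ _ hdpos ?_ ?_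
    · have h1 := fx_un_mass_le facts hnum (seen n A x) (hrange x hx) (Un (F x)) (hUn x hx)
      have h2 := hcardP x hx
      linarith
    · intro u hu
      refine fx_mult_le hnum A T hA (fun x hx y hy hxy => (hTsep x hx y hy hxy).1) _ u
        (facts.norm_le u (hUn x hx u hu).1) ?_
      intro y hy huy
      exact (hUn y hy u huy).2
  have hE : Ex D q (fun S => ind (∀ y ∈ T, ¬ HAll (F y) S)) ≤ (1 - mu1 n / 2) ^ T.card := by
    refine engine D q hq0 hq1 T F (fun y hy C hC => (hF2 y hy C hC).1) (mu1 n)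
      (Real.exp (RR n)) (fx_mu1_pos hnum) (Real.one_le_exp hnum.RR_nonneg)
      (fun y hy => hnum.mu1_le.trans (hF3 y hy)) ?_ ?_ ?_
    · intro y hy u hu
      refine le_trans (le_of_eq ?_) (hF4 y hy u hu)
      exact Finset.prod_congr (fx_filter_irrel _ _ _ _) (fun _ _ => rfl)
    · intro x hx y hy hxy
      have h2 : 0 ≤ Real.exp (RR n) ^ 2 := by positivity
      refine le_trans (mul_le_mul_of_nonneg_left ?_ h2) hnum.exp_pair
      refine le_trans (le_of_eq ?_) (hpairmass x hx y hy hxy)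
      rw [fx_inter_irrel (Un (F x)) (Un (F y)) _ (fun a b => WithLp.instDecidableEq 2 _ a b)]
    · intro x hx
      have h2 : 0 ≤ 3 * mu1 n * Real.exp (RR n) ^ 2 := by
        have := fx_mu1_pos hnum
        positivity
      refine le_trans (mul_le_mul_of_nonneg_left ?_ h2) hnum.exp_load
      refine le_trans (le_of_eq ?_) (hloadmass x hx)
      refine Finset.sum_congr (fx_erase_irrel _ _ _ _) (fun y _ => ?_)
      rw [fx_inter_irrel (Un (F x)) (Un (F y)) _ (fun a b => WithLp.instDecidableEq 2 _ a b)]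
  refine ⟨T, ?_, ?_⟩
  · intro x hx
    have h := (hTG x (by exact_mod_cast hx)).1
    simpa using h
  · have hmono : Ex D q (fun S => ind (∀ x ∈ T, ∃ a ∈ A, x - a ∈ KP n S)) ≤
        Ex D q (fun S => ind (∀ y ∈ T, ¬ HAll (F y) S)) :=
      Ex_mono hq0 hq1 (fun S _ => ind_mono_of_imp (fx_hole_of_hit A T F S hF1))
    refine hmono.trans (hE.trans ?_)
    rw [hTcard]
    exact fx_final_exp hnum

end Vale.Agent.P230
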