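import Vale.Agent.P230.Items

/-! P230: the numerical hypotheses of the item construction hold for all large `n`. -/

noncomputable section

namespace Vale.Agent.P230

theorem ss_eq_sqrt (n : ℕ) : ss n = (Real.sqrt n)⁻¹ := by
  unfold ss ell
  have hn : (0 : ℝ) ≤ n := Nat.cast_nonneg n
  rw [← Real.rpow_natCast, ← Real.rpow_mul hn, Real.sqrt_eq_rpow, ← Real.rpow_neg hn]
  norm_num

theorem exp_eight_le : Real.exp 8 ≤ 6561 := by
  have h1 : Real.exp 8 = Real.exp 1 ^ 8 := by
    rw [← Real.exp_nat_mul]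
    norm_num
  have h2 : Real.exp 1 ≤ 3 := by
    have := Real.exp_one_lt_d9
    linarith
  rw [h1]
  calc Real.exp 1 ^ 8 ≤ 3 ^ 8 := pow_le_pow_left₀ (Real.exp_pos _).le h2 8
    _ = 6561 := by norm_num

/-- All the numerics of the items, for `n ≥ 10^48`. -/
theorem itemsNum_of_ge {n : ℕ} (hn : 10 ^ 48 ≤ n) : ItemsNum n := by
  have hnR : (10 : ℝ) ^ 48 ≤ n := by exact_mod_cast hn
  have hn0 : (0 : ℝ) < n := lt_of_lt_of_le (by positivity) hnR
  obtain ⟨y, hydef⟩ : ∃ y, y = Real.sqrt (Real.sqrt n) := ⟨_, rfl⟩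
  have hy2 : y ^ 2 = Real.sqrt n := by
    rw [hydef]
    exact Real.sq_sqrt (Real.sqrt_nonneg _)
  have hy4 : y ^ 4 = n := by
    have e : y ^ 4 = (y ^ 2) ^ 2 := by ring
    rw [e, hy2]
    exact Real.sq_sqrt hn0.le
  have hy1 : (10 : ℝ) ^ 12 ≤ y := by
    rw [hydef]
    apply Real.le_sqrt_of_sq_le
    apply Real.le_sqrt_of_sq_le
    norm_num at hnR ⊢
    exact hnR
  have hy0 : 0 < y := lt_of_lt_of_le (by positivity) hy1
  have hss : ss n = (y ^ 2)⁻¹ := by
    rw [ss_eq_sqrt, hy2]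
  have hns : (n : ℝ) * ss n = y ^ 2 := by
    rw [hss, ← hy4]
    field_simp
  have hlog : Real.log n ≤ 4 * y := by
    rw [← hy4, Real.log_pow]
    have := Real.log_le_sub_one_of_pos hy0
    push_cast
    linarith
  have hlog1 : 1 ≤ Real.log n := by
    rw [Real.le_log_iff_exp_le hn0]
    have h1 : Real.exp 1 ≤ 3 := by
      have := Real.exp_one_lt_d9
      linarith
    have h2 : (3 : ℝ) ≤ 10 ^ 48 := by norm_num
    linarith
  have hth : 64 * theta' n = 128 * Real.exp 8 * (1 / 10 ^ 15) * (n * Real.log n) := by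
    unfold theta' theta c0
    ring
  have hexp := exp_eight_le
  have hexp1 : 1 ≤ Real.exp 8 := Real.one_le_exp (by norm_num)
  have hnlog : 0 < (n : ℝ) * Real.log n := by positivity
  have hup0 : 128 * Real.exp 8 * (1 / 10 ^ 15) ≤ (1 : ℝ) / 1000 := by
    have : 128 * Real.exp 8 ≤ 128 * 6561 := by linarith
    norm_num at this ⊢
    linarith
  have hup : 64 * theta' n ≤ n * Real.log n := by
    rw [hth]
    have := mul_le_mul_of_nonneg_right hup0 hnlog.le
    nlinarith
  have hlo : 1 < 64 * theta' n := by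
    rw [hth]
    have h1 : (10 : ℝ) ^ 48 ≤ n * Real.log n := by nlinarith
    have h2 : (128 : ℝ) * (1 / 10 ^ 15) ≤ 128 * Real.exp 8 * (1 / 10 ^ 15) := by
      have : (128 : ℝ) * 1 ≤ 128 * Real.exp 8 := by linarith
      have h3 : (0 : ℝ) ≤ 1 / 10 ^ 15 := by positivity
      nlinarith
    have h3 : (128 : ℝ) * (1 / 10 ^ 15) * 10 ^ 48 ≤ 128 * Real.exp 8 * (1 / 10 ^ 15) * (n * Real.log n) :=
      mul_le_mul h2 h1 (by positivity) (by positivity)
    norm_num at h3
    norm_num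
    linarith
  have hlogle : Real.log n ≤ n := by
    have := Real.log_le_sub_one_of_pos hn0
    linarith
  have hL : Real.log (64 * theta' n) ≤ 8 * y := by
    have h1 : 64 * theta' n ≤ (n : ℝ) ^ 2 := by
      have : (n : ℝ) * Real.log n ≤ n * n := mul_le_mul_of_nonneg_left hlogle hn0.le
      nlinarith
    have h2 := Real.log_le_log (by linarith) h1
    rw [Real.log_pow] at h2
    push_cast at h2
    linarith
  have hL0 : 0 < Real.log (64 * theta' n) := Real.log_pos hlo
  have hJJ : (JJ n : ℝ) ≤ 8 * y + 1 := by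
    unfold JJ
    have := Nat.ceil_lt_add_one hL0.le
    linarith
  have hk : kappa = 1 / 10 ^ 7 := rfl
  refine ⟨?_, ?_, ?_, ?_, ?_, ?_, ?_⟩
  · have : 2 ≤ 10 ^ 48 := by norm_num
    omega
  · rw [hss]
    have h1 : (10 : ℝ) ^ 10 ≤ y ^ 2 := by nlinarith
    rw [one_div]
    exact inv_anti₀ (by positivity) h1
  · rw [hss]
    unfold eps1
    rw [← hy4]
    have h1 : 100 * y ^ 2 ≤ (y ^ 4) ^ 3 := by
      have h2 : (1 : ℝ) ≤ y := by
        norm_num at hy1
        linarith
      have h3 : 100 ≤ y ^ 10 := by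
        calc (100 : ℝ) ≤ ((10 : ℝ) ^ 12) ^ 10 := by norm_num
          _ ≤ y ^ 10 := pow_le_pow_left₀ (by positivity) hy1 10
      have e : (y ^ 4) ^ 3 = y ^ 10 * y ^ 2 := by ring
      rw [e]
      exact mul_le_mul_of_nonneg_right h3 (by positivity)
    rw [div_le_div_iff₀ (by positivity) (by norm_num), ← one_div, one_mul] <;> skip
    rw [div_mul_eq_mul_div, one_mul, le_div_iff₀ (by positivity)]
    linarith
  · unfold JJ
    exact Nat.ceil_pos.2 hL0
  · rw [hns]
    have : 10 ^ 12 * y ≤ y ^ 2 := by nlinarith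
    norm_num at this
    nlinarith
  · rw [hns]
    have : (1 : ℝ) ≤ y := by
      norm_num at hy1
      linarith
    nlinarith
  · rw [hns]
    have h1 : 16 * Y0 n ≤ (n : ℝ) ^ 3 := by
      have e : 16 * Y0 n = 32 * (64 * theta' n) := by
        unfold Y0
        ring
      rw [e]
      have h2 : 64 * theta' n ≤ (n : ℝ) ^ 2 := by
        have : (n : ℝ) * Real.log n ≤ n * n := mul_le_mul_of_nonneg_left hlogle hn0.le
        nlinarith
      have h3 : 32 * (n : ℝ) ^ 2 ≤ n * (n : ℝ) ^ 2 := by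
        apply mul_le_mul_of_nonneg_right _ (by positivity)
        have h4 : (32 : ℝ) ≤ 10 ^ 48 := by norm_num
        linarith
      nlinarith
    have h2 : (n : ℝ) ^ 3 = Real.exp (3 * Real.log n) := by
      rw [mul_comm, Real.exp_mul, Real.exp_log hn0]
      norm_cast
    have h3 : 16 * Y0 n * Real.exp (-(y ^ 2 / 60)) ≤ Real.exp (3 * Real.log n + -(y ^ 2 / 60)) := by
      rw [Real.exp_add, ← h2]
      exact mul_le_mul_of_nonneg_right h1 (Real.exp_pos _).le
    refine h3.trans (Real.exp_le_exp.2 ?_)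
    rw [hk]
    have h4 : 4 * (JJ n : ℝ) / (1 / 10 ^ 7) = 4 * 10 ^ 7 * (JJ n : ℝ) := by
      field_simp
    rw [h4]
    have h5 : 4 * 10 ^ 7 * (JJ n : ℝ) ≤ 4 * 10 ^ 7 * (8 * y + 1) :=
      mul_le_mul_of_nonneg_left hJJ (by positivity)
    have h6 : 10 ^ 12 * y ≤ y ^ 2 := by nlinarith
    norm_num at h5 h6 hy1 ⊢
    nlinarith

open Filter in
theorem itemsNum_eventually : ∀ᶠ n : ℕ in atTop, ItemsNum n :=
  eventually_atTop.2 ⟨10 ^ 48, fun _ hn => itemsNum_of_ge hn⟩

end Vale.Agent.P230
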