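import Vale.Agent.P230.Defs
import Vale.Agent.P230.EngineDefs

/-! P230: the real inequalities of the item construction (see notes/P230_blueprint.md, section 5). -/

noncomputable section

namespace Vale.Agent.P230

namespace ItemsReal

/-- The ratio of the cluster threshold to the norm of a point. -/
theorem Tg_ratio {s ρ N η t : ℝ} (hs : 0 < s) (hs1 : s ≤ 1 / 10 ^ 10) (hρ : 1 ≤ ρ) (hρ1 : ρ ≤ 1 + s / 100)
    (hη : 0 ≤ η) (hη1 : η ≤ s / 100) (ht : 99 / 100 ≤ t) (ht1 : t ≤ 1) (hN : ρ * (1 - η) < N)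
    (hN1 : N ≤ ρ) : t ≤ (t * ρ + 2 * s) / N ∧ (t * ρ + 2 * s) / N ≤ t + (12 / 5) * s := by
  have hN0 : 0 < N := by
    have : 0 < ρ * (1 - η) := by
      apply mul_pos (by linarith)
      linarith
    linarith
  constructor
  · rw [le_div_iff₀ hN0]
    nlinarith
  · rw [div_le_iff₀ hN0]
    have h1 : ρ * (1 - η) * (t + (12 / 5) * s) ≤ N * (t + (12 / 5) * s) :=
      mul_le_mul_of_nonneg_right hN.le (by positivity)
    have h2 : t * ρ + 2 * s ≤ ρ * (1 - η) * (t + (12 / 5) * s) := by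
      have h3 : η * (t + (12 / 5) * s) ≤ (s / 100) * (1 + (12 / 5) * s) := by
        apply mul_le_mul hη1 (by linarith) (by positivity) (by positivity)
      have h4 : (s / 100) * (1 + (12 / 5) * s) ≤ s / 90 := by nlinarith
      have h5 : (1 - η) * (t + (12 / 5) * s) - t ≥ (12 / 5) * s - s / 90 := by nlinarith
      have h6 : ρ * ((1 - η) * (t + (12 / 5) * s) - t) ≥ 1 * ((12 / 5) * s - s / 90) := by
        apply mul_le_mul hρ h5 (by nlinarith) (by linarith)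
      nlinarith
    linarith

/-- The difference of squares of the extreme norms. -/
theorem delta_le {s ρ η : ℝ} (hs : 0 < s) (hs1 : s ≤ 1 / 10 ^ 10) (hρ : 1 ≤ ρ) (hρ1 : ρ ≤ 1 + s / 100)
    (hη : 0 ≤ η) (hη1 : η ≤ s / 100) : ρ ^ 2 - (ρ * (1 - η)) ^ 2 ≤ s / 10 := by
  have h1 : ρ ^ 2 - (ρ * (1 - η)) ^ 2 = ρ ^ 2 * (2 * η - η ^ 2) := by ring
  rw [h1]
  have h2 : ρ ^ 2 ≤ 2 := by nlinarith
  have h3 : 2 * η - η ^ 2 ≤ 2 * η := by nlinarith [sq_nonneg η]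
  have h4 : 0 ≤ 2 * η - η ^ 2 := by nlinarith
  calc ρ ^ 2 * (2 * η - η ^ 2) ≤ 2 * (2 * η) := mul_le_mul h2 h3 h4 (by norm_num)
    _ ≤ s / 10 := by linarith

/-- The inequality behind the estimate of the set `Miss`. -/
theorem miss_sq {s A C Dl : ℝ} (hs : 0 < s) (hs1 : s ≤ 1 / 10 ^ 10) (hA : 9 / 10 ≤ A) (hA1 : A ≤ 1001 / 1000)
    (hC : 98 / 100 ≤ C) (hC1 : C ≤ 101 / 100) (hD0 : 0 ≤ Dl) (hD : Dl ≤ s / 10) :
    (A * (1 + s / 3)) ^ 2 * (C + Dl + 2 * s) ≤ (A + 2 * s) ^ 2 * C := by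
  have h1 : (1 + s / 3) ^ 2 ≤ 1 + s := by nlinarith
  have h2 : (1 + s) * (C + Dl + 2 * s) - C ≤ (16 / 5) * s := by nlinarith
  have h3 : 0 ≤ C + Dl + 2 * s := by linarith
  have h4 : (A * (1 + s / 3)) ^ 2 * (C + Dl + 2 * s)
      ≤ A ^ 2 * ((1 + s) * (C + Dl + 2 * s)) := by
    rw [mul_pow]
    have h5 : A ^ 2 * (1 + s / 3) ^ 2 ≤ A ^ 2 * (1 + s) :=
      mul_le_mul_of_nonneg_left h1 (by positivity)
    nlinarith
  have h6 : A ^ 2 * ((1 + s) * (C + Dl + 2 * s)) ≤ A ^ 2 * (C + (16 / 5) * s) :=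
    mul_le_mul_of_nonneg_left (by linarith) (by positivity)
  have h7 : A ^ 2 * (16 / 5 * s) ≤ A * (1001 / 1000 * (16 / 5) * s) := by
    have : A * A ≤ A * (1001 / 1000) := mul_le_mul_of_nonneg_left hA1 (by linarith)
    have h8 : 0 ≤ (16 / 5) * s := by positivity
    nlinarith
  have h9 : A * (1001 / 1000 * (16 / 5) * s) ≤ A * (4 * s * C) := by
    apply mul_le_mul_of_nonneg_left _ (by linarith)
    nlinarith
  have e : (A + 2 * s) ^ 2 * C = A ^ 2 * C + A * (4 * s * C) + 4 * s ^ 2 * C := by ring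
  have h10 : 0 ≤ 4 * s ^ 2 * C := by positivity
  nlinarith

/-- From a bound of squares to the bound of the norms. -/
theorem le_of_sq {a b : ℝ} (hb : 0 ≤ b) (h : a ^ 2 ≤ b ^ 2) : a ≤ b := by
  by_contra hc
  push_neg at hc
  have : b ^ 2 < a ^ 2 := by nlinarith
  linarith

/-- The estimate of the set `Miss` in terms of norms. -/
theorem miss_norm {s ρ η N W t : ℝ} (hs : 0 < s) (hs1 : s ≤ 1 / 10 ^ 10) (hρ : 1 ≤ ρ)
    (hρ1 : ρ ≤ 1 + s / 100) (hη : 0 ≤ η) (hη1 : η ≤ s / 100) (ht : 99 / 100 ≤ t) (ht1 : t ≤ 1)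
    (hN : ρ * (1 - η) < N) (hN1 : N ≤ ρ) (hW0 : 0 ≤ W)
    (hW : W ^ 2 ≤ N ^ 2 + (ρ ^ 2 - (ρ * (1 - η)) ^ 2) + 2 * s) :
    ((t * ρ + 2 * s) / N) * (1 + s / 3) * W ≤ t * ρ + 2 * s + 2 * s := by
  have hN0 : 0 < N := by
    have : 0 < ρ * (1 - η) := by
      apply mul_pos (by linarith)
      linarith
    linarith
  obtain ⟨A, hAdef⟩ : ∃ A, A = t * ρ + 2 * s := ⟨_, rfl⟩
  have hA : 9 / 10 ≤ A := by rw [hAdef]; nlinarith
  have hA1 : A ≤ 1001 / 1000 := by rw [hAdef]; nlinarith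
  rw [← hAdef]
  have hC : 98 / 100 ≤ N ^ 2 := by
    have h1 : 1 - η ≤ N := by nlinarith
    have h2 : 1 - s / 100 ≤ N := by linarith
    nlinarith
  have hC1 : N ^ 2 ≤ 101 / 100 := by
    have h1 : N ≤ 1 + s / 100 := by linarith
    nlinarith
  have hD0 : 0 ≤ ρ ^ 2 - (ρ * (1 - η)) ^ 2 := by
    have h1 : ρ ^ 2 - (ρ * (1 - η)) ^ 2 = ρ ^ 2 * (2 * η - η ^ 2) := by ring
    rw [h1]
    apply mul_nonneg (by positivity)
    nlinarith
  have hD := delta_le hs hs1 hρ hρ1 hη hη1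
  have h := miss_sq hs hs1 hA hA1 hC hC1 hD0 hD
  have h1 : (A * (1 + s / 3)) ^ 2 * W ^ 2 ≤ (A * (1 + s / 3)) ^ 2 * (N ^ 2 + (ρ ^ 2 - (ρ * (1 - η)) ^ 2) + 2 * s) :=
    mul_le_mul_of_nonneg_left hW (by positivity)
  have h2 : (A * (1 + s / 3) * W) ^ 2 ≤ ((A + 2 * s) * N) ^ 2 := by
    rw [mul_pow, mul_pow (A + 2 * s)]
    exact h1.trans h
  have h3 := le_of_sq (by positivity) h2
  have e : (A / N) * (1 + s / 3) * W = A * (1 + s / 3) * W / N := by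
    field_simp
  rw [e, div_le_iff₀ hN0]
  exact h3

/-- The estimate for two clusters in terms of norms. -/
theorem cc_norm {s N W A : ℝ} (hs : 0 < s) (hs1 : s ≤ 1 / 10 ^ 10) (hA : 0 ≤ A) (hN0 : 0 < N)
    (hC1 : N ^ 2 ≤ 3 / 2) (hW0 : 0 ≤ W) (hW : W ^ 2 ≤ N ^ 2 - s / 5) :
    (A / N) * (1 + s / 20) * W ≤ A := by
  have h1 : (1 + s / 20) ^ 2 ≤ 1 + s / 8 := by nlinarith
  have h0 : 0 ≤ W ^ 2 := by positivity
  have h2 : (1 + s / 20) ^ 2 * W ^ 2 ≤ (1 + s / 8) * (N ^ 2 - s / 5) := by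
    apply mul_le_mul h1 hW h0 (by positivity)
  have h3 : (1 + s / 8) * (N ^ 2 - s / 5) ≤ N ^ 2 := by nlinarith
  have h4 : ((1 + s / 20) * W) ^ 2 ≤ N ^ 2 := by
    rw [mul_pow]
    linarith
  have h5 := le_of_sq hN0.le h4
  have e : (A / N) * (1 + s / 20) * W = A * ((1 + s / 20) * W) / N := by
    field_simp
  rw [e, div_le_iff₀ hN0]
  exact mul_le_mul_of_nonneg_left h5 hA

/-- The estimate for two far singles in terms of norms. -/
theorem far_norm {s ρ W t : ℝ} (hs : 0 < s) (hs1 : s ≤ 1 / 10 ^ 10) (ht : 0 ≤ t) (hρ : 1 ≤ ρ)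
    (hρ1 : ρ ^ 2 ≤ 3 / 2) (hW0 : 0 ≤ W) (hW : W ^ 2 ≤ ρ ^ 2 - s / 16) :
    (t + t * (s / 50)) * W ≤ t * ρ := by
  have h1 : (1 + s / 50) ^ 2 ≤ 1 + s / 24 := by nlinarith
  have h0 : 0 ≤ W ^ 2 := by positivity
  have h2 : (1 + s / 50) ^ 2 * W ^ 2 ≤ (1 + s / 24) * (ρ ^ 2 - s / 16) := by
    apply mul_le_mul h1 hW h0 (by positivity)
  have h3 : (1 + s / 24) * (ρ ^ 2 - s / 16) ≤ ρ ^ 2 := by nlinarith
  have h4 : ((1 + s / 50) * W) ^ 2 ≤ ρ ^ 2 := by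
    rw [mul_pow]
    linarith
  have h5 := le_of_sq (by linarith) h4
  have e : (t + t * (s / 50)) * W = t * ((1 + s / 50) * W) := by ring
  rw [e]
  exact mul_le_mul_of_nonneg_left h5 ht

/-- The ratio for a single at depth `k`. -/
theorem tau_ratio {ρ N x t : ℝ} (hρ : 1 ≤ ρ) (hx : 0 ≤ x) (hx1 : x ≤ 1 / 4) (ht : 0 ≤ t) (ht1 : t ≤ 1)
    (hN : ρ * (1 - x) < N) (hN1 : N ≤ ρ) : t ≤ t * ρ / N ∧ t * ρ / N ≤ t + 2 * x := by
  have hN0 : 0 < N := by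
    have : 0 < ρ * (1 - x) := by
      apply mul_pos (by linarith)
      linarith
    linarith
  constructor
  · rw [le_div_iff₀ hN0]
    exact mul_le_mul_of_nonneg_left hN1 ht
  · rw [div_le_iff₀ hN0]
    have h1 : ρ * (1 - x) * (t + 2 * x) ≤ N * (t + 2 * x) :=
      mul_le_mul_of_nonneg_right hN.le (by positivity)
    have h2 : t ≤ (1 - x) * (t + 2 * x) := by nlinarith
    have h3 : t * ρ ≤ ρ * (1 - x) * (t + 2 * x) := by
      have := mul_le_mul_of_nonneg_left h2 (by linarith : (0 : ℝ) ≤ ρ)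
      linarith
    linarith

/-- A lower bound of `1 - exp (-x)`. -/
theorem one_sub_exp_ge {x y : ℝ} (hy0 : 0 ≤ y) (hy1 : y ≤ 1) (hxy : y ≤ x) :
    y / 2 ≤ 1 - Real.exp (-x) := by
  have h1 : Real.exp (-x) ≤ Real.exp (-y) := Real.exp_le_exp.2 (by linarith)
  have h2 : Real.exp (-y) ≤ 1 - y / 2 := by
    have h3 : 1 + y ≤ Real.exp y := by linarith [Real.add_one_le_exp y]
    have h4 : Real.exp (-y) = (Real.exp y)⁻¹ := Real.exp_neg y
    rw [h4]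
    have h5 : (Real.exp y)⁻¹ ≤ (1 + y)⁻¹ := inv_anti₀ (by linarith) h3
    refine h5.trans ?_
    rw [inv_le_iff_one_le_mul₀ (by linarith)]
    nlinarith
  linarith

end ItemsReal

end Vale.Agent.P230
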