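import Vale.Agent.P230.FinalCore
import Vale.Agent.P230.Fixed
import Vale.Agent.P230.ItemsParams

/-! P230: all numerical hypotheses hold for large `n`; the final bound. -/

open MeasureTheory Metric Set Filter
open scoped BigOperators ENNReal Pointwise

noncomputable section

namespace Vale.Agent.P230

open Engine

lemma Big.rho_le {n : ℕ} (h : Big n) : rho n ≤ 1 + 1 / 10 ^ 100 := by
  unfold rho
  have := h.eps1_le
  linarith

lemma Big.rho_ge {n : ℕ} (h : Big n) : 1 ≤ rho n := by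
  unfold rho
  have := h.eps1_pos
  linarith

lemma Big.JJ_frac {n : ℕ} (h : Big n) : (JJ n : ℝ) / n ≤ 1 / 10 ^ 30 := by
  have h1 := h.JJ_le
  have hn := h.n_pos
  have hL := h.L_le
  have hx := h.x_ge
  have hx8 := h.x_pow
  rw [div_le_iff₀ hn]
  -- 3 L ≤ x ≤ n / 10^30
  have hxp : 0 < xx n := h.x_pos
  have h2 : xx n ≤ 1 / 10 ^ 30 * n := by
    rw [← hx8]
    have h3 : (1 : ℝ) ≤ xx n := h.x_ge_1
    have h4 : (10 : ℝ) ^ 30 ≤ xx n := le_trans (by norm_num) hx
    have h5 : xx n * 10 ^ 30 ≤ xx n * xx n := mul_le_mul_of_nonneg_left h4 hxp.le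
    have h6 : xx n * xx n ≤ xx n ^ 8 := by
      have : xx n ^ 2 ≤ xx n ^ 8 := pow_le_pow_right₀ h3 (by norm_num)
      nlinarith
    linarith
  have h7 : LL n * 10 ^ 40 ≤ xx n := hL
  have hLp := h.L_pos
  nlinarith

lemma Big.rjJ_ge {n : ℕ} (h : Big n) : 1 - 2 / 10 ^ 30 ≤ rj n (JJ n) := by
  unfold rj
  have h1 := h.JJ_frac
  have h2 := h.rho_ge
  have h3 := h.rho_le
  nlinarith

theorem fixedNum_of_big {n : ℕ} (h : Big n) : FixedNum n := by
  have hn := h.n_pos
  have hrho1 := h.rho_ge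
  have hrho2 := h.rho_le
  have hell := h.ell_pos
  have hell2 := h.ell_le
  have hk : kappa = 1 / 10 ^ 7 := rfl
  have ht1 : t1 = 1 - 1 / 10 ^ 7 := by unfold t1; rw [hk]
  have htau1 : tau n = t1 * rho n := rfl
  have hrj := h.rjJ_ge
  have hrjpos : 0 < rj n (JJ n) := lt_of_lt_of_le (by norm_num) hrj
  have htaup : 0 < tau n := by
    rw [htau1, ht1]
    apply mul_pos (by norm_num) (by linarith)
  have htau_le : tau n ≤ 1 := by
    rw [htau1, ht1]
    nlinarith
  have htau_ge : (9 / 10 : ℝ) ≤ tau n := by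
    rw [htau1, ht1]
    nlinarith
  have hitems : ItemsNum n := itemsNum_of_ge (by
    have h1 := h.n_ge_big
    have h2 : ((10 : ℝ) ^ 48) ≤ n := le_trans (by norm_num) h1
    exact_mod_cast h2)
  refine
    { items := hitems
      one_le_n := by have := h.n_ge; omega
      JJ_pos := hitems.JJ_pos
      M0_pos := by exact_mod_cast h.M0_pos
      mm_pos := by exact_mod_cast h.mm_ge_one
      log_pos := h.L_pos
      n_pos := hn
      Y0_nonneg := h.Y0_pos.le
      ell_pos := hell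
      ell_sq_le := ?_
      rho_sq_le := ?_
      rho_pos := by linarith
      tau_pos := htaup
      RR_nonneg := h.RR_nonneg
      mu1_le := h.mu_le
      exp_pair := ?_
      exp_load := ?_
      M0_le := h.M0_bound
      pack_t := ?_
      pack_r := ?_
      tau_div := ?_
      rjJ_pos := hrjpos }
  · rw [hk]
    have : ell n ^ 2 ≤ (1 / 10 ^ 40) ^ 2 := pow_le_pow_left₀ hell.le hell2 2
    refine this.trans ?_
    norm_num
  · nlinarith
  · have := h.pair
    calc Real.exp (RR n) ^ 2 * ((Y0 n) ^ 2 * (2 * Real.exp (-(n * ell n ^ 2 / 16))))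
        = Real.exp (RR n) ^ 2 * Y0 n ^ 2 * 2 * Real.exp (-(n * ell n ^ 2 / 16)) := by ring
      _ ≤ 1 := this
  · have := h.load
    calc 3 * mu1 n * Real.exp (RR n) ^ 2 * (2 * Y0 n * ((mm n : ℝ) * (2 * delta1 n / ell n) ^ n))
        = 3 * mu1 n * Real.exp (RR n) ^ 2 * (2 * Y0 n * mm n * (2 * delta1 n / ell n) ^ n) := by ring
      _ ≤ 1 / 2 := this
  · linarith
  · have h1 : tau n - ell n / 2 ≤ rho n + ell n / 2 := by linarith
    have h2 : 0 ≤ tau n - ell n / 2 := by linarith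
    have := mul_self_le_mul_self h2 h1
    nlinarith
  · rw [div_le_iff₀ hrjpos]
    unfold tmax
    rw [hk]
    have h3 : tau n ≤ (1 - 1 / 10 ^ 7) * (1 + 1 / 10 ^ 100) := by
      rw [htau1, ht1]
      exact mul_le_mul_of_nonneg_left hrho2 (by norm_num)
    nlinarith


/-- The witness version in every large dimension. -/
theorem main_body {n : ℕ} (hB : Big n) : ∃ K : Set (EE n), IsBody K ∧
    ENNReal.ofReal (theta n) ≤ thetaT K :=
  main_bound_of_fixed hB
    (fun {_ _ _} facts A hA hg => fixed_bound facts (fixedNum_of_big hB) A hA hg)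

/-- The bound in all large dimensions (witness form). -/
theorem main_bound : ∃ n₀ : ℕ, ∀ n ≥ n₀, ∃ K : Set (EE n), IsBody K ∧
    ENNReal.ofReal (theta n) ≤ thetaT K := by
  obtain ⟨n₀, hn₀⟩ := eventually_atTop.mp eventually_big
  exact ⟨n₀, fun n hn => main_body (hn₀ n hn)⟩

/-- Naszodi's question has a negative answer. -/
theorem no_linear_bound : ¬ ∃ C : ℝ, ∀ (n : ℕ) (K : Set (EE n)), IsBody K →
    thetaT K ≤ ENNReal.ofReal (C * n) := by
  rintro ⟨C, hC⟩
  have hc0 : (0 : ℝ) < c0 := by unfold c0; norm_num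
  have h1 : Tendsto (fun n : ℕ => Real.log (n : ℝ)) atTop atTop :=
    Real.tendsto_log_atTop.comp tendsto_natCast_atTop_atTop
  have h2 : ∀ᶠ n : ℕ in atTop, C / c0 < Real.log n := h1.eventually_gt_atTop _
  obtain ⟨n, hB, hlog⟩ := (eventually_big.and h2).exists
  have hn := hB.n_pos
  obtain ⟨K, hK, h3⟩ := main_body hB
  have h4 := h3.trans (hC n K hK)
  have hlogpos : 0 < Real.log n := hB.L_pos
  have h5 : 0 < theta n := hB.theta_pos
  rcases (ENNReal.ofReal_le_ofReal_iff' ).mp h4 with h6 | h6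
  · unfold theta at h6
    rw [div_lt_iff₀ hc0] at hlog
    have h7 : (c0 * n) * Real.log n ≤ C * n := h6
    have h8 : c0 * Real.log n ≤ C := by
      have h9 : (c0 * Real.log n) * n ≤ C * n := by linarith [mul_comm c0 (n : ℝ)]
      exact le_of_mul_le_mul_right h9 hn
    linarith
  · linarith

/-- `Θ_T(n) ≥ c n log n` for all large `n`. -/
theorem lower_bound : ∃ c : ℝ, 0 < c ∧ ∃ n₀ : ℕ, ∀ n ≥ n₀,
    ∃ K : Set (EE n), IsBody K ∧ ENNReal.ofReal (c * n * Real.log n) ≤ thetaT K ∧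
      ENNReal.ofReal (c * n * Real.log n) ≤ bigThetaT n := by
  refine ⟨c0, by unfold c0; norm_num, ?_⟩
  obtain ⟨n₀, hn₀⟩ := eventually_atTop.mp eventually_big
  refine ⟨n₀, fun n hn => ?_⟩
  obtain ⟨K, hK, h⟩ := main_body (hn₀ n hn)
  exact ⟨K, hK, h, le_bigThetaT_of_body hK h⟩

end Vale.Agent.P230
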